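import Vale.Agent.P235.R2.H802.Defs
import Vale.Agent.P235.H105.Hop

set_option linter.all false

/-! Adding a vertex inside a face, joined to the two ends of an edge of this face and to a third
vertex of this face. -/

namespace Vale.Agent.P235.Tight

open Set

/-- the six new darts -/
inductive ZD
  | az | za | bz | zb | qz | zq
  deriving DecidableEq

instance : Fintype ZD :=
  ⟨{.az, .za, .bz, .zb, .qz, .zq}, by intro n; cases n <;> simp⟩

/-- reversal of new darts -/
def ZD.rev : ZD → ZD
  | .az => .za
  | .za => .az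
  | .bz => .zb
  | .zb => .bz
  | .qz => .zq
  | .zq => .qz

/-- rotation of the new darts -/
def ZD.rot : Equiv.Perm ZD where
  toFun
    | .az => .az
    | .bz => .bz
    | .qz => .qz
    | .za => .zq
    | .zq => .zb
    | .zb => .za
  invFun
    | .az => .az
    | .bz => .bz
    | .qz => .qz
    | .zq => .za
    | .zb => .zq
    | .za => .zb
  left_inv := by intro n; cases n <;> rfl
  right_inv := by intro n; cases n <;> rfl

/-- end points of the new darts -/
def zdP {V : Type} (a b q : V) : ZD → Option V × Option V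
  | .az => (some a, none)
  | .za => (none, some a)
  | .bz => (some b, none)
  | .zb => (none, some b)
  | .qz => (some q, none)
  | .zq => (none, some q)

/-- old and new darts -/
def toZ {V : Type} (G : SimpleGraph V) (a b q : V) : G.Dart ⊕ ZD → (addZ G a b q).Dart
  | .inl d => ⟨(some d.fst, some d.snd), d.adj⟩
  | .inr n => ⟨zdP a b q n, by
      cases n
      · exact Or.inl rfl
      · exact Or.inl rfl
      · exact Or.inr (Or.inl rfl)
      · exact Or.inr (Or.inl rfl)
      · exact Or.inr (Or.inr rfl)
      · exact Or.inr (Or.inr rfl)⟩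

theorem toZ_bij {V : Type} (G : SimpleGraph V) {a b q : V} (hab : a ≠ b) (haq : q ≠ a)
    (hbq : q ≠ b) : Function.Bijective (toZ G a b q) := by
  constructor
  · rintro (d | n) (d' | n') h
    · have h1 : (some d.fst, some d.snd) = ((some d'.fst, some d'.snd) : Option V × Option V) :=
        congrArg SimpleGraph.Dart.toProd h
      simp only [Prod.mk.injEq, Option.some.injEq] at h1
      congr 1
      exact SimpleGraph.Dart.ext _ _ (Prod.ext h1.1 h1.2)
    · exfalso
      have h1 : (some d.fst, some d.snd) = zdP a b q n' :=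
        congrArg SimpleGraph.Dart.toProd h
      cases n' <;> simp [zdP] at h1
    · exfalso
      have h1 : zdP a b q n = (some d'.fst, some d'.snd) :=
        congrArg SimpleGraph.Dart.toProd h
      cases n <;> simp [zdP] at h1
    · have h1 : zdP a b q n = zdP a b q n' := congrArg SimpleGraph.Dart.toProd h
      cases n <;> cases n' <;> simp [zdP, hab, hab.symm, haq, haq.symm, hbq, hbq.symm] at h1 ⊢
  · rintro ⟨⟨x, y⟩, h⟩
    rcases x with _ | x <;> rcases y with _ | y
    · exact h.elim
    · rcases h with rfl | rfl | rfl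
      · exact ⟨.inr .za, rfl⟩
      · exact ⟨.inr .zb, rfl⟩
      · exact ⟨.inr .zq, rfl⟩
    · rcases h with rfl | rfl | rfl
      · exact ⟨.inr .az, rfl⟩
      · exact ⟨.inr .bz, rfl⟩
      · exact ⟨.inr .qz, rfl⟩
    · exact ⟨.inl ⟨(x, y), h⟩, rfl⟩

/-- constant on cycles -/
theorem z_const_cycle {α β : Type} {f : Equiv.Perm α} {c : α → β} (h : ∀ x, c (f x) = c x)
    {x y : α} (hxy : f.SameCycle x y) : c x = c y := by
  have hs : ∀ (n : ℤ) (d : α), c ((f ^ n) d) = c d := by
    intro n
    induction n using Int.induction_on with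
    | zero => intro d; rfl
    | succ n ih =>
      intro d
      rw [zpow_add_one, Equiv.Perm.mul_apply, ih, h]
    | pred n ih =>
      intro d
      have h3 := h (f⁻¹ d)
      rw [show f (f⁻¹ d) = d from Equiv.apply_symm_apply _ _] at h3
      rw [zpow_sub_one, Equiv.Perm.mul_apply, ih, ← h3]
  obtain ⟨n, hn⟩ := hxy
  rw [← hn, hs]

/-- relations containing all steps contain all cycles -/
theorem z_rel_cycle {α : Type} {f : Equiv.Perm α} {S : α → α → Prop} (hr : ∀ x, S x x)
    (hs : ∀ x y, S x y → S y x) (ht : ∀ x y z, S x y → S y z → S x z) (h : ∀ x, S x (f x))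
    {x y : α} (hxy : f.SameCycle x y) : S x y := by
  have hn : ∀ (n : ℤ) (d : α), S d ((f ^ n) d) := by
    intro n
    induction n using Int.induction_on with
    | zero => intro d; exact hr d
    | succ n ih =>
      intro d
      rw [zpow_add_one, Equiv.Perm.mul_apply]
      exact ht _ _ _ (h d) (ih _)
    | pred n ih =>
      intro d
      have h3 := h (f⁻¹ d)
      rw [show f (f⁻¹ d) = d from Equiv.apply_symm_apply _ _] at h3
      rw [zpow_sub_one, Equiv.Perm.mul_apply]
      exact ht _ _ _ (hs _ _ h3) (ih _)
  obtain ⟨n, rfl⟩ := hxy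
  exact hn n x

theorem addZ_connected {V : Type} {G : SimpleGraph V} (a b q : V) (hc : G.Connected) :
    (addZ G a b q).Connected := by
  let f : G →g addZ G a b q := ⟨some, fun h => h⟩
  have h1 : ∀ x y : V, (addZ G a b q).Reachable (some x) (some y) := fun x y =>
    (hc.preconnected x y).map f
  have h2 : ∀ x : Option V, (addZ G a b q).Reachable x (some a) := by
    rintro (_ | x)
    · exact SimpleGraph.Adj.reachable (Or.inl rfl : (addZ G a b q).Adj none (some a))
    · exact h1 x a
  exact { preconnected := fun x y => (h2 x).trans (h2 y).symm, nonempty := ⟨some a⟩ }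

theorem card_dart_nat {V : Type} [Finite V] (G : SimpleGraph V) :
    Nat.card G.Dart = 2 * Nat.card G.edgeSet := by
  classical
  have := Fintype.ofFinite V
  rw [Nat.card_eq_fintype_card, Nat.card_eq_fintype_card,
    SimpleGraph.dart_card_eq_twice_card_edges, SimpleGraph.edgeFinset_card]

theorem rowStar : RowStar := by
  classical
  intro V _ G σ d₀ x q s t hG hσ hs ht hd hq hqa hqb
  have hc : (addZ G x.fst x.snd q).Connected := addZ_connected _ _ _ hG
  set φ := faceNext σ with hφ
  have hDart : Finite G.Dart := finite_dart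
  have hab : x.fst ≠ x.snd := x.adj.ne
  have hφa : ∀ d, φ d = σ d.symm := fun _ => rfl
  have hφf : ∀ d, (φ d).fst = d.snd := fun d => faceNext_fst hσ.fst d
  -- the third corner
  obtain ⟨dq', hdq', hdqf'⟩ := hq
  have hex : ∃ k : ℕ, ((φ ^ k) x).fst = q := by
    obtain ⟨n, hn⟩ := exists_pow_face hdq'
    exact ⟨n, by rw [hn]; exact hdqf'⟩
  set k := Nat.find hex with hk
  have hkq : ((φ ^ k) x).fst = q := Nat.find_spec hex
  have hmin : ∀ i, i < k → ((φ ^ i) x).fst ≠ q := fun i hi => Nat.find_min hex hi
  have hk2 : 2 ≤ k := by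
    rcases Nat.lt_or_ge k 2 with h | h
    · exfalso
      interval_cases k
      · exact hqa hkq.symm
      · apply hqb
        rw [← hkq, pow_one, hφf]
    · exact h
  set A : Set G.Dart := {d | ∃ i, 1 ≤ i ∧ i < k ∧ (φ ^ i) x = d} with hA
  set dq := (φ ^ k) x with hdq
  have hsame : ∀ i : ℕ, φ.SameCycle x ((φ ^ i) x) := fun i =>
    ⟨(i : ℤ), by rw [zpow_natCast]⟩
  have hxA : x ∉ A := by
    rintro ⟨i, h1, h2, h3⟩
    apply hmin (k - i) (by omega)
    have : (φ ^ k) x = (φ ^ (k - i)) ((φ ^ i) x) := by
      rw [← Equiv.Perm.mul_apply, ← pow_add]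
      congr 2
      omega
    rw [h3] at this
    rw [← this]
    exact hkq
  have hqA : dq ∉ A := by
    rintro ⟨i, h1, h2, h3⟩
    apply hmin i h2
    rw [h3]
    exact hkq
  have hdqx : dq ≠ x := fun h => hqa (by rw [← hkq, h])
  have hA1 : φ x ∈ A := ⟨1, le_refl _, by omega, by rw [pow_one]⟩
  have hAs : ∀ d ∈ A, φ d ≠ dq → φ d ∈ A := by
    rintro d ⟨i, h1, h2, rfl⟩ h
    have h3 : φ ((φ ^ i) x) = (φ ^ (i + 1)) x := by
      rw [pow_succ', Equiv.Perm.mul_apply]
    refine ⟨i + 1, by omega, ?_, h3.symm⟩
    by_contra h4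
    apply h
    rw [h3, hdq]
    congr 2
    omega
  have hAb : ∀ d, d ≠ x → d ∉ A → φ d ∉ A := by
    rintro d h1 h2 ⟨i, h3, h4, h5⟩
    obtain ⟨j, rfl⟩ : ∃ j, i = j + 1 := ⟨i - 1, by omega⟩
    rw [pow_succ', Equiv.Perm.mul_apply] at h5
    have h6 := φ.injective h5
    rcases Nat.eq_zero_or_pos j with h7 | h7
    · subst h7
      exact h1 (by rw [← h6]; rfl)
    · exact h2 ⟨j, h7, by omega, h6⟩
  have hAq : ∀ d, φ d = dq → d ∈ A := by
    intro d h
    refine ⟨k - 1, by omega, by omega, ?_⟩
    apply φ.injective
    rw [h, ← Equiv.Perm.mul_apply, ← pow_succ']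
    rw [hdq]
    congr 2
    omega
  have hAx : ∀ d, φ d = x → d ∉ A := by
    rintro d h h1
    have h2 := hAs d h1 (by rw [h]; exact hdqx.symm)
    rw [h] at h2
    exact hxA h2
  have hφx : φ x ≠ x := fun h => hxA (by rw [h] at hA1; exact hA1)
  have hAc : ∀ d ∈ A, φ.SameCycle x d := by
    rintro d ⟨i, _, _, rfl⟩
    exact hsame i
  -- the corners
  set ya : G.Dart := σ⁻¹ x with hya
  have hσya : σ ya = x := Equiv.apply_symm_apply _ _
  have hyaf : ya.fst = x.fst := by rw [← hσ.fst ya, hσya]
  set yq : G.Dart := σ⁻¹ dq with hyq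
  have hσyq : σ yq = dq := Equiv.apply_symm_apply _ _
  have hyqf : yq.fst = q := by rw [← hσ.fst yq, hσyq]; exact hkq
  have hxs : x.symm.fst = x.snd := rfl
  have n1 : ya ≠ x.symm := fun e => hab (by rw [← hyaf, e]; rfl)
  have n2 : ya ≠ yq := fun e => hqa (by rw [← hyaf, e, hyqf])
  have n3 : x.symm ≠ yq := fun e => hqb (by rw [← hxs, e, hyqf])
  set s1 : Equiv.Perm (G.Dart ⊕ ZD) := Equiv.swap (.inl ya) (.inr .az) with hs1
  set s2 : Equiv.Perm (G.Dart ⊕ ZD) := Equiv.swap (.inl x.symm) (.inr .bz) with hs2
  set s3 : Equiv.Perm (G.Dart ⊕ ZD) := Equiv.swap (.inl yq) (.inr .qz) with hs3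
  set π : Equiv.Perm (G.Dart ⊕ ZD) := (Equiv.sumCongr σ ZD.rot) * s1 * s2 * s3 with hπ
  have hπa : ∀ z, π z = Equiv.sumCongr σ ZD.rot (s1 (s2 (s3 z))) := fun _ => rfl
  have w1 : s1 (.inl ya) = .inr .az := Equiv.swap_apply_left _ _
  have w2 : s1 (.inr .az) = .inl ya := Equiv.swap_apply_right _ _
  have w3 : s2 (.inl x.symm) = .inr .bz := Equiv.swap_apply_left _ _
  have w4 : s2 (.inr .bz) = .inl x.symm := Equiv.swap_apply_right _ _
  have w5 : s3 (.inl yq) = .inr .qz := Equiv.swap_apply_left _ _
  have w6 : s3 (.inr .qz) = .inl yq := Equiv.swap_apply_right _ _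
  have u1 : ∀ d, d ≠ ya → s1 (.inl d) = .inl d := fun d h =>
    Equiv.swap_apply_of_ne_of_ne (by simpa using h) (by simp)
  have u2 : ∀ n : ZD, n ≠ .az → s1 (.inr n) = .inr n := fun n h =>
    Equiv.swap_apply_of_ne_of_ne (by simp) (by simpa using h)
  have u3 : ∀ d, d ≠ x.symm → s2 (.inl d) = .inl d := fun d h =>
    Equiv.swap_apply_of_ne_of_ne (by simpa using h) (by simp)
  have u4 : ∀ n : ZD, n ≠ .bz → s2 (.inr n) = .inr n := fun n h =>
    Equiv.swap_apply_of_ne_of_ne (by simp) (by simpa using h)
  have u5 : ∀ d, d ≠ yq → s3 (.inl d) = .inl d := fun d h =>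
    Equiv.swap_apply_of_ne_of_ne (by simpa using h) (by simp)
  have u6 : ∀ n : ZD, n ≠ .qz → s3 (.inr n) = .inr n := fun n h =>
    Equiv.swap_apply_of_ne_of_ne (by simp) (by simpa using h)
  have pa : π (.inl ya) = .inr .az := by
    rw [hπa, u5 _ n2, u3 _ n1, w1]
    rfl
  have pb : π (.inl x.symm) = .inr .bz := by
    rw [hπa, u5 _ n3, w3, u2 _ (by simp)]
    rfl
  have pq : π (.inl yq) = .inr .qz := by
    rw [hπa, w5, u4 _ (by simp), u2 _ (by simp)]
    rfl
  have po : ∀ d, d ≠ ya → d ≠ x.symm → d ≠ yq → π (.inl d) = .inl (σ d) := by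
    intro d h1 h2 h3
    rw [hπa, u5 _ h3, u3 _ h2, u1 _ h1]
    rfl
  have ra : π (.inr .az) = .inl x := by
    rw [hπa, u6 _ (by simp), u4 _ (by simp), w2]
    show Sum.inl (σ ya) = _
    rw [hσya]
  have rb : π (.inr .bz) = .inl (φ x) := by
    rw [hπa, u6 _ (by simp), w4, u1 _ n1.symm]
    rfl
  have rq : π (.inr .qz) = .inl dq := by
    rw [hπa, w6, u3 _ n3.symm, u1 _ n2.symm]
    show Sum.inl (σ yq) = _
    rw [hσyq]
  have za1 : π (.inr .za) = .inr .zq := by
    rw [hπa, u6 _ (by simp), u4 _ (by simp), u2 _ (by simp)]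
    rfl
  have zq1 : π (.inr .zq) = .inr .zb := by
    rw [hπa, u6 _ (by simp), u4 _ (by simp), u2 _ (by simp)]
    rfl
  have zb1 : π (.inr .zb) = .inr .za := by
    rw [hπa, u6 _ (by simp), u4 _ (by simp), u2 _ (by simp)]
    rfl
  set G' := addZ G x.fst x.snd q with hG'
  set E : G.Dart ⊕ ZD ≃ G'.Dart := Equiv.ofBijective _ (toZ_bij G hab hqa hqb) with hE
  set σ' : Equiv.Perm G'.Dart := (E.symm.trans π).trans E with hσ'
  have hσe : ∀ z, σ' (E z) = E (π z) := by
    intro z
    show E (π (E.symm (E z))) = _
    rw [E.symm_apply_apply]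
  have efst : ∀ z, (E z).fst = (toZ G x.fst x.snd q z).fst := fun z => rfl
  set rv : G.Dart ⊕ ZD → G.Dart ⊕ ZD := Sum.map SimpleGraph.Dart.symm ZD.rev with hrv
  have hface : ∀ z, faceNext σ' (E z) = E (π (rv z)) := by
    intro z
    show σ' ((E z).symm) = _
    have : (E z).symm = E (rv z) := by
      rcases z with d | n
      · rfl
      · cases n <;> rfl
    rw [this, hσe]
  have hplane : PlaneMap G' σ' := by
    refine SurfMap.plane hc ⟨?_, ?_, ?_⟩
    · -- vertices are preserved
      intro d
      obtain ⟨z, rfl⟩ := E.surjective d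
      rw [hσe, efst, efst]
      rcases z with d | n
      · by_cases h1 : d = ya
        · subst h1; rw [pa]
          show some x.fst = some ya.fst
          rw [hyaf]
        by_cases h2 : d = x.symm
        · subst h2; rw [pb]; rfl
        by_cases h3 : d = yq
        · subst h3; rw [pq]
          show some q = some yq.fst
          rw [hyqf]
        rw [po d h1 h2 h3]
        show some (σ d).fst = some d.fst
        rw [hσ.fst]
      · cases n
        · rw [ra]; rfl
        · rw [za1]; rfl
        · rw [rb]
          show some (φ x).fst = some x.snd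
          rw [hφf]
        · rw [zb1]; rfl
        · rw [rq]
          show some dq.fst = some q
          rw [hkq]
        · rw [zq1]; rfl
    · -- cyclic at every vertex
      set S : G.Dart ⊕ ZD → G.Dart ⊕ ZD → Prop := fun z z' => σ'.SameCycle (E z) (E z') with hS
      have step : ∀ z, S z (π z) := fun z => ⟨1, by rw [zpow_one, hσe]⟩
      have Ss : ∀ z z', S z z' → S z' z := fun z z' h => h.symm
      have St : ∀ z z' z'', S z z' → S z' z'' → S z z'' := fun z z' z'' h h' => h.trans h'
      have Sr : ∀ z, S z z := fun z => Equiv.Perm.SameCycle.refl _ _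
      have ta : S (.inr .az) (.inl x) := ra ▸ step (.inr .az)
      have tb : S (.inr .bz) (.inl x.symm) := Ss _ _ (pb ▸ step (.inl x.symm))
      have tq : S (.inr .qz) (.inl dq) := rq ▸ step (.inr .qz)
      have hold : ∀ d, S (.inl d) (.inl (σ d)) := by
        intro d
        by_cases h1 : d = ya
        · subst h1
          rw [hσya]
          exact St _ _ _ (pa ▸ step (.inl ya)) ta
        by_cases h2 : d = x.symm
        · subst h2
          exact St _ _ _ (Ss _ _ tb) (rb ▸ step (.inr .bz))
        by_cases h3 : d = yq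
        · subst h3
          rw [hσyq]
          exact St _ _ _ (pq ▸ step (.inl yq)) tq
        have := step (.inl d)
        rwa [po d h1 h2 h3] at this
      have hcyc : ∀ {d d' : G.Dart}, σ.SameCycle d d' → S (.inl d) (.inl d') :=
        fun h => z_rel_cycle (S := fun d d' => S (.inl d) (.inl d')) (fun _ => Sr _)
          (fun _ _ => Ss _ _) (fun _ _ _ => St _ _ _) hold h
      have r1 : ∀ z v, (toZ G x.fst x.snd q z).fst = some v →
          ∃ d : G.Dart, d.fst = v ∧ S z (.inl d) := by
        rintro (d | n) v h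
        · refine ⟨d, ?_, Sr _⟩
          exact Option.some.inj h
        · cases n
          · exact ⟨x, Option.some.inj h, ta⟩
          · exact absurd h (by simp [toZ, zdP])
          · exact ⟨x.symm, Option.some.inj h, tb⟩
          · exact absurd h (by simp [toZ, zdP])
          · exact ⟨dq, hkq.trans (Option.some.inj h), tq⟩
          · exact absurd h (by simp [toZ, zdP])
      have r2 : ∀ z, (toZ G x.fst x.snd q z).fst = none → S z (.inr .za) := by
        rintro (d | n) h
        · exact absurd h (by simp [toZ])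
        · cases n
          · exact absurd h (by simp [toZ, zdP])
          · exact Sr _
          · exact absurd h (by simp [toZ, zdP])
          · exact zb1 ▸ step (.inr .zb)
          · exact absurd h (by simp [toZ, zdP])
          · exact Ss _ _ (za1 ▸ step (.inr .za))
      intro d d' h
      obtain ⟨z, rfl⟩ := E.surjective d
      obtain ⟨z', rfl⟩ := E.surjective d'
      rw [efst, efst] at h
      show S z z'
      rcases hz : (toZ G x.fst x.snd q z).fst with _ | v
      · exact St _ _ _ (r2 z hz) (Ss _ _ (r2 z' (h ▸ hz)))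
      · obtain ⟨d, hd, h1⟩ := r1 z v hz
        obtain ⟨d', hd', h2⟩ := r1 z' v (h ▸ hz)
        exact St _ _ _ h1 (St _ _ _ (hcyc (hσ.cyc d d' (hd.trans hd'.symm))) (Ss _ _ h2))
    · -- Euler's formula
      set F := Quotient (Equiv.Perm.SameCycle.setoid (faceNext σ)) with hF
      have hst : ∀ d : G.Dart, (Quotient.mk _ (φ d) : F) = Quotient.mk _ d := fun d =>
        Quotient.sound ⟨-1, by simp [hφ]⟩
      have hsx : ∀ d, φ.SameCycle x d → (Quotient.mk _ d : F) = Quotient.mk _ x := fun d h =>
        Quotient.sound h.symm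
      set c : G.Dart ⊕ ZD → F ⊕ Fin 2 := fun z =>
        match z with
        | .inl d => if d = x then .inr 0 else if d ∈ A then .inr 1 else .inl (Quotient.mk _ d)
        | .inr .bz => .inr 0
        | .inr .za => .inr 0
        | .inr .qz => .inr 1
        | .inr .zb => .inr 1
        | .inr .az => .inl (Quotient.mk _ x)
        | .inr .zq => .inl (Quotient.mk _ x) with hcdef
      have cx : c (.inl x) = .inr 0 := if_pos rfl
      have cA : ∀ d ∈ A, c (.inl d) = .inr 1 := by
        intro d h
        have h1 : d ≠ x := fun e => hxA (e ▸ h)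
        show (if d = x then (.inr 0 : F ⊕ Fin 2) else if d ∈ A then .inr 1 else
          .inl (Quotient.mk _ d)) = _
        rw [if_neg h1, if_pos h]
      have co : ∀ d, d ≠ x → d ∉ A → c (.inl d) = .inl (Quotient.mk _ d) := by
        intro d h1 h2
        show (if d = x then (.inr 0 : F ⊕ Fin 2) else if d ∈ A then .inr 1 else
          .inl (Quotient.mk _ d)) = _
        rw [if_neg h1, if_neg h2]
      have hinv : ∀ z, c (π (rv z)) = c z := by
        rintro (d | n)
        · show c (π (.inl d.symm)) = c (.inl d)
          by_cases h1 : d = x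
          · subst h1
            rw [pb, cx]
          by_cases h2 : d.symm = ya
          · have h3 : φ d = x := by rw [hφa, h2, hσya]
            rw [h2, pa, co d h1 (hAx d h3)]
            show (Sum.inl (Quotient.mk _ x) : F ⊕ Fin 2) = _
            rw [← hst d, h3]
          by_cases h3 : d.symm = yq
          · have h4 : φ d = dq := by rw [hφa, h3, hσyq]
            rw [h3, pq, cA d (hAq d h4)]
          have h4 : d.symm ≠ x.symm := fun h => h1 (by
            have := congrArg SimpleGraph.Dart.symm h
            simpa using this)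
          rw [po _ h2 h4 h3]
          have h5 : φ d ≠ x := fun h => h2 (by
            apply σ.injective
            rw [hσya]
            exact h)
          have h6 : φ d ≠ dq := fun h => h3 (by
            apply σ.injective
            rw [hσyq]
            exact h)
          show c (.inl (φ d)) = _
          by_cases h7 : d ∈ A
          · rw [cA d h7, cA _ (hAs d h7 h6)]
          · rw [co d h1 h7, co _ h5 (hAb d h1 h7), hst]
        · cases n
          · show c (π (.inr .za)) = _
            rw [za1]
          · show c (π (.inr .az)) = _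
            rw [ra, cx]
          · show c (π (.inr .zb)) = _
            rw [zb1]
          · show c (π (.inr .bz)) = _
            rw [rb, cA _ hA1]
          · show c (π (.inr .zq)) = _
            rw [zq1]
          · show c (π (.inr .qz)) = _
            rw [rq, co _ hdqx hqA, hsx _ (hsame k)]
      have hsurj : Function.Surjective c := by
        rintro (f | i)
        · induction f using Quotient.inductionOn with
          | h d =>
            by_cases h1 : φ.SameCycle x d
            · refine ⟨.inr .az, ?_⟩
              show (Sum.inl (Quotient.mk _ x) : F ⊕ Fin 2) = _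
              rw [hsx d h1]
            · exact ⟨.inl d, co d (fun e => h1 (e ▸ Equiv.Perm.SameCycle.refl _ _))
                (fun e => h1 (hAc d e))⟩
        · fin_cases i
          · exact ⟨.inr .bz, rfl⟩
          · exact ⟨.inr .zb, rfl⟩
      set F' := Quotient (Equiv.Perm.SameCycle.setoid (faceNext σ')) with hF'
      have hDart' : Finite G'.Dart := finite_dart
      have hinv' : ∀ d : G'.Dart, c (E.symm (faceNext σ' d)) = c (E.symm d) := by
        intro d
        obtain ⟨z, rfl⟩ := E.surjective d
        rw [hface, E.symm_apply_apply, E.symm_apply_apply, hinv]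
      let C : F' → F ⊕ Fin 2 := Quotient.lift (fun d => c (E.symm d)) fun d d' h =>
        z_const_cycle (c := fun d => c (E.symm d)) hinv' h
      have hC : Function.Surjective C := by
        intro f
        obtain ⟨z, hz⟩ := hsurj f
        refine ⟨Quotient.mk _ (E z), ?_⟩
        show c (E.symm (E z)) = f
        rw [E.symm_apply_apply, hz]
      have hFF : Nat.card F + 2 ≤ Nat.card F' := by
        have h1 := Nat.card_le_card_of_surjective C hC
        rw [Nat.card_sum] at h1
        simpa using h1
      have hV : Nat.card (Option V) = Nat.card V + 1 := by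
        rw [Finite.card_option]
      have hE' : Nat.card G'.edgeSet = Nat.card G.edgeSet + 3 := by
        have h1 := card_dart_nat G
        have h2 := card_dart_nat G'
        have h3 : Nat.card G'.Dart = Nat.card G.Dart + 6 := by
          rw [← Nat.card_congr E, Nat.card_sum, Nat.card_eq_fintype_card (α := ZD)]
          rfl
        omega
      have h := hσ.euler
      show Nat.card G'.edgeSet + 2 ≤ Nat.card (Option V) + Nat.card F' + 0
      rw [hV, hE']
      have h' : Nat.card V + Nat.card F = Nat.card G.edgeSet + 2 := h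
      omega
  -- the face of `d₀` is not touched
  have hd' : ∀ n : ℕ, (faceNext σ').SameCycle (E (.inl d₀)) (E (.inl ((φ ^ n) d₀))) := by
    intro n
    induction n with
    | zero => exact Equiv.Perm.SameCycle.refl _ _
    | succ n ih =>
      have h0 : ∀ d, φ.SameCycle d₀ d → d ≠ x := fun d h e => hd (e ▸ h)
      have h1 : φ.SameCycle d₀ ((φ ^ n) d₀) := ⟨(n : ℤ), by rw [zpow_natCast]⟩
      have h2 : φ.SameCycle d₀ (φ ((φ ^ n) d₀)) := Equiv.Perm.sameCycle_apply_right.2 h1
      rw [pow_succ', Equiv.Perm.mul_apply]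
      set d := (φ ^ n) d₀ with hdd
      refine ih.trans ⟨1, ?_⟩
      rw [zpow_one, hface]
      show E (π (.inl d.symm)) = _
      rw [po]
      · rfl
      · intro h
        apply h0 _ h2
        rw [hφa, h, hσya]
      · intro h
        apply h0 _ h1
        have := congrArg SimpleGraph.Dart.symm h
        simpa using this
      · intro h
        have h3 : φ d = dq := by rw [hφa, h, hσyq]
        rw [h3] at h2
        exact hd (h2.trans (hsame k).symm)
  have hon : ∀ v, v ∈ onFace σ d₀ → some v ∈ onFace σ' (E (.inl d₀)) := by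
    rintro v ⟨d, h1, h2⟩
    obtain ⟨n, hn⟩ := exists_pow_face h1
    refine ⟨E (.inl d), ?_, ?_⟩
    · have := hd' n
      rw [hφ, hn] at this
      exact this
    · show some d.fst = some v
      rw [h2]
  exact ⟨σ', E (.inl d₀), hplane, hon s hs, hon t ht⟩

end Vale.Agent.P235.Tight
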