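import Vale.Agent.P235.R2.H582.KprSpec
import Vale.Agent.P235.Comp.PathSum

/-!
P235-M (helper680).  Row R2 of helper582's specification: potentials exist.
-/

set_option autoImplicit false

namespace Vale.Agent.P235.Kpr

open Vale.Agent.P235 SimpleGraph

/-- a shortest walk between reachable vertices -/
theorem min_walk {V : Type} [Finite V] {H : SimpleGraph V} {ℓ : Sym2 V → ℝ}
    (hℓ : ∀ e ∈ H.edgeSet, 0 < ℓ e) {x y : V} (hxy : H.Reachable x y) :
    ∃ p : H.Walk x y, ∀ q : H.Walk x y, (p.edges.map ℓ).sum ≤ (q.edges.map ℓ).sum := by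
  have hw : ∀ {u v : V} (p : H.Walk u v),
      wlen (fun a b => ℓ s(a, b)) p = (p.edges.map ℓ).sum := by
    intro u v p
    induction p with
    | nil => simp [wlen_nil]
    | cons h p ih => rw [wlen_cons, ih, Walk.edges_cons, List.map_cons, List.sum_cons]
  obtain ⟨p, hp⟩ := exists_min_walk (G := H) (ρ := fun a b => ℓ s(a, b))
    (fun u v h => hℓ _ (H.mem_edgeSet.mpr h)) hxy
  refine ⟨p, fun q => ?_⟩
  rw [← hw, ← hw]
  exact hp q

/-- **(R2)** -/
theorem rowPot : RowPot := by
  classical
  intro V _ H ℓ hℓ
  have hr : ∀ v, H.Reachable v ((H.connectedComponentMk v).out) := by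
    intro v
    exact (ConnectedComponent.exact (H.connectedComponentMk v).out_eq).symm
  have hs : ∀ u v, H.Reachable u v →
      (H.connectedComponentMk u).out = (H.connectedComponentMk v).out := by
    intro u v h
    rw [ConnectedComponent.sound h]
  choose p hp using fun v => min_walk hℓ (hr v)
  have hnn : ∀ {x y : V} (w : H.Walk x y), 0 ≤ (w.edges.map ℓ).sum := by
    intro x y w
    apply List.sum_nonneg
    intro a ha
    rw [List.mem_map] at ha
    obtain ⟨e, he, rfl⟩ := ha
    exact (hℓ e (w.edges_subset_edgeSet he)).le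
  -- any walk to the root gives a bound
  have hle : ∀ (v x : V) (hx : x = (H.connectedComponentMk v).out) (w : H.Walk v x),
      ((p v).edges.map ℓ).sum ≤ (w.edges.map ℓ).sum := by
    intro v x hx w
    subst hx
    exact hp v w
  have hstep : ∀ u v, H.Adj u v →
      ((p u).edges.map ℓ).sum ≤ ℓ s(u, v) + ((p v).edges.map ℓ).sum := by
    intro u v h
    have h1 := hle u _ (hs v u h.symm.reachable) (Walk.cons h (p v))
    rwa [Walk.edges_cons, List.map_cons, List.sum_cons] at h1
  refine ⟨fun v => ((p v).edges.map ℓ).sum, fun v => (H.connectedComponentMk v).out,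
    ⟨fun u v h => ?_, fun u v h => hs u v h, fun v => ?_, fun v => hnn _, fun v hv => ?_⟩⟩
  · have h1 := hstep u v h
    have h2 := hstep v u h.symm
    rw [Sym2.eq_swap] at h2
    rw [abs_le]
    constructor
    · linarith
    · linarith
  · have h1 := hle ((H.connectedComponentMk v).out) _ (hs v _ (hr v)) Walk.nil
    refine le_antisymm ?_ (hnn _)
    simpa using h1
  · have h0 : ∀ (x : V) (hx : x = (H.connectedComponentMk v).out) (w : H.Walk v x), v ≠ x →
        (∀ q : H.Walk v x, (w.edges.map ℓ).sum ≤ (q.edges.map ℓ).sum) →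
        ∃ u, H.Adj v u ∧ (w.edges.map ℓ).sum = ((p u).edges.map ℓ).sum + ℓ s(v, u) := by
      intro x hx w hne hmin
      cases w with
      | nil => exact absurd rfl hne
      | @cons _ u _ h q =>
        refine ⟨u, h, ?_⟩
        have e1 := hle u x (hx.trans (hs v u h.reachable)) q
        have e2 := hstep v u h
        have e3 : ((Walk.cons h q).edges.map ℓ).sum = ((p v).edges.map ℓ).sum := by
          subst hx
          exact le_antisymm (hmin _) (hp v _)
        rw [e3]
        rw [Walk.edges_cons, List.map_cons, List.sum_cons] at e3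
        linarith
    exact h0 _ rfl (p v) hv (hp v)

end Vale.Agent.P235.Kpr
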