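import Vale.Agent.P235.R2.H680.Bundle

set_option linter.all false

/-! Adding a midpoint of a saturated edge so that the law is almost the bilinear one. -/

namespace Vale.Agent.P235.R2.H680

open Set Vale.Agent.P235.TL

theorem KE.avg {D : ℝ} {A : Type} {dA : A → A → ℝ} {EA : A → A → Prop} {N : ℕ} (hN : 0 < N)
    {ρ : Fin N → A → A → ℝ} (h : ∀ i, ρ i ∈ KE D dA EA) :
    (fun x y => (∑ i, ρ i x y) / N) ∈ KE D dA EA := by
  intro V iV d E hV
  choose R hR hR' using fun i => h i V iV d E hV
  have hN0 : (0 : ℝ) < N := by exact_mod_cast hN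
  refine ⟨fun x y => (N : ℝ)⁻¹ * ∑ i, R i x y,
    ⟨(IsL1.sum Finset.univ R fun i _ => (hR i).l1).smul (by positivity), fun x y => ?_,
      fun x y => ?_⟩, fun a b => ?_⟩
  · have h1 := Finset.sum_le_sum (s := (Finset.univ : Finset (Fin N))) fun i _ => (hR i).low x y
    rw [Finset.sum_const, Finset.card_univ, Fintype.card_fin, nsmul_eq_mul, ← Finset.mul_sum] at h1
    have h2 : D * ((N : ℝ)⁻¹ * ∑ i, R i x y) = (D * ∑ i, R i x y) / N := by
      field_simp
    rw [h2, le_div_iff₀ hN0]
    linarith
  · have h1 := Finset.sum_le_sum (s := (Finset.univ : Finset (Fin N))) fun i _ => (hR i).up x y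
    rw [Finset.sum_const, Finset.card_univ, Fintype.card_fin, nsmul_eq_mul] at h1
    rwa [inv_mul_le_iff₀ hN0]
  · show (N : ℝ)⁻¹ * ∑ i, R i (iV a) (iV b) = (∑ i, ρ i a b) / N
    rw [Finset.sum_congr rfl fun i _ => hR' i a b, div_eq_inv_mul]

/-- attachment distances of a midpoint -/
noncomputable def mid1 (ℓ : ℝ) : Fin 2 → ℝ := ![ℓ / 2, ℓ / 2]

/-- attachment distances of a second midpoint -/
noncomputable def mid2 (ℓ : ℝ) : Fin 3 → ℝ := ![ℓ / 2, ℓ / 2, ℓ]

section

variable {A : Type} {dA : A → A → ℝ} (hA : Met dA) {a b : A} (hne : a ≠ b)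

include hA

theorem toNew_two (x y : ℝ) (v : A) :
    toNew dA ![a, b] ![x, y] v = min (x + dA a v) (y + dA b v) := by
  apply le_antisymm
  · exact le_min (toNew_le (d := dA) (s := ![a, b]) (δ := ![x, y]) 0 v)
      (toNew_le (d := dA) (s := ![a, b]) (δ := ![x, y]) 1 v)
  · refine le_toNew (by norm_num) fun j => ?_
    fin_cases j
    · exact min_le_left _ _
    · exact min_le_right _ _

include hne

theorem mid1_att : Att dA ![a, b] (mid1 (dA a b)) := by
  have h0 := hA.pos a b hne
  have h1 := hA.symm b a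
  refine ⟨by norm_num, fun i => ?_, fun i j => ?_, fun i j => ?_⟩
  · fin_cases i <;> simp [mid1, h0]
  · fin_cases i <;> fin_cases j <;> simp [mid1, hA.nonneg]
  · fin_cases i <;> fin_cases j <;> simp [mid1, hA.self, h1, h0.le]

theorem mid_a : addPt dA ![a, b] (mid1 (dA a b)) none (some a) = dA a b / 2 := by
  have h0 := hA.pos a b hne
  show toNew dA ![a, b] ![dA a b / 2, dA a b / 2] a = _
  rw [toNew_two hA, hA.self, hA.symm b a, add_zero, min_eq_left (by linarith)]

theorem mid_b : addPt dA ![a, b] (mid1 (dA a b)) none (some b) = dA a b / 2 := by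
  have h0 := hA.pos a b hne
  show toNew dA ![a, b] ![dA a b / 2, dA a b / 2] b = _
  rw [toNew_two hA, hA.self, add_zero, min_eq_right (by linarith)]

theorem mid2_att : Att (addPt dA ![a, b] (mid1 (dA a b))) ![some a, some b, none]
    (mid2 (dA a b)) := by
  have h0 := hA.pos a b hne
  have h1 := hA.symm b a
  have m1 := hA.addPt (mid1_att hA hne)
  have ea := mid_a hA hne
  have eb := mid_b hA hne
  have ea' := m1.symm (some a) none
  have eb' := m1.symm (some b) none
  have e0 : addPt dA ![a, b] (mid1 (dA a b)) (some a) (some b) = dA a b := rfl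
  have e1 : addPt dA ![a, b] (mid1 (dA a b)) (some b) (some a) = dA b a := rfl
  have e2 : addPt dA ![a, b] (mid1 (dA a b)) (some a) (some a) = 0 := hA.self a
  have e3 : addPt dA ![a, b] (mid1 (dA a b)) (some b) (some b) = 0 := hA.self b
  have e4 : addPt dA ![a, b] (mid1 (dA a b)) none none = 0 := rfl
  refine ⟨by norm_num, fun i => ?_, fun i j => ?_, fun i j => ?_⟩
  · fin_cases i <;> simp [mid2, h0]
  · fin_cases i <;> fin_cases j <;> simp [mid2, e0, e1, e2, e3, e4, ea, eb, ea', eb', h1] <;>
      linarith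
  · fin_cases i <;> fin_cases j <;> simp [mid2, e0, e1, e2, e3, e4, ea, eb, ea', eb', h1] <;>
      linarith

end

/-- the space with two midpoints over an edge -/
noncomputable def midD {A : Type} (dA : A → A → ℝ) (a b : A) :
    Option (Option A) → Option (Option A) → ℝ :=
  stepD dA a b (mid1 (dA a b)) (mid2 (dA a b))

theorem midD_val {A : Type} {dA : A → A → ℝ} (hA : Met dA) {a b : A} (v : A) :
    midD dA a b (some none) (some (some v)) = min (dA a b / 2 + dA a v) (dA a b / 2 + dA b v) :=
  toNew_two hA _ _ v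

theorem midExt {A : Type} {dA : A → A → ℝ} {EA : A → A → Prop} (hA : Met dA) {a b : A}
    (hne : a ≠ b) (hab : EA a b) :
    Ext dA EA (Option (Option A)) (fun x => some (some x)) (midD dA a b) (addE EA a b) :=
  Ext.step a b _ _ Ext.base hab (mid1_att hA hne) (mid2_att hA hne)

theorem bundle_space {A : Type} {dA : A → A → ℝ} {EA : A → A → Prop} (hA : Met dA) {a b : A}
    (hne : a ≠ b) (hab : EA a b) (N : ℕ) :
    ∃ (W : Type) (j : A → W) (dW : W → W → ℝ) (EW : W → W → Prop)
      (ψ : Fin N → Option (Option A) → W), Ext dA EA W j dW EW ∧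
      (∀ i x y, dW (ψ i x) (ψ i y) = midD dA a b x y) ∧
      (∀ i x y, addE EA a b x y → EW (ψ i x) (ψ i y)) ∧
      (∀ i x, ψ i (some (some x)) = j x) ∧
      (∀ i k, i ≠ k → dA a b ≤ dW (ψ i (some none)) (ψ k (some none))) := by
  induction N with
  | zero =>
    exact ⟨A, id, dA, EA, fun i => i.elim0, Ext.base, fun i => i.elim0, fun i => i.elim0,
      fun i => i.elim0, fun i => i.elim0⟩
  | succ N ih =>
    obtain ⟨W, j, dW, EW, ψ, h1, h2, h3, h4, h5⟩ := ih
    have hWm := h1.met hA
    have hm1 := (midExt hA hne hab).met hA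
    obtain ⟨W', dW', EW', j', ψn, hW', hg, hψ⟩ :=
      Ext.amalgam hA h1 h1.iso h1.edge hA (midExt hA hne hab)
    have hW'm := hW'.met hWm
    have key : ∀ k, dA a b ≤ dW' (j' (ψ k (some none))) (ψn (some none)) := by
      intro k
      obtain ⟨c, hc⟩ := hg.cross (ψ k (some none)) (some none)
      have e1 : dW (ψ k (some none)) (j c) = midD dA a b (some none) (some (some c)) := by
        rw [← h4 k c, h2]
      have e2 : midD dA a b (some (some c)) (some none) =
          midD dA a b (some none) (some (some c)) := hm1.symm _ _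
      have e3 : dA a b / 2 ≤ midD dA a b (some none) (some (some c)) := by
        rw [midD_val hA]
        exact le_min (by have := hA.nonneg a c; linarith) (by have := hA.nonneg b c; linarith)
      rw [e1, e2] at hc
      linarith
    refine ⟨W', fun x => j' (j x), dW', EW',
      Fin.cons ψn (fun i x => j' (ψ i x)), h1.trans hW', ?_, ?_, ?_, ?_⟩
    · intro i
      refine Fin.cases ?_ (fun i => ?_) i
      · intro x y
        simp only [Fin.cons_zero]
        exact hg.isoψ x y
      · intro x y
        simp only [Fin.cons_succ]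
        rw [hg.isoj, h2]
    · intro i
      refine Fin.cases ?_ (fun i => ?_) i
      · intro x y hxy
        simp only [Fin.cons_zero]
        exact hψ x y hxy
      · intro x y hxy
        simp only [Fin.cons_succ]
        exact hW'.edge _ _ (h3 i x y hxy)
    · intro i
      refine Fin.cases ?_ (fun i => ?_) i
      · intro x
        simp only [Fin.cons_zero]
        exact hg.comm x
      · intro x
        simp only [Fin.cons_succ]
        rw [h4]
    · intro i k
      refine Fin.cases ?_ (fun i => ?_) i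
      · refine Fin.cases ?_ (fun k => ?_) k
        · intro h; exact absurd rfl h
        · intro _
          simp only [Fin.cons_zero, Fin.cons_succ]
          rw [hW'm.symm]
          exact key k
      · refine Fin.cases ?_ (fun k => ?_) k
        · intro _
          simp only [Fin.cons_zero, Fin.cons_succ]
          exact key i
        · intro hik
          simp only [Fin.cons_succ]
          rw [hg.isoj]
          exact h5 i k fun e => hik (by rw [e])

/-- bilinear extension to a midpoint, up to `e` times the length of the edge -/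
theorem bilin {D e : ℝ} (hD : 0 < D) (he : 0 < e) (hDe : 1 / 4 - 1 / (2 * D) < e ^ 2)
    {A : Type} [Finite A] {dA : A → A → ℝ} {EA : A → A → Prop} (hA : Met dA) {r : A → A → ℝ}
    (hr : r ∈ KE D dA EA) {a b : A} (hab : EA a b) (hne : a ≠ b) (hsat : r a b = dA a b) :
    ∃ r1 ∈ KE D (midD dA a b) (addE EA a b),
      (∀ x y, r1 (some (some x)) (some (some y)) = r x y) ∧
      ∀ v, |r1 (some none) (some (some v)) - (r a v + r b v) / 2| ≤ e * dA a b := by
  have hℓ := hA.pos a b hne
  -- the number of midpoints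
  obtain ⟨n, hn⟩ := exists_nat_gt (1 / (2 * D * (e ^ 2 - (1 / 4 - 1 / (2 * D)))))
  have hpos : 0 < 2 * D * (e ^ 2 - (1 / 4 - 1 / (2 * D))) :=
    mul_pos (by linarith) (by linarith)
  have hn0 : (0 : ℝ) < n := lt_trans (by positivity) hn
  have hN : 0 < n := by exact_mod_cast hn0
  have hκ : 1 / 4 - (1 - 1 / (n : ℝ)) / (2 * D) ≤ e ^ 2 := by
    rw [div_lt_iff₀ hpos] at hn
    have h1 : (1 : ℝ) / n / (2 * D) ≤ e ^ 2 - (1 / 4 - 1 / (2 * D)) := by
      rw [div_div, div_le_iff₀ (by positivity)]
      nlinarith [hn]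
    have h2 : (1 - 1 / (n : ℝ)) / (2 * D) = 1 / (2 * D) - 1 / n / (2 * D) := by ring
    rw [h2]
    linarith
  obtain ⟨W, j, dW, EW, ψ, h1, h2, h3, h4, h5⟩ := bundle_space hA hne hab n
  have hWm := h1.met hA
  have hm1 := (midExt hA hne hab).met hA
  obtain ⟨R, hR, hRj⟩ := KE.extend hA hr h1
  have hRA := KE.adm hR
  have hmem : ∀ i, (fun x y => R (ψ i x) (ψ i y)) ∈ KE D (midD dA a b) (addE EA a b) :=
    fun i => KE.restrict hWm hR hm1 (h2 i) (h3 i)
  refine ⟨_, KE.avg hN hmem, ?_, ?_⟩
  · intro x y
    show (∑ i, R (ψ i (some (some x))) (ψ i (some (some y)))) / (n : ℝ) = r x y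
    rw [Finset.sum_congr rfl fun i _ => by rw [h4, h4, hRj], Finset.sum_const, Finset.card_univ,
      Fintype.card_fin, nsmul_eq_mul]
    field_simp
  · intro v
    show |(∑ i, R (ψ i (some none)) (ψ i (some (some v)))) / (n : ℝ) - (r a v + r b v) / 2| ≤ _
    rw [Finset.sum_congr rfl fun i _ => by rw [h4], ← hRj a v, ← hRj b v]
    have ha : ∀ i, R (j a) (ψ i (some none)) ≤ dA a b / 2 := by
      intro i
      refine (hRA.up _ _).trans ?_
      rw [← h4 i a, h2, hm1.symm, midD_val hA, hA.self, add_zero]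
      exact min_le_left _ _
    have hb : ∀ i, R (ψ i (some none)) (j b) ≤ dA a b / 2 := by
      intro i
      refine (hRA.up _ _).trans ?_
      rw [← h4 i b, h2, midD_val hA, hA.self, add_zero]
      exact min_le_right _ _
    have hmm : ∀ i k, i ≠ k → dA a b ≤ D * R (ψ i (some none)) (ψ k (some none)) :=
      fun i k hik => (h5 i k hik).trans (hRA.low _ _)
    have h6 := l1_bundle hRA.l1 hN he hD (fun i => ψ i (some none)) (j a) (j b)
      (by rw [hRj, hsat]) ha hb hmm (j v)
    refine h6.trans ?_
    have h7 : dA a b / 4 - (1 - 1 / (n : ℝ)) * (dA a b / D) / 2 =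
        dA a b * (1 / 4 - (1 - 1 / (n : ℝ)) / (2 * D)) := by
      field_simp
    rw [h7]
    have h8 : dA a b * (1 / 4 - (1 - 1 / (n : ℝ)) / (2 * D)) / (2 * e) ≤
        dA a b * e ^ 2 / (2 * e) :=
      div_le_div_of_nonneg_right (mul_le_mul_of_nonneg_left hκ hℓ.le) (by positivity)
    have h9 : dA a b * e ^ 2 / (2 * e) = e * dA a b / 2 := by
      field_simp
    linarith

end Vale.Agent.P235.R2.H680
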