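import Vale.Agent.P235.R2.H680.Kset

set_option linter.all false

/-! Many midpoints of a saturated edge: almost independent fair coins. -/

namespace Vale.Agent.P235.R2.H680

open Set Vale.Agent.P235.TL

/-- inequality for one cut: `f i` is the indicator that the cut separates `m i` from `a`, `h` that
it separates `b` from `a`, and `g` that it separates `v` from `a`. -/
theorem cut_bundle {N : ℕ} (hN : 0 < N) {e : ℝ} (he : 0 < e) (f : Fin N → ℝ) (g h : ℝ)
    (hf : ∀ i, f i = 0 ∨ f i = 1) (hg : g = 0 ∨ g = 1) (hh : h = 0 ∨ h = 1) :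
    |(∑ i, |f i - g|) / N - (|g| + |h - g|) / 2| ≤
      (|h| / 4 - (∑ i, ∑ k, |f i - f k|) / N ^ 2 / 2) / (2 * e) + e * |h| / 2 +
      (1 / 2 + 1 / (4 * e)) * ((∑ i, (|f i| + |f i - h|)) / N - |h|) := by
  have hN0 : (0 : ℝ) < N := by exact_mod_cast hN
  set X : ℝ := (∑ i, f i) / N with hX
  have hsum : ∑ i, f i = X * N := by rw [hX]; field_simp
  have hX0 : 0 ≤ X := div_nonneg (Finset.sum_nonneg fun i _ => by
    rcases hf i with h | h <;> rw [h] <;> norm_num) hN0.le
  have hX1 : X ≤ 1 := by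
    rw [hX, div_le_one hN0]
    calc ∑ i, f i ≤ ∑ i : Fin N, (1 : ℝ) := Finset.sum_le_sum fun i _ => by
          rcases hf i with h | h <;> rw [h] <;> norm_num
      _ = N := by simp
  have hpair : ∀ (x y : ℝ), (x = 0 ∨ x = 1) → (y = 0 ∨ y = 1) →
      |x - y| = x + y - 2 * x * y := by
    rintro x y (rfl | rfl) (rfl | rfl) <;> norm_num
  have hone : ∀ (x : ℝ), (x = 0 ∨ x = 1) → |x| = x := by
    rintro x (rfl | rfl) <;> norm_num
  have e1 : (∑ i, |f i - g|) / N = X + g - 2 * X * g := by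
    have : ∑ i, |f i - g| = ∑ i, (f i * (1 - 2 * g) + g) :=
      Finset.sum_congr rfl fun i _ => by rw [hpair _ _ (hf i) hg]; ring
    rw [this, Finset.sum_add_distrib, ← Finset.sum_mul, hsum, Finset.sum_const,
      Finset.card_univ, Fintype.card_fin, nsmul_eq_mul]
    field_simp
    ring
  have e2 : (∑ i, ∑ k, |f i - f k|) / N ^ 2 = 2 * X * (1 - X) := by
    have h1 : ∀ i, ∑ k, |f i - f k| = f i * (N * (1 - 2 * X)) + X * N := by
      intro i
      have : ∑ k, |f i - f k| = ∑ k, (f i + f k * (1 - 2 * f i)) :=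
        Finset.sum_congr rfl fun k _ => by rw [hpair _ _ (hf i) (hf k)]; ring
      rw [this, Finset.sum_add_distrib, ← Finset.sum_mul, hsum, Finset.sum_const,
        Finset.card_univ, Fintype.card_fin, nsmul_eq_mul]
      ring
    rw [Finset.sum_congr rfl fun i _ => h1 i, Finset.sum_add_distrib, ← Finset.sum_mul, hsum,
      Finset.sum_const, Finset.card_univ, Fintype.card_fin, nsmul_eq_mul]
    field_simp
    ring
  have e3 : (∑ i, (|f i| + |f i - h|)) / N = 2 * X + h - 2 * X * h := by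
    have : ∑ i, (|f i| + |f i - h|) = ∑ i, (f i * (2 - 2 * h) + h) :=
      Finset.sum_congr rfl fun i _ => by rw [hpair _ _ (hf i) hh, hone _ (hf i)]; ring
    rw [this, Finset.sum_add_distrib, ← Finset.sum_mul, hsum, Finset.sum_const,
      Finset.card_univ, Fintype.card_fin, nsmul_eq_mul]
    field_simp
    ring
  rw [e1, e2, e3, hone _ hg, hone _ hh, hpair _ _ hh hg]
  rcases hh with rfl | rfl
  · -- not crossing
    have h1 : |X + g - 2 * X * g - (g + (0 + g - 2 * 0 * g)) / 2| = X := by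
      rcases hg with rfl | rfl
      · rw [show X + 0 - 2 * X * 0 - (0 + (0 + 0 - 2 * 0 * 0)) / 2 = X by ring, abs_of_nonneg hX0]
      · rw [show X + 1 - 2 * X * 1 - (1 + (0 + 1 - 2 * 0 * 1)) / 2 = -X by ring, abs_neg,
          abs_of_nonneg hX0]
    rw [h1]
    have h2 : (0 / 4 - 2 * X * (1 - X) / 2) / (2 * e) + e * 0 / 2 +
        (1 / 2 + 1 / (4 * e)) * (2 * X + 0 - 2 * X * 0 - 0) = X + X ^ 2 / (2 * e) := by
      field_simp
      ring
    rw [h2]
    have : 0 ≤ X ^ 2 / (2 * e) := by positivity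
    linarith
  · -- crossing
    have h1 : |X + g - 2 * X * g - (g + (1 + g - 2 * 1 * g)) / 2| = |X - 1 / 2| := by
      rcases hg with rfl | rfl
      · congr 1; ring
      · rw [show X + 1 - 2 * X * 1 - (1 + (1 + 1 - 2 * 1 * 1)) / 2 = -(X - 1 / 2) by ring, abs_neg]
    rw [h1]
    have h2 : (1 / 4 - 2 * X * (1 - X) / 2) / (2 * e) + e * 1 / 2 +
        (1 / 2 + 1 / (4 * e)) * (2 * X + 1 - 2 * X * 1 - 1) = (X - 1 / 2) ^ 2 / (2 * e) + e / 2 := by
      field_simp
      ring
    rw [h2]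
    have h3 : |X - 1 / 2| * (2 * e) ≤ (X - 1 / 2) ^ 2 + e ^ 2 := by
      have := sq_nonneg (|X - 1 / 2| - e)
      rw [sub_sq, sq_abs] at this
      linarith
    have h4 : |X - 1 / 2| ≤ ((X - 1 / 2) ^ 2 + e ^ 2) / (2 * e) := by
      rw [le_div_iff₀ (by positivity)]; exact h3
    calc |X - 1 / 2| ≤ ((X - 1 / 2) ^ 2 + e ^ 2) / (2 * e) := h4
      _ = _ := by field_simp

/-- the bundle inequality for a sum of cuts -/
theorem l1_bundle {V : Type} {R : V → V → ℝ} (hR : IsL1 R) {N : ℕ} (hN : 0 < N) {e ℓ D : ℝ}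
    (he : 0 < e) (hD : 0 < D) (m : Fin N → V) (a b : V) (hab : R a b = ℓ)
    (ham : ∀ i, R a (m i) ≤ ℓ / 2) (hmb : ∀ i, R (m i) b ≤ ℓ / 2)
    (hmm : ∀ i k, i ≠ k → ℓ ≤ D * R (m i) (m k)) (v : V) :
    |(∑ i, R (m i) v) / N - (R a v + R b v) / 2| ≤
      (ℓ / 4 - (1 - 1 / N) * (ℓ / D) / 2) / (2 * e) + e * ℓ / 2 := by
  obtain ⟨ι, _, w, c, hw, hF⟩ := hR
  have hN0 : (0 : ℝ) < N := by exact_mod_cast hN
  -- indicator relative to `a`
  set χ : ι → V → ℝ := fun j x => if c j x = c j a then 0 else 1 with hχ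
  have hχ01 : ∀ j x, χ j x = 0 ∨ χ j x = 1 := by
    intro j x; rw [hχ]; dsimp only; split_ifs
    · exact Or.inl rfl
    · exact Or.inr rfl
  have hind : ∀ j x y, (if c j x = c j y then (0 : ℝ) else 1) = |χ j x - χ j y| := by
    intro j x y
    rw [hχ]
    dsimp only
    cases c j x <;> cases c j y <;> cases c j a <;> norm_num
  have hχa : ∀ j, χ j a = 0 := by intro j; rw [hχ]; simp
  have hR : ∀ x y, R x y = ∑ j, w j * |χ j x - χ j y| := by
    intro x y
    rw [hF]
    exact Finset.sum_congr rfl fun j _ => by rw [hind]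
  have hcut := fun j => cut_bundle hN he (fun i => χ j (m i)) (χ j v) (χ j b)
    (fun i => hχ01 j _) (hχ01 j v) (hχ01 j b)
  -- sums
  have s1 : (∑ i, R (m i) v) / N - (R a v + R b v) / 2 =
      ∑ j, w j * ((∑ i, |χ j (m i) - χ j v|) / N - (|χ j v| + |χ j b - χ j v|) / 2) := by
    have h1 : ∑ i, R (m i) v = ∑ j, w j * ∑ i, |χ j (m i) - χ j v| := by
      simp only [hR, Finset.mul_sum]
      rw [Finset.sum_comm]
    rw [h1, hR a v, hR b v, Finset.sum_div, ← Finset.sum_add_distrib, Finset.sum_div,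
      ← Finset.sum_sub_distrib]
    refine Finset.sum_congr rfl fun j _ => ?_
    rw [hχa j, zero_sub, abs_neg]
    ring
  have s2 : ∑ j, w j * |χ j b| = ℓ := by
    rw [← hab, hR a b]
    refine Finset.sum_congr rfl fun j _ => ?_
    rw [hχa j, zero_sub, abs_neg]
  set q : ι → ℝ := fun j => (∑ i, ∑ k, |χ j (m i) - χ j (m k)|) / N ^ 2 with hq
  set t : ι → ℝ := fun j => (∑ i, (|χ j (m i)| + |χ j (m i) - χ j b|)) / N with ht
  set p : ι → ℝ := fun j => (∑ i, |χ j (m i) - χ j v|) / N - (|χ j v| + |χ j b - χ j v|) / 2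
    with hp
  have s3 : (1 - 1 / N) * (ℓ / D) ≤ ∑ j, w j * q j := by
    have h1 : ∑ j, w j * q j = (∑ i, ∑ k, R (m i) (m k)) / N ^ 2 := by
      have h2 : ∑ i, ∑ k, R (m i) (m k) = ∑ j, w j * ∑ i, ∑ k, |χ j (m i) - χ j (m k)| := by
        calc ∑ i, ∑ k, R (m i) (m k) = ∑ i, ∑ k, ∑ j, w j * |χ j (m i) - χ j (m k)| :=
              Finset.sum_congr rfl fun i _ => Finset.sum_congr rfl fun k _ => hR _ _
          _ = ∑ i, ∑ j, ∑ k, w j * |χ j (m i) - χ j (m k)| :=
              Finset.sum_congr rfl fun i _ => Finset.sum_comm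
          _ = ∑ j, ∑ i, ∑ k, w j * |χ j (m i) - χ j (m k)| := Finset.sum_comm
          _ = _ := by
              refine Finset.sum_congr rfl fun j _ => ?_
              rw [Finset.mul_sum]
              exact Finset.sum_congr rfl fun i _ => (Finset.mul_sum _ _ _).symm
      rw [h2, Finset.sum_div]
      refine Finset.sum_congr rfl fun j _ => ?_
      rw [hq]
      dsimp only
      rw [mul_div_assoc]
    rw [h1, le_div_iff₀ (by positivity)]
    have h3 : ∀ i, ((N : ℝ) - 1) * (ℓ / D) ≤ ∑ k, R (m i) (m k) := by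
      intro i
      have h4 : ∑ k, R (m i) (m k) = ∑ k ∈ Finset.univ.erase i, R (m i) (m k) := by
        rw [← Finset.add_sum_erase _ _ (Finset.mem_univ i)]
        have : R (m i) (m i) = 0 := by rw [hR]; simp
        rw [this, zero_add]
      rw [h4]
      have h5 : ∑ k ∈ Finset.univ.erase i, (ℓ / D) ≤ ∑ k ∈ Finset.univ.erase i, R (m i) (m k) := by
        refine Finset.sum_le_sum fun k hk => ?_
        rw [div_le_iff₀ hD, mul_comm]
        exact hmm i k (Finset.ne_of_mem_erase hk).symm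
      rw [Finset.sum_const, Finset.card_erase_of_mem (Finset.mem_univ i), Finset.card_univ,
        Fintype.card_fin, nsmul_eq_mul, Nat.cast_sub hN, Nat.cast_one] at h5
      exact h5
    have h6 : (N : ℝ) * (((N : ℝ) - 1) * (ℓ / D)) ≤ ∑ i, ∑ k, R (m i) (m k) := by
      have h7 := Finset.sum_le_sum (s := (Finset.univ : Finset (Fin N))) fun i _ => h3 i
      rw [Finset.sum_const, Finset.card_univ, Fintype.card_fin, nsmul_eq_mul] at h7
      exact h7
    calc (1 - 1 / (N : ℝ)) * (ℓ / D) * N ^ 2 = (N : ℝ) * (((N : ℝ) - 1) * (ℓ / D)) := by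
          field_simp
      _ ≤ _ := h6
  have s4 : ∑ j, w j * t j ≤ ℓ := by
    have h1 : ∑ j, w j * t j = (∑ i, (R a (m i) + R (m i) b)) / N := by
      have h2 : ∑ i, (R a (m i) + R (m i) b) =
          ∑ j, w j * ∑ i, (|χ j (m i)| + |χ j (m i) - χ j b|) := by
        calc ∑ i, (R a (m i) + R (m i) b) =
              ∑ i, ∑ j, w j * (|χ j (m i)| + |χ j (m i) - χ j b|) := by
              refine Finset.sum_congr rfl fun i _ => ?_
              rw [hR, hR, ← Finset.sum_add_distrib]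
              refine Finset.sum_congr rfl fun j _ => ?_
              rw [hχa j, zero_sub, abs_neg]
              ring
          _ = ∑ j, ∑ i, w j * (|χ j (m i)| + |χ j (m i) - χ j b|) := Finset.sum_comm
          _ = _ := Finset.sum_congr rfl fun j _ => (Finset.mul_sum _ _ _).symm
      rw [h2, Finset.sum_div]
      refine Finset.sum_congr rfl fun j _ => ?_
      rw [ht]
      dsimp only
      rw [mul_div_assoc]
    rw [h1, div_le_iff₀ hN0]
    have h3 : ∑ i, (R a (m i) + R (m i) b) ≤ ∑ i : Fin N, ℓ :=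
      Finset.sum_le_sum fun i _ => by
        have := ham i
        have := hmb i
        linarith
    rw [Finset.sum_const, Finset.card_univ, Fintype.card_fin, nsmul_eq_mul] at h3
    linarith
  rw [s1]
  set K : ℝ := 1 / 2 + 1 / (4 * e) with hK
  have hK0 : 0 ≤ K := by rw [hK]; positivity
  have hcut' : ∀ j, |p j| ≤ (|χ j b| / 4 - q j / 2) / (2 * e) + e * |χ j b| / 2 +
      K * (t j - |χ j b|) := hcut
  calc |∑ j, w j * p j| ≤ ∑ j, |w j * p j| := Finset.abs_sum_le_sum_abs _ _
    _ ≤ ∑ j, ((w j * |χ j b|) * (1 / (8 * e) + e / 2 - K) - (w j * q j) * (1 / (4 * e)) +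
        (w j * t j) * K) := by
        refine Finset.sum_le_sum fun j _ => ?_
        rw [abs_mul, abs_of_nonneg (hw j)]
        refine (mul_le_mul_of_nonneg_left (hcut' j) (hw j)).trans (le_of_eq ?_)
        field_simp
        ring
    _ = (∑ j, w j * |χ j b|) * (1 / (8 * e) + e / 2 - K) - (∑ j, w j * q j) * (1 / (4 * e)) +
        (∑ j, w j * t j) * K := by
        rw [Finset.sum_add_distrib, Finset.sum_sub_distrib, ← Finset.sum_mul, ← Finset.sum_mul,
          ← Finset.sum_mul]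
    _ ≤ ℓ * (1 / (8 * e) + e / 2 - K) - ((1 - 1 / N) * (ℓ / D)) * (1 / (4 * e)) + ℓ * K := by
        rw [s2]
        have h1 : ((1 - 1 / N) * (ℓ / D)) * (1 / (4 * e)) ≤ (∑ j, w j * q j) * (1 / (4 * e)) :=
          mul_le_mul_of_nonneg_right s3 (by positivity)
        have h2 := mul_le_mul_of_nonneg_right s4 hK0
        linarith
    _ = _ := by
        field_simp
        ring

end Vale.Agent.P235.R2.H680
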