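/-
P235 (helper680): the classes of weighted graphs with terminals on surfaces, for the hand-in
`PlanarFewMaxima`.  Definitions only.
-/
import Vale.Agent.P235.R2.RED.Classes2

namespace Vale.Agent.P235.Pk

/-- `L` is a set of vertices, `G` has a rotation system of Euler genus `≤ γ`, `h` is nonexpansive on
`L`; every vertex of `L` has an edge of slope at least `1/D` downwards which ends in `L`, or is in
`A`, or is on one of the faces of the darts in `M₁`; every vertex of `L` has one upwards, or is in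
`B`, or is on one of the faces of the darts in `M₂`; no face is exceptional in both directions;
`γ` and the sizes of `A`, `M₁` have sum at most `a`, the sizes of `B`, `M₂` have sum at most `b` -/
def OnSurfaceL {V : Type} (G : SimpleGraph V) (ℓ : Sym2 V → ℝ) (D : ℝ) (L : Set V)
    (a b : ℕ) : Prop :=
  ∃ (γ : ℕ) (σ : Equiv.Perm G.Dart) (h : V → ℝ) (A B : Finset V) (M₁ M₂ : Finset G.Dart),
    SurfMap γ G σ ∧ γ + A.card + M₁.card ≤ a ∧ B.card + M₂.card ≤ b ∧
    (∀ m ∈ M₁, ∀ m' ∈ M₂, ¬ (faceNext σ).SameCycle m m') ∧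
    (∀ u ∈ L, ∀ v ∈ L, |h u - h v| ≤ pathDist G ℓ u v) ∧
    (∀ v ∈ L, (∃ u ∈ L, G.Adj v u ∧ ℓ s(v, u) ≤ D * (h v - h u)) ∨ v ∈ A ∨
      ∃ m ∈ M₁, v ∈ onFace σ m) ∧
    ∀ v ∈ L, (∃ u ∈ L, G.Adj v u ∧ ℓ s(v, u) ≤ D * (h u - h v)) ∨ v ∈ B ∨
      ∃ m ∈ M₂, v ∈ onFace σ m

/-- a block: an edge sum of tight pieces, or a graph with at most `n` vertices and with lengths as
in `OnSurfaceL`, all vertices in `L` -/
def BlockL (n a b : ℕ) (D : ℝ) (V : Type) (G : SimpleGraph V) (d : V → V → ℝ) : Prop :=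
  Swp.EdgeSum (Swp.Tight n) G d ∨ ∃ ℓ : Sym2 V → ℝ, (∀ u v, G.Adj u v → ℓ s(u, v) = d u v) ∧
    Nat.card V ≤ n ∧ OnSurfaceL G ℓ D Set.univ a b

end Vale.Agent.P235.Pk
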