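import Vale.Agent.P235.R2.H680.SurfLCl
import Vale.Agent.P235.R2.H802.PkF
import Vale.Agent.P235.R2.RED.SweptE

/-!
P235-M (helper680, after helper802's `PkG`): vertex sums of the blocks of `Classes3.lean`, from
`SurfTerm`.
-/

set_option linter.all false

namespace Vale.Agent.P235.Pk

open Vale.Agent.P235 Vale.Agent.P235.Red Vale.Agent.P235.R2 Vale.Agent.P235.R2.H598
open Vale.Agent.P235.SurfL (SurfTerm)

/-- a block with lengths -/
def SBlockL (n a b : ℕ) (D : ℝ) (V : Type) (G : SimpleGraph V) (ℓ : Sym2 V → ℝ) : Prop :=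
  Nat.card V ≤ n ∧ OnSurfaceL G ℓ D Set.univ a b

theorem SBlockL.embeds {K D : ℝ} (hT : SurfTerm K) (hK0 : 0 ≤ K) {n a b : ℕ} (hD : 1 ≤ D)
    (V : Type) [Finite V] (G : SimpleGraph V) (ℓ : Sym2 V → ℝ) (hc : G.Connected)
    (hℓ : ∀ e ∈ G.edgeSet, 0 < ℓ e) (h : SBlockL n a b D V G ℓ) :
    EmbedsL1 (pathDist G ℓ) (5 * K * D *
      (Swp.LL n + Real.log ((a : ℝ) + 2) + √(Real.log ((b : ℝ) + 2)))) := by
  obtain ⟨Ω, m, μ, f, hf⟩ := h.2.embeds_univ hT hK0 hc hℓ hD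
  refine ⟨Ω, m, μ, f, fun x y => ⟨(hf x y).1, (hf x y).2.trans
    (mul_le_mul_of_nonneg_right ?_ (pd_nonneg hℓ x y))⟩⟩
  have h2 : (ll (Nat.card V) : ℝ) ≤ (ll n : ℝ) := by exact_mod_cast ll_mono h.1
  rw [LL_eq, LL_eq]
  exact mul_le_mul_of_nonneg_left (by linarith) (by positivity)

theorem vSumOf_blockL {n a b : ℕ} {D : ℝ} {V : Type} {G : SimpleGraph V} {d : V → V → ℝ}
    (h : Swp.VertexSum (BlockL n a b D) G d) :
    VSumOf (fun V G d => SumOf (Leaf2 n 0) G d ∨ ∃ ℓ : Sym2 V → ℝ,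
      (∀ u v, G.Adj u v → ℓ s(u, v) = d u v) ∧ SBlockL n a b D V G ℓ) G d := by
  induction h with
  | base h =>
    rcases h with h | h
    · exact .base (Or.inl h.sumOf)
    · exact .base (Or.inr h)
  | glue h2 h3 h4 _ _ ihA ihB => exact .glue h2 h3 h4 ihA ihB

/-- **vertex sums of blocks, `a` and `b` for every block** -/
theorem sums_blockL : ∃ A : ℝ, 1 ≤ A ∧ ∀ (C K : ℝ), 1 ≤ C → MStarLL C → SurfTerm K → 0 ≤ K →
    ∀ (n a b : ℕ) (D : ℝ), 1 ≤ D →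
    ∀ (V : Type) [Finite V] (G G' : SimpleGraph V) (ℓ : Sym2 V → ℝ), G.Connected →
      (∀ e ∈ G.edgeSet, 0 < ℓ e) → G ≤ G' → Swp.VertexSum (BlockL n a b D) G' (pathDist G ℓ) →
      EmbedsL1 (pathDist G ℓ)
        ((A * C + 5 * K) * D *
          (Swp.LL n + Real.log ((a : ℝ) + 2) + √(Real.log ((b : ℝ) + 2)))) := by
  obtain ⟨A, hA, h⟩ := sums_tw
  refine ⟨A, hA, ?_⟩
  intro C K hC hM hT hK n a b D hD V _ G G' ℓ hc hℓ hle hS
  have hn := LL_pos n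
  have hlog : 0 ≤ Real.log ((a : ℝ) + 2) :=
    Real.log_nonneg (by have := (Nat.cast_nonneg a : (0 : ℝ) ≤ a); linarith)
  have hsq : 0 ≤ √(Real.log ((b : ℝ) + 2)) := Real.sqrt_nonneg _
  set T : ℝ := Swp.LL n + Real.log ((a : ℝ) + 2) + √(Real.log ((b : ℝ) + 2)) with hT'
  have hE := h C hC hM (5 * K * D * T)
    (by positivity) n 0 (SBlockL n a b D)
    (fun V _ G ℓ hc hℓ h => h.embeds hT hK hD V G ℓ hc hℓ) V G G' ℓ hc hℓ hle (vSumOf_blockL hS)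
  obtain ⟨Ω, m, μ, f, hf⟩ := hE
  refine ⟨Ω, m, μ, f, fun x y => ⟨(hf x y).1, (hf x y).2.trans
    (mul_le_mul_of_nonneg_right ?_ (pd_nonneg hℓ x y))⟩⟩
  have h1 : A * (C * ((ll n : ℝ) + 1) + ((0 : ℕ) : ℝ)) ≤ A * C * D * T := by
    rw [← LL_eq]
    have h2 : 0 ≤ A * C * Swp.LL n := by positivity
    calc A * (C * Swp.LL n + ((0 : ℕ) : ℝ)) = A * C * Swp.LL n := by
          push_cast; ring
      _ ≤ A * C * Swp.LL n * D := le_mul_of_one_le_right h2 hD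
      _ ≤ A * C * T * D := by
          refine mul_le_mul_of_nonneg_right (mul_le_mul_of_nonneg_left (by rw [hT']; linarith)
            (by positivity)) (by linarith)
      _ = _ := by ring
  have h3 : (A * C + 5 * K) * D * T = A * C * D * T + 5 * K * D * T := by ring
  rw [h3]
  linarith

end Vale.Agent.P235.Pk
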