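import Vale.Agent.P235.R2.H341.W4
import Vale.Agent.P235.H206.SurfDefs

/-!
A spanning tree of the dual graph of a rotation system (any genus) which avoids the edges of the
parent tree (helper680).
-/

set_option linter.unusedSectionVars false
set_option linter.unusedDecidableInType false
set_option linter.unusedFintypeInType false

namespace Vale.Agent.P235.ExD

open SimpleGraph Finset Vale.Agent.P235.H341W

variable {V : Type} {G : SimpleGraph V} {σ : Equiv.Perm G.Dart} {h : V → ℝ} {s : V} {p : V → V}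

/-- the faces -/
abbrev Fc (σ : Equiv.Perm G.Dart) : Type := Quotient (Equiv.Perm.SameCycle.setoid (faceNext σ))

/-- the face of a dart -/
def fc (σ : Equiv.Perm G.Dart) (d : G.Dart) : Fc σ :=
  @Quotient.mk _ (Equiv.Perm.SameCycle.setoid (faceNext σ)) d

theorem fc_next (d : G.Dart) : fc σ (faceNext σ d) = fc σ d :=
  Quotient.sound (s := Equiv.Perm.SameCycle.setoid (faceNext σ))
    (Equiv.Perm.sameCycle_apply_left.2 (Equiv.Perm.SameCycle.refl _ _))

theorem fc_surj (a : Fc σ) : ∃ d, fc σ d = a := Quotient.exists_rep a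

/-- a face function which does not change across darts off the tree is constant -/
theorem const_nt' [Finite V] (hc : G.Connected) (fst : ∀ d, (σ d).fst = d.fst)
    (cyc : ∀ d d' : G.Dart, d.fst = d'.fst → σ.SameCycle d d')
    (hp : Up G (fun v => - h v) s p) {g : G.Dart → ZMod 2} (h1 : ∀ d, g (faceNext σ d) = g d)
    (h2 : ∀ d : G.Dart, ¬ Tr p s d → g d.symm = g d) (d d' : G.Dart) : g d = g d' := by
  classical
  have := Fintype.ofFinite V
  have h3 := forest hp (fun d => g d + g d.symm) (fun d => by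
      show g d.symm + g d.symm.symm = g d + g d.symm
      rw [Dart.symm_symm, add_comm]) (sum_face fst g h1) (fun d hd => by
      by_contra hn
      refine hd ?_
      show g d + g d.symm = 0
      rw [h2 d hn, CharTwo.add_self_eq_zero])
  exact const_of_inv hc cyc g h1 (fun d => (CharTwo.add_eq_zero.1 (h3 d)).symm) d d'

/-- the dual graph without the tree edges -/
def Dl (σ : Equiv.Perm G.Dart) (p : V → V) (s : V) : SimpleGraph (Fc σ) where
  Adj a b := a ≠ b ∧ ∃ d : G.Dart, ¬ Tr p s d ∧ fc σ d = a ∧ fc σ d.symm = b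
  symm := ⟨fun a b hab => ⟨hab.1.symm, by
    obtain ⟨d, h1, h2, h3⟩ := hab.2
    exact ⟨d.symm, fun k => h1 (by rw [← Dart.symm_symm d]; exact k.symm), h3,
      by rw [Dart.symm_symm]; exact h2⟩⟩⟩
  loopless := ⟨fun a ha => ha.1 rfl⟩

theorem dl_reach [Finite V] (hc : G.Connected) (fst : ∀ d, (σ d).fst = d.fst)
    (cyc : ∀ d d' : G.Dart, d.fst = d'.fst → σ.SameCycle d d')
    (hp : Up G (fun v => - h v) s p) (a b : Fc σ) : (Dl σ p s).Reachable a b := by
  obtain ⟨d, rfl⟩ := fc_surj a
  obtain ⟨e, rfl⟩ := fc_surj b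
  have key := const_nt' hc fst cyc hp (g := fun x => ind ((Dl σ p s).Reachable (fc σ d) (fc σ x)))
    (fun x => by
      show ind _ = ind _
      rw [fc_next]) (fun x hx => by
      show ind _ = ind _
      refine ind_congr ?_
      by_cases hxx : fc σ x = fc σ x.symm
      · rw [hxx]
      · have had : (Dl σ p s).Adj (fc σ x) (fc σ x.symm) := ⟨hxx, x, hx, rfl, rfl⟩
        exact ⟨fun k => k.trans had.symm.reachable, fun k => k.trans had.reachable⟩) d e
  have h1 : ind ((Dl σ p s).Reachable (fc σ d) (fc σ d)) = 1 := ind_pos (Reachable.refl _)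
  have key' : ind ((Dl σ p s).Reachable (fc σ d) (fc σ d))
    = ind ((Dl σ p s).Reachable (fc σ d) (fc σ e)) := key
  exact ind_eq_one (key'.symm.trans h1)

/-- the dual spanning tree: `F - 1` edges off the parent tree which join all faces -/
theorem exists_dual [Finite V] (hc : G.Connected) (fst : ∀ d, (σ d).fst = d.fst)
    (cyc : ∀ d d' : G.Dart, d.fst = d'.fst → σ.SameCycle d d')
    (hp : Up G (fun v => - h v) s p) :
    ∃ C0 : Finset G.Dart, (∀ d ∈ C0, d.symm ∈ C0) ∧ (∀ d ∈ C0, ¬ Tr p s d) ∧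
      C0.card = 2 * (Nat.card (Fc σ) - 1) ∧
      ∀ (K : Type) (g : G.Dart → K), (∀ d, g (faceNext σ d) = g d) →
        (∀ d ∈ C0, g d.symm = g d) → ∀ d d', g d = g d' := by
  classical
  have := Fintype.ofFinite V
  have hfin : Finite (Fc σ) := Quotient.finite _
  have := Fintype.ofFinite (Fc σ)
  rcases isEmpty_or_nonempty (Fc σ) with he | hne
  · refine ⟨∅, by simp, by simp, by simp, ?_⟩
    intro K g _ _ d
    exact (he.false (fc σ d)).elim
  have hcon : (Dl σ p s).Connected := ⟨dl_reach hc fst cyc hp⟩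
  obtain ⟨T, hT1, hT2⟩ := hcon.exists_isTree_le
  have hcard := hT2.card_edgeFinset
  have hch : ∀ e : T.edgeSet, ∃ d : G.Dart, ¬ Tr p s d ∧ s(fc σ d, fc σ d.symm) = (e : Sym2 (Fc σ)) := by
    rintro ⟨e, he⟩
    induction e using Sym2.ind with
    | _ a b =>
      have hab : T.Adj a b := he
      obtain ⟨_, d, h1, h2, h3⟩ := hT1 hab
      exact ⟨d, h1, by rw [h2, h3]⟩
  choose f hf1 hf2 using hch
  have hinj : Function.Injective f := by
    intro e e' hee
    apply Subtype.ext
    rw [← hf2 e, ← hf2 e', hee]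
  have hsw : ∀ e e', f e ≠ (f e').symm := by
    intro e e' hee
    have h1 : e = e' := by
      apply Subtype.ext
      rw [← hf2 e, ← hf2 e', hee, Dart.symm_symm]
      exact Sym2.eq_swap
    rw [h1] at hee
    exact (Dart.symm_ne (f e')) hee.symm
  have hinj' : Function.Injective (fun e => (f e).symm) := fun e e' hee =>
    hinj (by
      have : (f e).symm.symm = (f e').symm.symm := congrArg Dart.symm hee
      rwa [Dart.symm_symm, Dart.symm_symm] at this)
  refine ⟨univ.image f ∪ univ.image (fun e => (f e).symm), ?_, ?_, ?_, ?_⟩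
  · intro d hd
    rw [mem_union, mem_image, mem_image] at hd ⊢
    rcases hd with ⟨e, _, rfl⟩ | ⟨e, _, rfl⟩
    · exact Or.inr ⟨e, mem_univ _, rfl⟩
    · exact Or.inl ⟨e, mem_univ _, (Dart.symm_symm _).symm⟩
  · intro d hd
    rw [mem_union, mem_image, mem_image] at hd
    rcases hd with ⟨e, _, rfl⟩ | ⟨e, _, rfl⟩
    · exact hf1 e
    · exact fun k => hf1 e (by rw [← Dart.symm_symm (f e)]; exact k.symm)
  · rw [card_union_of_disjoint, card_image_of_injective _ hinj, card_image_of_injective _ hinj',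
      card_univ, ← edgeFinset_card, Nat.card_eq_fintype_card]
    · omega
    · rw [Finset.disjoint_left]
      intro d hd hd'
      rw [mem_image] at hd hd'
      obtain ⟨e, _, rfl⟩ := hd
      obtain ⟨e', _, he'⟩ := hd'
      exact hsw e e' he'.symm
  · intro K g hg1 hg2 d d'
    have hgf : ∀ x y, fc σ x = fc σ y → g x = g y := fun x y hxy =>
      face_const hg1 (Quotient.exact (s := Equiv.Perm.SameCycle.setoid (faceNext σ)) hxy)
    have hT3 := hT2.connected.preconnected (fc σ d) (fc σ d')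
    have key : ∀ a b, T.Reachable a b → ∀ x y, fc σ x = a → fc σ y = b → g x = g y := by
      rintro a b ⟨w⟩
      induction w with
      | nil =>
        intro x y hx hy
        exact hgf x y (hx.trans hy.symm)
      | @cons a b c hab w ih =>
        intro x y hx hy
        have hE := hf2 ⟨s(a, b), hab⟩
        have hm : f ⟨s(a, b), hab⟩ ∈ univ.image f ∪ univ.image (fun e => (f e).symm) := by
          rw [mem_union, mem_image]
          exact Or.inl ⟨_, mem_univ _, rfl⟩
        have h3 := hg2 _ hm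
        rcases Sym2.eq_iff.1 hE with ⟨h1, h2⟩ | ⟨h1, h2⟩
        · rw [hgf x _ (hx.trans h1.symm), ← h3]
          exact ih _ _ h2 hy
        · rw [hgf x _ (hx.trans h2.symm), h3]
          exact ih _ _ h1 hy
    exact key _ _ hT3 d d' rfl rfl

/-- there are at least `2 (|V| - 1)` tree darts -/
theorem card_tree [Finite V] (hp : Up G (fun v => - h v) s p) :
    2 * (Nat.card V - 1) ≤ Nat.card {d : G.Dart // Tr p s d} := by
  classical
  have := Fintype.ofFinite V
  have hcard : Nat.card V - 1 = Nat.card {v : V // v ≠ s} := by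
    rw [Nat.card_eq_fintype_card, Nat.card_eq_fintype_card, Fintype.card_subtype_compl,
      Fintype.card_subtype_eq]
  rw [hcard, two_mul, ← Nat.card_sum]
  let φ : {v : V // v ≠ s} ⊕ {v : V // v ≠ s} → {d : G.Dart // Tr p s d} := fun x =>
    match x with
    | Sum.inl v => ⟨⟨((v : V), p v), (hp v v.2).1⟩, Or.inl ⟨v.2, rfl⟩⟩
    | Sum.inr v => ⟨⟨(p v, (v : V)), (hp v v.2).1.symm⟩, Or.inr ⟨v.2, rfl⟩⟩
  refine Nat.card_le_card_of_injective φ ?_
  rintro (v | v) (w | w) hvw
  · have h1 : (φ (Sum.inl v)).1.fst = (φ (Sum.inl w)).1.fst := by rw [hvw]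
    exact congrArg Sum.inl (Subtype.ext h1)
  · exfalso
    have h1 : (φ (Sum.inl v)).1.fst = (φ (Sum.inr w)).1.fst := by rw [hvw]
    have h2 : (φ (Sum.inl v)).1.snd = (φ (Sum.inr w)).1.snd := by rw [hvw]
    have h1' : (v : V) = p w := h1
    have h2' : p v = (w : V) := h2
    have h3 := (hp v v.2).2
    have h4 := (hp w w.2).2
    simp only [neg_lt_neg_iff] at h3 h4
    rw [h2'] at h3
    rw [← h1'] at h4
    exact lt_asymm h3 h4
  · exfalso
    have h1 : (φ (Sum.inr v)).1.fst = (φ (Sum.inl w)).1.fst := by rw [hvw]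
    have h2 : (φ (Sum.inr v)).1.snd = (φ (Sum.inl w)).1.snd := by rw [hvw]
    have h1' : p v = (w : V) := h1
    have h2' : (v : V) = p w := h2
    have h3 := (hp v v.2).2
    have h4 := (hp w w.2).2
    simp only [neg_lt_neg_iff] at h3 h4
    rw [h1'] at h3
    rw [← h2'] at h4
    exact lt_asymm h3 h4
  · have h1 : (φ (Sum.inr v)).1.snd = (φ (Sum.inr w)).1.snd := by rw [hvw]
    exact congrArg Sum.inr (Subtype.ext h1)

/-- at most `g` edges are outside both trees -/
theorem card_rest [Finite V] {g : ℕ} (hS : SurfMap g G σ) (hp : Up G (fun v => - h v) s p)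
    {C0 : Finset G.Dart} (hC1 : ∀ d ∈ C0, ¬ Tr p s d)
    (hC2 : C0.card = 2 * (Nat.card (Fc σ) - 1)) :
    Nat.card {d : G.Dart // ¬ Tr p s d ∧ d ∉ C0} ≤ 2 * g := by
  classical
  have := Fintype.ofFinite V
  have h1 := card_tree hp
  have h2 := G.dart_card_eq_twice_card_edges
  have h3 := hS.euler
  rw [Nat.card_eq_fintype_card (α := G.edgeSet), ← edgeFinset_card] at h3
  have h4 : Nat.card {d : G.Dart // ¬ Tr p s d ∧ d ∉ C0}
      = (univ.filter fun d : G.Dart => ¬ Tr p s d ∧ d ∉ C0).card := by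
    rw [Nat.card_eq_fintype_card, Fintype.card_subtype]
  have h5 : Nat.card {d : G.Dart // Tr p s d} = (univ.filter fun d : G.Dart => Tr p s d).card := by
    rw [Nat.card_eq_fintype_card, Fintype.card_subtype]
  have h6 : (univ.filter fun d : G.Dart => ¬ Tr p s d ∧ d ∉ C0).card
      + (univ.filter fun d : G.Dart => Tr p s d).card + C0.card ≤ Fintype.card G.Dart := by
    rw [← card_union_of_disjoint, ← card_union_of_disjoint, ← card_univ]
    · exact card_le_card (subset_univ _)
    · rw [Finset.disjoint_left]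
      intro d hd hd'
      rw [mem_union, mem_filter, mem_filter] at hd
      rcases hd with hd | hd
      · exact hd.2.2 hd'
      · exact hC1 d hd' hd.2
    · rw [Finset.disjoint_left]
      intro d hd hd'
      rw [mem_filter] at hd hd'
      exact hd.2.1 hd'.2
  have h7 : Nat.card {d : G.Dart // ¬ Tr p s d ∧ d ∉ C0} ≤ Fintype.card G.Dart := by
    rw [Nat.card_eq_fintype_card]
    exact Fintype.card_subtype_le _
  have h3' : G.edgeFinset.card + 2 ≤ Nat.card V + Nat.card (Fc σ) + g := h3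
  rcases isEmpty_or_nonempty G.Dart with he | ⟨⟨d0⟩⟩
  · have : IsEmpty {d : G.Dart // ¬ Tr p s d ∧ d ∉ C0} := ⟨fun d => he.false d.1⟩
    rw [Nat.card_of_isEmpty]
    exact Nat.zero_le _
  have h8 : 0 < Nat.card V := by
    have : Nonempty V := ⟨d0.fst⟩
    exact Nat.card_pos
  have h9 : 0 < Nat.card (Fc σ) := by
    have : Finite (Fc σ) := Quotient.finite _
    have : Nonempty (Fc σ) := ⟨fc σ d0⟩
    exact Nat.card_pos
  omega

theorem up_of (h1 : ∀ v, v ≠ s → G.Adj v (p v)) (h2 : ∀ v, v ≠ s → h (p v) < h v) :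
    Up G (fun v => - h v) s p := fun v hv => ⟨h1 v hv, neg_lt_neg (h2 v hv)⟩

/-- EX-DUAL: the darts off the parent tree are the disjoint union of two symmetric sets `C0` (a
spanning tree of the dual graph) and `Q` (at most `2 * g` darts) -/
theorem ex_dual [Finite V] {g : ℕ} (hc : G.Connected) (hS : SurfMap g G σ)
    (hp : Up G (fun v => - h v) s p) :
    ∃ C0 Q : Finset G.Dart, (∀ d ∈ C0, d.symm ∈ C0) ∧ (∀ d ∈ Q, d.symm ∈ Q) ∧
      (∀ d ∈ C0, ¬ Tr p s d) ∧ (∀ d ∈ Q, ¬ Tr p s d) ∧ (∀ d ∈ Q, d ∉ C0) ∧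
      (∀ d, ¬ Tr p s d → d ∈ C0 ∨ d ∈ Q) ∧
      C0.card = 2 * (Nat.card (Fc σ) - 1) ∧ Q.card ≤ 2 * g ∧
      ∀ (K : Type) (f : G.Dart → K), (∀ d, f (faceNext σ d) = f d) →
        (∀ d ∈ C0, f d.symm = f d) → ∀ d d', f d = f d' := by
  classical
  have := Fintype.ofFinite V
  obtain ⟨C0, h1, h2, h3, h4⟩ := exists_dual hc hS.fst hS.cyc hp
  have h5 := card_rest hS hp h2 h3
  rw [Nat.card_eq_fintype_card, Fintype.card_subtype] at h5
  refine ⟨C0, univ.filter fun d : G.Dart => ¬ Tr p s d ∧ d ∉ C0, h1, ?_, h2, ?_, ?_, ?_, h3, h5, h4⟩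
  · intro d hd
    rw [mem_filter] at hd ⊢
    refine ⟨mem_univ _, fun k => hd.2.1 ?_, fun k => hd.2.2 ?_⟩
    · rw [← Dart.symm_symm d]
      exact k.symm
    · rw [← Dart.symm_symm d]
      exact h1 _ k
  · intro d hd
    rw [mem_filter] at hd
    exact hd.2.1
  · intro d hd
    rw [mem_filter] at hd
    exact hd.2.2
  · intro d hd
    by_cases hd2 : d ∈ C0
    · exact Or.inl hd2
    · refine Or.inr ?_
      rw [mem_filter]
      exact ⟨mem_univ _, hd, hd2⟩

end Vale.Agent.P235.ExD
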