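import Vale.Agent.P235.R2.H341.W4
import Vale.Agent.P235.H206.SurfDefs

/-!
A spanning tree of the dual graph of a rotation system (any genus) which avoids the edges of a
forest of parents with a set `A` of roots, with exact counts (helper680).
-/

set_option linter.unusedSectionVars false
set_option linter.unusedDecidableInType false
set_option linter.unusedFintypeInType false

namespace Vale.Agent.P235.ExDA

open SimpleGraph Finset

open Vale.Agent.P235.H341W (ind ind_pos ind_neg ind_congr ind_eq_one sum_face face_const)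

variable {V : Type} {G : SimpleGraph V} {σ : Equiv.Perm G.Dart} {h : V → ℝ} {A : Set V}
  {p : V → V}

/-- every vertex outside `A` has a parent below it -/
def Dn (G : SimpleGraph V) (h : V → ℝ) (A : Set V) (p : V → V) : Prop :=
  ∀ v, v ∉ A → G.Adj v (p v) ∧ h (p v) < h v

/-- forest darts, in either direction -/
def Tr (p : V → V) (A : Set V) (d : G.Dart) : Prop :=
  (d.fst ∉ A ∧ d.snd = p d.fst) ∨ (d.snd ∉ A ∧ d.fst = p d.snd)

theorem Tr.symm {d : G.Dart} (h : Tr p A d) : Tr p A d.symm := Or.symm h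

/-- an even function supported on the forest vanishes -/
theorem forest [Fintype V] [DecidableEq V] [Fintype G.Dart] [DecidableEq G.Dart] (hp : Dn G h A p)
    (Z : G.Dart → ZMod 2) (hs : ∀ d : G.Dart, Z d.symm = Z d)
    (hv : ∀ v, ∑ d : G.Dart with d.fst = v, Z d = 0) (ht : ∀ d, Z d ≠ 0 → Tr p A d) :
    ∀ d, Z d = 0 := by
  by_contra hn
  push Not at hn
  obtain ⟨d₀, hd₀⟩ := hn
  obtain ⟨x, ⟨d, hdx, hd⟩, hmax⟩ := Set.exists_max_image {x | ∃ d : G.Dart, d.fst = x ∧ Z d ≠ 0} h
    (Set.toFinite _) ⟨_, d₀, rfl, hd₀⟩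
  have key : ∀ d' : G.Dart, d'.fst = x → Z d' ≠ 0 → d'.snd = p x := by
    intro d' h1 h2
    rcases ht d' h2 with ⟨_, h3⟩ | ⟨h3, h4⟩
    · rw [h3, h1]
    · exfalso
      have h5 := (hp _ h3).2
      rw [← h4, h1] at h5
      have h6 := hmax d'.snd ⟨d'.symm, rfl, by rw [hs]; exact h2⟩
      exact absurd h5 (not_lt.2 h6)
  have h1 := hv x
  rw [Finset.sum_eq_single d] at h1
  · exact hd h1
  · intro d' h2 h3
    by_contra h4
    refine h3 ?_
    rw [Finset.mem_filter] at h2
    ext
    · exact h2.2.trans hdx.symm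
    · exact (key d' h2.2 h4).trans (key d hdx hd).symm
  · intro h2
    exfalso
    refine h2 ?_
    rw [Finset.mem_filter]
    exact ⟨Finset.mem_univ _, hdx⟩

/-- the faces -/
abbrev Fc (σ : Equiv.Perm G.Dart) : Type := Quotient (Equiv.Perm.SameCycle.setoid (faceNext σ))

/-- the face of a dart -/
def fc (σ : Equiv.Perm G.Dart) (d : G.Dart) : Fc σ :=
  @Quotient.mk _ (Equiv.Perm.SameCycle.setoid (faceNext σ)) d

theorem fc_next (d : G.Dart) : fc σ (faceNext σ d) = fc σ d :=
  Quotient.sound (s := Equiv.Perm.SameCycle.setoid (faceNext σ))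
    (Equiv.Perm.sameCycle_apply_left.2 (Equiv.Perm.SameCycle.refl _ _))

theorem fc_surj (a : Fc σ) : ∃ d, fc σ d = a := Quotient.exists_rep a

/-- a face function which does not change across darts off the tree is constant -/
theorem const_nt' [Finite V] (hc : G.Connected) (fst : ∀ d, (σ d).fst = d.fst)
    (cyc : ∀ d d' : G.Dart, d.fst = d'.fst → σ.SameCycle d d')
    (hp : Dn G h A p) {g : G.Dart → ZMod 2} (h1 : ∀ d, g (faceNext σ d) = g d)
    (h2 : ∀ d : G.Dart, ¬ Tr p A d → g d.symm = g d) (d d' : G.Dart) : g d = g d' := by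
  classical
  have := Fintype.ofFinite V
  have h3 := forest hp (fun d => g d + g d.symm) (fun d => by
      show g d.symm + g d.symm.symm = g d + g d.symm
      rw [Dart.symm_symm, add_comm]) (sum_face fst g h1) (fun d hd => by
      by_contra hn
      refine hd ?_
      show g d + g d.symm = 0
      rw [h2 d hn, CharTwo.add_self_eq_zero])
  exact const_of_inv hc cyc g h1 (fun d => (CharTwo.add_eq_zero.1 (h3 d)).symm) d d'

/-- the dual graph without the tree edges -/
def Dl (σ : Equiv.Perm G.Dart) (p : V → V) (A : Set V) : SimpleGraph (Fc σ) where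
  Adj a b := a ≠ b ∧ ∃ d : G.Dart, ¬ Tr p A d ∧ fc σ d = a ∧ fc σ d.symm = b
  symm := ⟨fun a b hab => ⟨hab.1.symm, by
    obtain ⟨d, h1, h2, h3⟩ := hab.2
    exact ⟨d.symm, fun k => h1 (by rw [← Dart.symm_symm d]; exact k.symm), h3,
      by rw [Dart.symm_symm]; exact h2⟩⟩⟩
  loopless := ⟨fun a ha => ha.1 rfl⟩

theorem dl_reach [Finite V] (hc : G.Connected) (fst : ∀ d, (σ d).fst = d.fst)
    (cyc : ∀ d d' : G.Dart, d.fst = d'.fst → σ.SameCycle d d')
    (hp : Dn G h A p) (a b : Fc σ) : (Dl σ p A).Reachable a b := by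
  obtain ⟨d, rfl⟩ := fc_surj a
  obtain ⟨e, rfl⟩ := fc_surj b
  have key := const_nt' hc fst cyc hp (g := fun x => ind ((Dl σ p A).Reachable (fc σ d) (fc σ x)))
    (fun x => by
      show ind _ = ind _
      rw [fc_next]) (fun x hx => by
      show ind _ = ind _
      refine ind_congr ?_
      by_cases hxx : fc σ x = fc σ x.symm
      · rw [hxx]
      · have had : (Dl σ p A).Adj (fc σ x) (fc σ x.symm) := ⟨hxx, x, hx, rfl, rfl⟩
        exact ⟨fun k => k.trans had.symm.reachable, fun k => k.trans had.reachable⟩) d e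
  have h1 : ind ((Dl σ p A).Reachable (fc σ d) (fc σ d)) = 1 := ind_pos (Reachable.refl _)
  have key' : ind ((Dl σ p A).Reachable (fc σ d) (fc σ d))
    = ind ((Dl σ p A).Reachable (fc σ d) (fc σ e)) := key
  exact ind_eq_one (key'.symm.trans h1)

/-- the dual spanning tree: `F - 1` edges off the parent tree which join all faces -/
theorem exists_dual [Finite V] (hc : G.Connected) (fst : ∀ d, (σ d).fst = d.fst)
    (cyc : ∀ d d' : G.Dart, d.fst = d'.fst → σ.SameCycle d d')
    (hp : Dn G h A p) :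
    ∃ C0 : Finset G.Dart, (∀ d ∈ C0, d.symm ∈ C0) ∧ (∀ d ∈ C0, ¬ Tr p A d) ∧
      C0.card = 2 * (Nat.card (Fc σ) - 1) ∧
      ∀ (K : Type) (g : G.Dart → K), (∀ d, g (faceNext σ d) = g d) →
        (∀ d ∈ C0, g d.symm = g d) → ∀ d d', g d = g d' := by
  classical
  have := Fintype.ofFinite V
  have hfin : Finite (Fc σ) := Quotient.finite _
  have := Fintype.ofFinite (Fc σ)
  rcases isEmpty_or_nonempty (Fc σ) with he | hne
  · refine ⟨∅, by simp, by simp, by simp, ?_⟩
    intro K g _ _ d
    exact (he.false (fc σ d)).elim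
  have hcon : (Dl σ p A).Connected := ⟨dl_reach hc fst cyc hp⟩
  obtain ⟨T, hT1, hT2⟩ := hcon.exists_isTree_le
  have hcard := hT2.card_edgeFinset
  have hch : ∀ e : T.edgeSet, ∃ d : G.Dart, ¬ Tr p A d ∧ s(fc σ d, fc σ d.symm) = (e : Sym2 (Fc σ)) := by
    rintro ⟨e, he⟩
    induction e using Sym2.ind with
    | _ a b =>
      have hab : T.Adj a b := he
      obtain ⟨_, d, h1, h2, h3⟩ := hT1 hab
      exact ⟨d, h1, by rw [h2, h3]⟩
  choose f hf1 hf2 using hch
  have hinj : Function.Injective f := by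
    intro e e' hee
    apply Subtype.ext
    rw [← hf2 e, ← hf2 e', hee]
  have hsw : ∀ e e', f e ≠ (f e').symm := by
    intro e e' hee
    have h1 : e = e' := by
      apply Subtype.ext
      rw [← hf2 e, ← hf2 e', hee, Dart.symm_symm]
      exact Sym2.eq_swap
    rw [h1] at hee
    exact (Dart.symm_ne (f e')) hee.symm
  have hinj' : Function.Injective (fun e => (f e).symm) := fun e e' hee =>
    hinj (by
      have : (f e).symm.symm = (f e').symm.symm := congrArg Dart.symm hee
      rwa [Dart.symm_symm, Dart.symm_symm] at this)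
  refine ⟨univ.image f ∪ univ.image (fun e => (f e).symm), ?_, ?_, ?_, ?_⟩
  · intro d hd
    rw [mem_union, mem_image, mem_image] at hd ⊢
    rcases hd with ⟨e, _, rfl⟩ | ⟨e, _, rfl⟩
    · exact Or.inr ⟨e, mem_univ _, rfl⟩
    · exact Or.inl ⟨e, mem_univ _, (Dart.symm_symm _).symm⟩
  · intro d hd
    rw [mem_union, mem_image, mem_image] at hd
    rcases hd with ⟨e, _, rfl⟩ | ⟨e, _, rfl⟩
    · exact hf1 e
    · exact fun k => hf1 e (by rw [← Dart.symm_symm (f e)]; exact k.symm)
  · rw [card_union_of_disjoint, card_image_of_injective _ hinj, card_image_of_injective _ hinj',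
      card_univ, ← edgeFinset_card, Nat.card_eq_fintype_card]
    · omega
    · rw [Finset.disjoint_left]
      intro d hd hd'
      rw [mem_image] at hd hd'
      obtain ⟨e, _, rfl⟩ := hd
      obtain ⟨e', _, he'⟩ := hd'
      exact hsw e e' he'.symm
  · intro K g hg1 hg2 d d'
    have hgf : ∀ x y, fc σ x = fc σ y → g x = g y := fun x y hxy =>
      face_const hg1 (Quotient.exact (s := Equiv.Perm.SameCycle.setoid (faceNext σ)) hxy)
    have hT3 := hT2.connected.preconnected (fc σ d) (fc σ d')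
    have key : ∀ a b, T.Reachable a b → ∀ x y, fc σ x = a → fc σ y = b → g x = g y := by
      rintro a b ⟨w⟩
      induction w with
      | nil =>
        intro x y hx hy
        exact hgf x y (hx.trans hy.symm)
      | @cons a b c hab w ih =>
        intro x y hx hy
        have hE := hf2 ⟨s(a, b), hab⟩
        have hm : f ⟨s(a, b), hab⟩ ∈ univ.image f ∪ univ.image (fun e => (f e).symm) := by
          rw [mem_union, mem_image]
          exact Or.inl ⟨_, mem_univ _, rfl⟩
        have h3 := hg2 _ hm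
        rcases Sym2.eq_iff.1 hE with ⟨h1, h2⟩ | ⟨h1, h2⟩
        · rw [hgf x _ (hx.trans h1.symm), ← h3]
          exact ih _ _ h2 hy
        · rw [hgf x _ (hx.trans h2.symm), h3]
          exact ih _ _ h1 hy
    exact key _ _ hT3 d d' rfl rfl

/-- the number of the forest darts -/
theorem card_tree [Finite V] (hp : Dn G h A p) :
    Nat.card {d : G.Dart // Tr p A d} + 2 * A.ncard = 2 * Nat.card V := by
  classical
  have := Fintype.ofFinite V
  have hcard : Nat.card {v : V // v ∉ A} + A.ncard = Nat.card V := by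
    have h1 := Set.ncard_add_ncard_compl A
    have h2 : Nat.card {v : V // v ∉ A} = Aᶜ.ncard := rfl
    omega
  suffices h : Nat.card {d : G.Dart // Tr p A d} = 2 * Nat.card {v : V // v ∉ A} by omega
  rw [two_mul, ← Nat.card_sum]
  let φ : {v : V // v ∉ A} ⊕ {v : V // v ∉ A} → {d : G.Dart // Tr p A d} := fun x =>
    match x with
    | Sum.inl v => ⟨⟨((v : V), p v), (hp v v.2).1⟩, Or.inl ⟨v.2, rfl⟩⟩
    | Sum.inr v => ⟨⟨(p v, (v : V)), (hp v v.2).1.symm⟩, Or.inr ⟨v.2, rfl⟩⟩
  refine (Nat.card_eq_of_bijective φ ⟨?_, ?_⟩).symm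
  · rintro (v | v) (w | w) hvw
    · have h1 : (φ (Sum.inl v)).1.fst = (φ (Sum.inl w)).1.fst := by rw [hvw]
      exact congrArg Sum.inl (Subtype.ext h1)
    · exfalso
      have h1 : (φ (Sum.inl v)).1.fst = (φ (Sum.inr w)).1.fst := by rw [hvw]
      have h2 : (φ (Sum.inl v)).1.snd = (φ (Sum.inr w)).1.snd := by rw [hvw]
      have h1' : (v : V) = p w := h1
      have h2' : p v = (w : V) := h2
      have h3 := (hp v v.2).2
      have h4 := (hp w w.2).2
      rw [h2'] at h3
      rw [← h1'] at h4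
      exact lt_asymm h3 h4
    · exfalso
      have h1 : (φ (Sum.inr v)).1.fst = (φ (Sum.inl w)).1.fst := by rw [hvw]
      have h2 : (φ (Sum.inr v)).1.snd = (φ (Sum.inl w)).1.snd := by rw [hvw]
      have h1' : p v = (w : V) := h1
      have h2' : (v : V) = p w := h2
      have h3 := (hp v v.2).2
      have h4 := (hp w w.2).2
      rw [h1'] at h3
      rw [← h2'] at h4
      exact lt_asymm h3 h4
    · have h1 : (φ (Sum.inr v)).1.snd = (φ (Sum.inr w)).1.snd := by rw [hvw]
      exact congrArg Sum.inr (Subtype.ext h1)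
  · rintro ⟨d, hd | hd⟩
    · refine ⟨Sum.inl ⟨d.fst, hd.1⟩, Subtype.ext ?_⟩
      show (⟨(d.fst, p d.fst), _⟩ : G.Dart) = d
      ext
      · rfl
      · exact hd.2.symm
    · refine ⟨Sum.inr ⟨d.snd, hd.1⟩, Subtype.ext ?_⟩
      show (⟨(p d.snd, d.snd), _⟩ : G.Dart) = d
      ext
      · exact hd.2.symm
      · rfl

/-- EX-DUAL with a set `A` of roots: the darts off the forest are the disjoint union of two
symmetric sets, `C0` (a spanning tree of the dual graph) and `Q` -/
theorem ex_dual [Finite V] (hc : G.Connected) (fst : ∀ d, (σ d).fst = d.fst)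
    (cyc : ∀ d d' : G.Dart, d.fst = d'.fst → σ.SameCycle d d') (hp : Dn G h A p) :
    ∃ C0 Q : Finset G.Dart, (∀ d ∈ C0, d.symm ∈ C0) ∧ (∀ d ∈ Q, d.symm ∈ Q) ∧
      (∀ d ∈ C0, ¬ Tr p A d) ∧ (∀ d ∈ Q, ¬ Tr p A d) ∧ (∀ d ∈ Q, d ∉ C0) ∧
      (∀ d, ¬ Tr p A d → d ∈ C0 ∨ d ∈ Q) ∧
      C0.card = 2 * (Nat.card (Fc σ) - 1) ∧
      (Nonempty G.Dart →
        Q.card + 2 * (Nat.card V + Nat.card (Fc σ)) = 2 * (Nat.card G.edgeSet + A.ncard + 1)) ∧
      ∀ (K : Type) (f : G.Dart → K), (∀ d, f (faceNext σ d) = f d) →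
        (∀ d ∈ C0, f d.symm = f d) → ∀ d d', f d = f d' := by
  classical
  have := Fintype.ofFinite V
  obtain ⟨C0, h1, h2, h3, h4⟩ := exists_dual hc fst cyc hp
  have h6 := card_tree hp
  have h7 := G.dart_card_eq_twice_card_edges
  have h8 : Nat.card {d : G.Dart // Tr p A d} = (univ.filter fun d : G.Dart => Tr p A d).card := by
    rw [Nat.card_eq_fintype_card, Fintype.card_subtype]
  have h9 : (univ.filter fun d : G.Dart => ¬ Tr p A d ∧ d ∉ C0).card
      + (univ.filter fun d : G.Dart => Tr p A d).card + C0.card = Fintype.card G.Dart := by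
    rw [← card_union_of_disjoint, ← card_union_of_disjoint, ← card_univ]
    · congr 1
      ext d
      simp only [mem_union, mem_filter, mem_univ, true_and, iff_true]
      by_cases hd : Tr p A d
      · exact Or.inl (Or.inr hd)
      · by_cases hd' : d ∈ C0
        · exact Or.inr hd'
        · exact Or.inl (Or.inl ⟨hd, hd'⟩)
    · rw [Finset.disjoint_left]
      intro d hd hd'
      rw [mem_union, mem_filter, mem_filter] at hd
      rcases hd with hd | hd
      · exact hd.2.2 hd'
      · exact h2 d hd' hd.2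
    · rw [Finset.disjoint_left]
      intro d hd hd'
      rw [mem_filter] at hd hd'
      exact hd.2.1 hd'.2
  refine ⟨C0, univ.filter fun d : G.Dart => ¬ Tr p A d ∧ d ∉ C0, h1, ?_, h2, ?_, ?_, ?_, h3, ?_, h4⟩
  · intro d hd
    rw [mem_filter] at hd ⊢
    refine ⟨mem_univ _, fun k => hd.2.1 ?_, fun k => hd.2.2 ?_⟩
    · rw [← Dart.symm_symm d]
      exact k.symm
    · rw [← Dart.symm_symm d]
      exact h1 _ k
  · intro d hd
    rw [mem_filter] at hd
    exact hd.2.1
  · intro d hd
    rw [mem_filter] at hd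
    exact hd.2.2
  · intro d hd
    by_cases hd2 : d ∈ C0
    · exact Or.inl hd2
    · refine Or.inr ?_
      rw [mem_filter]
      exact ⟨mem_univ _, hd, hd2⟩
  · rintro ⟨d0⟩
    rw [Nat.card_eq_fintype_card (α := G.edgeSet), ← edgeFinset_card]
    have h11 : 0 < Nat.card (Fc σ) := by
      have : Finite (Fc σ) := Quotient.finite _
      have : Nonempty (Fc σ) := ⟨fc σ d0⟩
      exact Nat.card_pos
    omega

/-- for a surface of Euler genus at most `g`: `Q` consists of at most `2 (g + |A| - 1)` darts -/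
theorem card_Q_le [Finite V] {g : ℕ} (hS : SurfMap g G σ) {Q : Finset G.Dart}
    (hQ : Q.card + 2 * (Nat.card V + Nat.card (Fc σ)) = 2 * (Nat.card G.edgeSet + A.ncard + 1)) :
    Q.card + 2 ≤ 2 * (g + A.ncard) := by
  have h3 : Nat.card G.edgeSet + 2 ≤ Nat.card V + Nat.card (Fc σ) + g := hS.euler
  omega

end Vale.Agent.P235.ExDA
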