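import Vale.Agent.P235.H150.Ksets

set_option linter.all false

/-! Spaces built from a base space by repeatedly adding two points `R`, `S` over an edge `ab`
(with all five new edges), so that `a, b, R, S` span a complete graph. -/

namespace Vale.Agent.P235.R2.H680

open Set Vale.Agent.P235.TL

/-- edges after adding two adjacent points `some none`, `none` joined to `a` and `b` -/
def addE {V : Type} (E : V → V → Prop) (a b : V) : Option (Option V) → Option (Option V) → Prop
  | some (some u), some (some v) => E u v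
  | some (some u), some none => u = a ∨ u = b
  | some none, some (some v) => v = a ∨ v = b
  | some (some u), none => u = a ∨ u = b
  | none, some (some v) => v = a ∨ v = b
  | some none, none => True
  | none, some none => True
  | some none, some none => False
  | none, none => False

/-- distances after adding two points, `δ` to `a, b` and `δ'` to `a, b` and the first new point -/
noncomputable def stepD {V : Type} (d : V → V → ℝ) (a b : V) (δ : Fin 2 → ℝ) (δ' : Fin 3 → ℝ) :
    Option (Option V) → Option (Option V) → ℝ :=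
  addPt (addPt d ![a, b] δ) ![some a, some b, none] δ'

/-- Spaces built over `(A, dA, EA)`: type, inclusion of the base, distance, edges. -/
inductive Ext {A : Type} (dA : A → A → ℝ) (EA : A → A → Prop) :
    (V : Type) → (A → V) → (V → V → ℝ) → (V → V → Prop) → Prop
  | base : Ext dA EA A id dA EA
  | step {V : Type} {i : A → V} {d : V → V → ℝ} {E : V → V → Prop} (a b : V)
      (δ : Fin 2 → ℝ) (δ' : Fin 3 → ℝ) : Ext dA EA V i d E → E a b → Att d ![a, b] δ →
      Att (addPt d ![a, b] δ) ![some a, some b, none] δ' →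
      Ext dA EA (Option (Option V)) (fun x => some (some (i x))) (stepD d a b δ δ') (addE E a b)

/-- `W'` contains `W` and `V` glued along `B` -/
structure Glue {B W V W' : Type} (dW : W → W → ℝ) (dV : V → V → ℝ) (dW' : W' → W' → ℝ)
    (φ : B → W) (iV : B → V) (j : W → W') (ψ : V → W') : Prop where
  isoj : ∀ x y, dW' (j x) (j y) = dW x y
  isoψ : ∀ x y, dW' (ψ x) (ψ y) = dV x y
  comm : ∀ b, ψ (iV b) = j (φ b)
  cross : ∀ w v, ∃ b, dW w (φ b) + dV (iV b) v ≤ dW' (j w) (ψ v)

theorem toNew_comp {V W : Type} {dV : V → V → ℝ} {dW : W → W → ℝ} {ψ : V → W}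
    (h : ∀ x y, dW (ψ x) (ψ y) = dV x y) {n : ℕ} (s : Fin n → V) (δ : Fin n → ℝ) (v : V) :
    toNew dW (ψ ∘ s) δ (ψ v) = toNew dV s δ v := by
  unfold toNew
  refine iInf_congr fun j => ?_
  show δ j + dW (ψ (s j)) (ψ v) = _
  rw [h]

theorem addPt_map {V W : Type} {dV : V → V → ℝ} {dW : W → W → ℝ} {ψ : V → W}
    (h : ∀ x y, dW (ψ x) (ψ y) = dV x y) {n : ℕ} (s : Fin n → V) (δ : Fin n → ℝ)
    (x y : Option V) :
    addPt dW (ψ ∘ s) δ (Option.map ψ x) (Option.map ψ y) = addPt dV s δ x y := by
  rcases x with _ | x <;> rcases y with _ | y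
  · rfl
  · exact toNew_comp h s δ y
  · exact toNew_comp h s δ x
  · exact h x y

theorem Att.map {V W : Type} {dV : V → V → ℝ} {dW : W → W → ℝ} {ψ : V → W}
    (h : ∀ x y, dW (ψ x) (ψ y) = dV x y) {n : ℕ} {s : Fin n → V} {δ : Fin n → ℝ}
    (ha : Att dV s δ) : Att dW (ψ ∘ s) δ :=
  ⟨ha.npos, ha.pos, fun i j => by
      show δ i ≤ δ j + dW (ψ (s j)) (ψ (s i))
      rw [h]; exact ha.lip i j, fun i j => by
      show dW (ψ (s i)) (ψ (s j)) ≤ _
      rw [h]; exact ha.tri i j⟩

theorem Glue.add {B W V W' : Type} {dW : W → W → ℝ} {dV : V → V → ℝ} {dW' : W' → W' → ℝ}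
    {φ : B → W} {iV : B → V} {j : W → W'} {ψ : V → W'} (h : Glue dW dV dW' φ iV j ψ)
    (hV : ∀ x y, dV x y = dV y x) (hW' : ∀ x y, dW' x y = dW' y x) {n : ℕ} (hn : 0 < n)
    (s : Fin n → V) (δ : Fin n → ℝ) :
    Glue dW (addPt dV s δ) (addPt dW' (ψ ∘ s) δ) φ (fun b => some (iV b)) (fun w => some (j w))
      (Option.map ψ) := by
  refine ⟨fun x y => h.isoj x y, addPt_map h.isoψ s δ, fun b => ?_, ?_⟩
  · show some (ψ (iV b)) = _
    rw [h.comm]
  · rintro w (_ | v)
    · obtain ⟨k, hk⟩ := exists_toNew (d := dW') (s := ψ ∘ s) (δ := δ) hn (j w)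
      obtain ⟨b, hb⟩ := h.cross w (s k)
      refine ⟨b, ?_⟩
      show dW w (φ b) + toNew dV s δ (iV b) ≤ toNew dW' (ψ ∘ s) δ (j w)
      rw [hk]
      have h1 := toNew_le (d := dV) (s := s) (δ := δ) k (iV b)
      rw [hV] at h1
      have h2 : dW' ((ψ ∘ s) k) (j w) = dW' (j w) (ψ (s k)) := hW' _ _
      linarith
    · exact h.cross w v

theorem comp2 {V W : Type} (ψ : V → W) (a b : V) : ψ ∘ ![a, b] = ![ψ a, ψ b] := by
  funext i; fin_cases i <;> rfl

theorem comp3 {V W : Type} (ψ : V → W) (a b : V) :
    Option.map ψ ∘ ![some a, some b, none] = ![some (ψ a), some (ψ b), none] := by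
  funext i; fin_cases i <;> rfl

namespace Ext

variable {A : Type} {dA : A → A → ℝ} {EA : A → A → Prop} {V : Type} {i : A → V}
  {d : V → V → ℝ} {E : V → V → Prop}

theorem met (h : Ext dA EA V i d E) (hA : Met dA) : Met d := by
  induction h with
  | base => exact hA
  | step a b δ δ' h hE ha ha' ih => exact (ih.addPt ha).addPt ha'

theorem iso (h : Ext dA EA V i d E) : ∀ a b, d (i a) (i b) = dA a b := by
  induction h with
  | base => intro a b; rfl
  | step a b δ δ' h hE ha ha' ih => intro x y; exact ih x y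

theorem edge (h : Ext dA EA V i d E) : ∀ a b, EA a b → E (i a) (i b) := by
  induction h with
  | base => intro a b h; exact h
  | step a b δ δ' h hE ha ha' ih => intro x y hxy; exact ih x y hxy

theorem finite (h : Ext dA EA V i d E) [Finite A] : Finite V := by
  induction h with
  | base => infer_instance
  | step a b δ δ' h hE ha ha' ih => have := ih; infer_instance

theorem nonempty (h : Ext dA EA V i d E) [Nonempty A] : Nonempty V := by
  obtain ⟨a⟩ := ‹Nonempty A›
  exact ⟨i a⟩

theorem symmE (h : Ext dA EA V i d E) (hA : ∀ a b, EA a b → EA b a) : ∀ a b, E a b → E b a := by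
  induction h with
  | base => exact hA
  | step a b δ δ' h hE ha ha' ih =>
    rintro (_ | _ | x) (_ | _ | y) hxy
    all_goals first | exact hxy | exact ih _ _ hxy

theorem irreflE (h : Ext dA EA V i d E) (hA : ∀ a, ¬ EA a a) : ∀ a, ¬ E a a := by
  induction h with
  | base => exact hA
  | step a b δ δ' h hE ha ha' ih =>
    rintro (_ | _ | x) hxy
    all_goals first | exact hxy | exact ih _ hxy

theorem trans {V' : Type} {i' : V → V'} {d' : V' → V' → ℝ} {E' : V' → V' → Prop}
    (h : Ext dA EA V i d E) (h' : Ext d E V' i' d' E') :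
    Ext dA EA V' (fun a => i' (i a)) d' E' := by
  induction h' with
  | base => exact h
  | step a b δ δ' h'' hE ha ha' ih => exact Ext.step a b δ δ' ih hE ha ha'

/-- scaling -/
theorem scale (h : Ext dA EA V i d E) {c : ℝ} (hc : 0 < c) :
    Ext (fun a b => c * dA a b) EA V i (fun x y => c * d x y) E := by
  have key : ∀ {U : Type} (d : U → U → ℝ) {n : ℕ} (s : Fin n → U) (δ : Fin n → ℝ),
      (fun x y => c * addPt d s δ x y) = addPt (fun x y => c * d x y) s (fun j => c * δ j) := by
    intro U d n s δ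
    have key : ∀ v, c * toNew d s δ v = toNew (fun x y => c * d x y) s (fun j => c * δ j) v := by
      intro v
      unfold toNew
      rw [Real.mul_iInf_of_nonneg hc.le]
      refine iInf_congr fun j => ?_
      ring
    funext x y
    rcases x with _ | x <;> rcases y with _ | y
    · exact mul_zero c
    · exact key y
    · exact key x
    · rfl
  have key2 : ∀ {U : Type} {d : U → U → ℝ} {n : ℕ} {s : Fin n → U} {δ : Fin n → ℝ},
      Att d s δ → Att (fun x y => c * d x y) s (fun j => c * δ j) := by
    intro U d n s δ ha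
    refine ⟨ha.npos, fun i => mul_pos hc (ha.pos i), ?_, ?_⟩
    · intro i j
      have := mul_le_mul_of_nonneg_left (ha.lip i j) hc.le
      rw [mul_add] at this
      exact this
    · intro i j
      have := mul_le_mul_of_nonneg_left (ha.tri i j) hc.le
      rw [mul_add] at this
      exact this
  induction h with
  | base => exact Ext.base
  | @step V i d E a b δ δ' h hE ha ha' ih =>
    have e : (fun x y => c * stepD d a b δ δ' x y) =
        stepD (fun x y => c * d x y) a b (fun j => c * δ j) (fun j => c * δ' j) := by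
      unfold stepD
      rw [key, key]
    rw [e]
    refine Ext.step a b _ _ ih hE (key2 ha) ?_
    have := key2 ha'
    rw [key] at this
    exact this

/-- amalgamation -/
theorem amalgam (hAm : Met dA) {W : Type} {iW : A → W} {dW : W → W → ℝ} {EW : W → W → Prop}
    (hW : Ext dA EA W iW dW EW) {B : Type} {dB : B → B → ℝ} {EB : B → B → Prop} {φ : B → W}
    (hφ : ∀ x y, dW (φ x) (φ y) = dB x y) (hE : ∀ x y, EB x y → EW (φ x) (φ y))
    (hBm : Met dB) {V : Type} {iV : B → V} {dV : V → V → ℝ} {EV : V → V → Prop}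
    (hV : Ext dB EB V iV dV EV) :
    ∃ (W' : Type) (dW' : W' → W' → ℝ) (EW' : W' → W' → Prop) (j : W → W') (ψ : V → W'),
      Ext dW EW W' j dW' EW' ∧ Glue dW dV dW' φ iV j ψ ∧
        (∀ x y, EV x y → EW' (ψ x) (ψ y)) := by
  have hWm : Met dW := hW.met hAm
  induction hV with
  | base =>
    refine ⟨W, dW, EW, id, φ, Ext.base, ⟨fun _ _ => rfl, hφ, fun _ => rfl, fun w v => ⟨v, ?_⟩⟩, hE⟩
    show dW w (φ v) + dB v v ≤ dW w (φ v)
    rw [hBm.self, add_zero]
  | @step V iV dV EV a b δ δ' h hEV ha ha' ih =>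
    obtain ⟨W', dW', EW', j, ψ, hW', hg, hψ⟩ := ih
    have hW'm : Met dW' := hW'.met hWm
    have hVm : Met dV := h.met hBm
    have hg1 := hg.add hVm.symm hW'm.symm (by norm_num) ![a, b] δ
    have hb1 := Att.map (dW := dW') (ψ := ψ) hg.isoψ ha
    have m1 := hW'm.addPt hb1
    have hg2 := hg1.add (hVm.addPt ha).symm m1.symm (by norm_num) ![some a, some b, none] δ'
    have hb2 := Att.map (ψ := Option.map ψ) hg1.isoψ ha'
    rw [comp2] at hg1 hb1 hg2 hb2
    rw [comp3] at hg2 hb2
    refine ⟨_, _, _, _, _, Ext.step (ψ a) (ψ b) δ δ' hW' (hψ _ _ hEV) hb1 hb2, hg2, ?_⟩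
    rintro (_ | _ | x) (_ | _ | y) hxy
    · exact hxy
    · exact hxy
    · rcases hxy with h | h
      · exact Or.inl (congrArg ψ h)
      · exact Or.inr (congrArg ψ h)
    · exact hxy
    · exact hxy
    · rcases hxy with h | h
      · exact Or.inl (congrArg ψ h)
      · exact Or.inr (congrArg ψ h)
    · rcases hxy with h | h
      · exact Or.inl (congrArg ψ h)
      · exact Or.inr (congrArg ψ h)
    · rcases hxy with h | h
      · exact Or.inl (congrArg ψ h)
      · exact Or.inr (congrArg ψ h)
    · exact hψ _ _ hxy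

end Ext

end Vale.Agent.P235.R2.H680
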