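import Vale.Agent.P235.R2.H680.Bil

set_option linter.all false

/-! The gadget: a path `s, R, S, t` with two ears, and points on the ears. -/

namespace Vale.Agent.P235.R2.H680

open Set Vale.Agent.P235.TL

/-- a space with a law that no extension can break -/
structure St (D : ℝ) {A : Type} (dA : A → A → ℝ) (EA : A → A → Prop) (r : A → A → ℝ) : Prop where
  fin : Finite A
  met : Met dA
  sym : ∀ a b, EA a b → EA b a
  irr : ∀ a, ¬ EA a a
  mem : r ∈ KE D dA EA

/-- `m` is a new midpoint of `ab` -/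
structure Mid (e : ℝ) {A B : Type} (dA : A → A → ℝ) (EA : A → A → Prop) (r : A → A → ℝ)
    (dB : B → B → ℝ) (EB : B → B → Prop) (rB : B → B → ℝ) (j : A → B) (a b : A) (m : B) :
    Prop where
  iso : ∀ x y, dB (j x) (j y) = dA x y
  edge : ∀ x y, EA x y → EB (j x) (j y)
  law : ∀ x y, rB (j x) (j y) = r x y
  ea : EB (j a) m
  eb : EB m (j b)
  da : dB (j a) m = dA a b / 2
  db : dB m (j b) = dA a b / 2
  ra : rB (j a) m = dA a b / 2
  rb : rB m (j b) = dA a b / 2
  near : ∀ v, |rB m (j v) - (r a v + r b v) / 2| ≤ e * dA a b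
  dist : ∀ v, dB m (j v) = min (dA a b / 2 + dA a v) (dA a b / 2 + dA b v)

theorem St.mid {D e : ℝ} (hD : 0 < D) (he : 0 < e) (hDe : 1 / 4 - 1 / (2 * D) < e ^ 2)
    {A : Type} {dA : A → A → ℝ} {EA : A → A → Prop} {r : A → A → ℝ} (h : St D dA EA r)
    {a b : A} (hab : EA a b) (hsat : r a b = dA a b) :
    ∃ (B : Type) (dB : B → B → ℝ) (EB : B → B → Prop) (rB : B → B → ℝ) (j : A → B) (m : B),
      St D dB EB rB ∧ Mid e dA EA r dB EB rB j a b m := by
  have := h.fin
  have hne : a ≠ b := fun e => h.irr b (e ▸ hab)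
  obtain ⟨r1, hr1, h1, h2⟩ := bilin hD he hDe h.met h.mem hab hne hsat
  have hx := midExt (EA := EA) h.met hne hab
  have hm := hx.met h.met
  have hadm := KE.adm hr1
  have e1 : midD dA a b (some none) (some (some a)) = dA a b / 2 := by
    rw [midD_val h.met, h.met.self, h.met.symm b a, add_zero,
      min_eq_left (by have := h.met.nonneg a b; linarith)]
  have e2 : midD dA a b (some none) (some (some b)) = dA a b / 2 := by
    rw [midD_val h.met, h.met.self, add_zero,
      min_eq_right (by have := h.met.nonneg a b; linarith)]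
  have u1 : r1 (some (some a)) (some none) ≤ dA a b / 2 := by
    refine (hadm.up _ _).trans ?_
    rw [hm.symm, e1]
  have u2 : r1 (some none) (some (some b)) ≤ dA a b / 2 := by
    refine (hadm.up _ _).trans ?_
    rw [e2]
  have u3 := hadm.l1.tri (some (some a)) (some none) (some (some b))
  rw [h1, hsat] at u3
  refine ⟨_, _, _, r1, fun x => some (some x), some none,
    ⟨hx.finite, hm, hx.symmE h.sym, hx.irreflE h.irr, hr1⟩,
    ⟨fun _ _ => rfl, fun _ _ hxy => hxy, h1, Or.inl rfl, Or.inr rfl, ?_, e2, ?_, ?_, h2,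
      fun v => midD_val h.met v⟩⟩
  · rw [hm.symm, e1]
  · linarith
  · linarith

/-- attachment distances of `R` -/
noncomputable def dR : Fin 2 → ℝ := ![3 / 11, 8 / 11]

/-- attachment distances of `S` -/
noncomputable def dS : Fin 3 → ℝ := ![8 / 11, 3 / 11, 5 / 11]

theorem dR_att : Att (pr 1) ![false, true] dR := by
  refine ⟨by norm_num, fun i => ?_, fun i j => ?_, fun i j => ?_⟩
  · fin_cases i <;> simp [dR]
  · fin_cases i <;> fin_cases j <;> simp [dR, pr] <;> norm_num
  · fin_cases i <;> fin_cases j <;> simp [dR, pr] <;> norm_num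

theorem dR_s : addPt (pr 1) ![false, true] dR none (some false) = 3 / 11 := by
  show toNew (pr 1) ![false, true] ![3 / 11, 8 / 11] false = _
  rw [toNew_two (pr_met one_pos)]
  simp [pr]
  norm_num

theorem dR_t : addPt (pr 1) ![false, true] dR none (some true) = 8 / 11 := by
  show toNew (pr 1) ![false, true] ![3 / 11, 8 / 11] true = _
  rw [toNew_two (pr_met one_pos)]
  simp [pr]
  norm_num

theorem dS_att : Att (addPt (pr 1) ![false, true] dR) ![some false, some true, none] dS := by
  have m1 := (pr_met one_pos).addPt dR_att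
  have ea := dR_s
  have eb := dR_t
  have ea' := m1.symm (some false) none
  have eb' := m1.symm (some true) none
  have e0 : addPt (pr 1) ![false, true] dR (some false) (some true) = 1 := rfl
  have e1 : addPt (pr 1) ![false, true] dR (some true) (some false) = 1 := rfl
  have e2 : addPt (pr 1) ![false, true] dR (some false) (some false) = 0 := rfl
  have e3 : addPt (pr 1) ![false, true] dR (some true) (some true) = 0 := rfl
  have e4 : addPt (pr 1) ![false, true] dR none none = 0 := rfl
  refine ⟨by norm_num, fun i => ?_, fun i j => ?_, fun i j => ?_⟩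
  · fin_cases i <;> simp [dS]
  · fin_cases i <;> fin_cases j <;> simp [dS, e0, e1, e2, e3, e4, ea, eb, ea', eb'] <;> norm_num
  · fin_cases i <;> fin_cases j <;> simp [dS, e0, e1, e2, e3, e4, ea, eb, ea', eb'] <;> norm_num

theorem toNew_three {A : Type} {d : A → A → ℝ} {a b c : A} (x y z : ℝ) (v : A) :
    toNew d ![a, b, c] ![x, y, z] v = min (x + d a v) (min (y + d b v) (z + d c v)) := by
  apply le_antisymm
  · exact le_min (toNew_le (d := d) (s := ![a, b, c]) (δ := ![x, y, z]) 0 v)
      (le_min (toNew_le (d := d) (s := ![a, b, c]) (δ := ![x, y, z]) 1 v)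
        (toNew_le (d := d) (s := ![a, b, c]) (δ := ![x, y, z]) 2 v))
  · refine le_toNew (by norm_num) fun j => ?_
    fin_cases j
    · exact min_le_left _ _
    · exact (min_le_right _ _).trans (min_le_left _ _)
    · exact (min_le_right _ _).trans (min_le_right _ _)

/-- the path `s, R, S, t` at heights `0, 3/11, 8/11, 1` -/
theorem start {D : ℝ} (hD : 0 < D) (H : HypP D) :
    ∃ (A : Type) (d : A → A → ℝ) (E : A → A → Prop) (r : A → A → ℝ) (s R S t : A),
      St D d E r ∧ E s S ∧ E R t ∧ d s t = 1 ∧ d s R = 3 / 11 ∧ d s S = 8 / 11 ∧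
      d R S = 5 / 11 ∧ d R t = 8 / 11 ∧ d S t = 3 / 11 ∧ r s t = 1 ∧ r s R = 3 / 11 ∧
      r s S = 8 / 11 ∧ r R S = 5 / 11 ∧ r R t = 8 / 11 ∧ r S t = 3 / 11 := by
  have hP : Met (pr 1) := pr_met one_pos
  have hx : Ext (pr 1) (· ≠ ·) (Option (Option Bool)) (fun x => some (some x))
      (stepD (pr 1) false true dR dS) (addE (· ≠ ·) false true) :=
    Ext.step false true dR dS Ext.base Bool.false_ne_true dR_att dS_att
  have hm := hx.met hP
  obtain ⟨r, hr, hr'⟩ := KE.extend hP (pr_mem H hD) hx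
  have hadm := KE.adm hr
  set d := stepD (pr 1) false true dR dS with hd
  have m1 := hP.addPt dR_att
  have ea := dR_s
  have eb := dR_t
  have ea' := m1.symm (some false) none
  have eb' := m1.symm (some true) none
  have e0 : addPt (pr 1) ![false, true] dR (some false) (some true) = 1 := rfl
  have e1 : addPt (pr 1) ![false, true] dR (some true) (some false) = 1 := rfl
  have e2 : addPt (pr 1) ![false, true] dR (some false) (some false) = 0 := rfl
  have e3 : addPt (pr 1) ![false, true] dR (some true) (some true) = 0 := rfl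
  have e4 : addPt (pr 1) ![false, true] dR none none = 0 := rfl
  have d1 : d (some (some false)) (some (some true)) = 1 := rfl
  have d2 : d (some (some false)) (some none) = 3 / 11 := by
    rw [hm.symm]; exact ea
  have d3 : d (some (some false)) none = 8 / 11 := by
    show toNew _ ![some false, some true, none] ![8 / 11, 3 / 11, 5 / 11] (some false) = _
    rw [toNew_three, e2, e1, ea]
    norm_num
  have d4 : d (some none) none = 5 / 11 := by
    show toNew _ ![some false, some true, none] ![8 / 11, 3 / 11, 5 / 11] none = _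
    rw [toNew_three, e4, ea', eb', ea, eb]
    norm_num
  have d5 : d (some none) (some (some true)) = 8 / 11 := eb
  have d6 : d none (some (some true)) = 3 / 11 := by
    show toNew _ ![some false, some true, none] ![8 / 11, 3 / 11, 5 / 11] (some true) = _
    rw [toNew_three, e0, e3, eb]
    norm_num
  have h1 : r (some (some false)) (some (some true)) = 1 := by
    rw [hr']; rfl
  have h2 := hadm.up (some (some false)) (some none)
  have h3 := hadm.up (some (some false)) none
  have h4 := hadm.up (some none) none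
  have h5 := hadm.up (some none) (some (some true))
  have h6 := hadm.up none (some (some true))
  have t1 := hadm.l1.tri (some (some false)) (some none) (some (some true))
  have t2 := hadm.l1.tri (some (some false)) none (some (some true))
  have t3 := hadm.l1.tri (some (some false)) (some none) none
  have t4 := hadm.l1.tri (some none) none (some (some true))
  rw [d2] at h2
  rw [d3] at h3
  rw [d4] at h4
  rw [d5] at h5
  rw [d6] at h6
  rw [h1] at t1 t2
  have := hx.finite
  refine ⟨_, d, _, r, some (some false), some none, none, some (some true),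
    ⟨hx.finite, hm, hx.symmE (fun a b h => Ne.symm h), hx.irreflE (fun a h => h rfl), hr⟩,
    Or.inl rfl, Or.inr rfl, d1, d2, d3, d4, d5, d6, h1, ?_, ?_, ?_, ?_, ?_⟩
  all_goals linarith

/-- no law is good enough for `D ≤ 2.006` -/
theorem gadget {D : ℝ} (hD : 0 < D) (hD2 : D ≤ 2.006) (H : HypP D) : False := by
  set e : ℝ := 28 / 1000 with he
  have he0 : 0 < e := by norm_num
  have hDe : 1 / 4 - 1 / (2 * D) < e ^ 2 := by
    have h1 : (1 : ℝ) / (2 * 2.006) ≤ 1 / (2 * D) :=
      one_div_le_one_div_of_le (by linarith) (by linarith)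
    rw [he]
    norm_num at h1 ⊢
    linarith
  obtain ⟨A0, d0, E0, r0, s, R, S, t, st0, hsS, hRt, a1, a2, a3, a4, a5, a6, b1, b2, b3, b4, b5,
    b6⟩ := start hD H
  -- first midpoint of `sS`
  obtain ⟨A1, d1, E1, r1, j1, m1, st1, M1⟩ := st0.mid hD he0 hDe hsS (b3.trans a3.symm)
  have n1R := abs_le.1 (M1.near R)
  have n1t := abs_le.1 (M1.near t)
  have n1S := M1.db
  have q1S := M1.rb
  have x1R := M1.dist R
  have x1t := M1.dist t
  have s0RS := st0.met.symm S R
  have s0r : r0 S R = r0 R S := (KE.adm st0.mem).l1.symm _ _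
  rw [a3, a2, s0RS, a4] at x1R
  rw [a3, a1, a6] at x1t
  rw [a3] at n1R n1t n1S q1S
  rw [b2, s0r, b4] at n1R
  rw [b1, b6] at n1t
  norm_num at x1R x1t
  -- second point
  obtain ⟨A2, d2, E2, r2, j2, p1, st2, M2⟩ := st1.mid hD he0 hDe M1.eb (q1S.trans n1S.symm)
  have n2R := abs_le.1 (M2.near (j1 R))
  have n2t := abs_le.1 (M2.near (j1 t))
  have q2 := M2.ra
  have x2 := M2.da
  have x2R := M2.dist (j1 R)
  have x2t := M2.dist (j1 t)
  rw [n1S, x1R, M1.iso, s0RS, a4] at x2R
  rw [n1S, x1t, M1.iso, a6] at x2t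
  rw [n1S, M1.law, s0r, b4] at n2R
  rw [n1S, M1.law, b6] at n2t
  rw [n1S] at q2 x2
  norm_num at x2R x2t
  -- third point `p`
  obtain ⟨A3, d3, E3, r3, j3, p, st3, M3⟩ := st2.mid hD he0 hDe M2.ea (q2.trans x2.symm)
  have n3R := abs_le.1 (M3.near (j2 (j1 R)))
  have n3t := abs_le.1 (M3.near (j2 (j1 t)))
  have x3R := M3.dist (j2 (j1 R))
  have x3t := M3.dist (j2 (j1 t))
  rw [x2, M2.iso, x1R, x2R] at x3R
  rw [x2, M2.iso, x1t, x2t] at x3t
  rw [x2, M2.law] at n3R n3t
  norm_num at x3R x3t
  -- the other side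
  have hRt3 : E3 (j3 (j2 (j1 R))) (j3 (j2 (j1 t))) := M3.edge _ _ (M2.edge _ _ (M1.edge _ _ hRt))
  have dRt3 : d3 (j3 (j2 (j1 R))) (j3 (j2 (j1 t))) = 8 / 11 := by
    rw [M3.iso, M2.iso, M1.iso, a5]
  have rRt3 : r3 (j3 (j2 (j1 R))) (j3 (j2 (j1 t))) = 8 / 11 := by
    rw [M3.law, M2.law, M1.law, b5]
  obtain ⟨A4, d4, E4, r4, j4, m2, st4, M4⟩ := st3.mid hD he0 hDe hRt3 (rRt3.trans dRt3.symm)
  have n4 := abs_le.1 (M4.near p)
  have x4 := M4.dist p
  have y4 := M4.da
  have q4 := M4.ra
  rw [dRt3, st3.met.symm _ p, st3.met.symm _ p, x3R, x3t] at x4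
  rw [dRt3] at y4 q4 n4
  norm_num at x4
  have s3R : r3 (j3 (j2 (j1 R))) p = r3 p (j3 (j2 (j1 R))) := (KE.adm st3.mem).l1.symm _ _
  have s3t : r3 (j3 (j2 (j1 t))) p = r3 p (j3 (j2 (j1 t))) := (KE.adm st3.mem).l1.symm _ _
  rw [s3R, s3t] at n4
  obtain ⟨A5, d5, E5, r5, j5, p2, st5, M5⟩ := st4.mid hD he0 hDe M4.ea (q4.trans y4.symm)
  have n5 := abs_le.1 (M5.near (j4 p))
  have x5 := M5.dist (j4 p)
  have y5 := M5.db
  have q5 := M5.rb
  rw [y4, M4.iso, st3.met.symm _ p, x3R, x4] at x5
  rw [y4] at y5 q5 n5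
  rw [M4.law, s3R] at n5
  norm_num at x5
  obtain ⟨A6, d6, E6, r6, j6, pp, st6, M6⟩ := st5.mid hD he0 hDe M5.eb (q5.trans y5.symm)
  have n6 := abs_le.1 (M6.near (j5 (j4 p)))
  have x6 := M6.dist (j5 (j4 p))
  rw [y5, x5, M5.iso, x4] at x6
  rw [y5, M5.law] at n6
  norm_num at x6
  -- conclusion
  have hlow := (KE.adm st6.mem).low pp (j6 (j5 (j4 p)))
  have hnn := (KE.adm st6.mem).l1.nonneg pp (j6 (j5 (j4 p)))
  have hup : r6 pp (j6 (j5 (j4 p))) ≤ 314 / 704 + 20 / 11 * e := by
    linarith [n1R.2, n1t.2, n2R.2, n2t.2, n3R.2, n3t.2, n4.2, n5.2, n6.2]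
  have h7 : D * r6 pp (j6 (j5 (j4 p))) ≤ 2.006 * (314 / 704 + 20 / 11 * e) := by
    have := mul_le_mul hD2 hup hnn (by norm_num)
    exact this
  rw [he] at h7
  norm_num at h7
  linarith

end Vale.Agent.P235.R2.H680
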