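import Vale.Agent.P235.R2.H680.ExDualA

/-!
The cut graph: a symmetric set `Q` of darts together with the forest paths of its ends (helper680).
-/

set_option linter.unusedSectionVars false
set_option linter.unusedDecidableInType false
set_option linter.unusedFintypeInType false

namespace Vale.Agent.P235.ExDA

open SimpleGraph Finset

variable {V : Type} {G : SimpleGraph V} {σ : Equiv.Perm G.Dart} {h : V → ℝ} {A : Set V}
  {p : V → V}

/-- reachability along parents -/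
def Orb (p : V → V) (A : Set V) : V → V → Prop := Relation.ReflTransGen fun x y => x ∉ A ∧ y = p x

/-- the vertices of the forest paths which start at the darts of `Q` -/
def X (p : V → V) (A : Set V) (Q : Finset G.Dart) : Set V := {v | ∃ d ∈ Q, Orb p A d.fst v}

/-- `Q` and the forest edges inside `X` -/
def Gam (p : V → V) (A : Set V) (Q : Finset G.Dart) : Set G.Dart :=
  {d | d ∈ Q ∨ (Tr p A d ∧ d.fst ∈ X p A Q ∧ d.snd ∈ X p A Q)}

theorem Orb.total {a v w : V} (h1 : Orb p A a v) (h2 : Orb p A a w) :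
    Orb p A v w ∨ Orb p A w v := by
  refine Relation.ReflTransGen.total_of_right_unique ?_ h1 h2
  rintro x y z ⟨_, rfl⟩ ⟨_, rfl⟩
  rfl

theorem Orb.le (hp : Dn G h A p) {a v : V} (h1 : Orb p A a v) : h v ≤ h a := by
  induction h1 with
  | refl => exact le_refl _
  | @tail y z _ h2 ih =>
    obtain ⟨h3, rfl⟩ := h2
    exact (hp y h3).2.le.trans ih

theorem mem_X {Q : Finset G.Dart} {d : G.Dart} (hd : d ∈ Q) : d.fst ∈ X p A Q :=
  ⟨d, hd, Relation.ReflTransGen.refl⟩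

theorem mem_X' {Q : Finset G.Dart} (hQ : ∀ d ∈ Q, d.symm ∈ Q) {d : G.Dart} (hd : d ∈ Q) :
    d.snd ∈ X p A Q := ⟨d.symm, hQ d hd, Relation.ReflTransGen.refl⟩

theorem X_p {Q : Finset G.Dart} {v : V} (hv : v ∈ X p A Q) (hA : v ∉ A) : p v ∈ X p A Q := by
  obtain ⟨d, h1, h2⟩ := hv
  exact ⟨d, h1, h2.tail ⟨hA, rfl⟩⟩

theorem gam_symm {Q : Finset G.Dart} (hQ : ∀ d ∈ Q, d.symm ∈ Q) {d : G.Dart}
    (hd : d ∈ Gam p A Q) : d.symm ∈ Gam p A Q := by
  rcases hd with hd | ⟨h1, h2, h3⟩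
  · exact Or.inl (hQ d hd)
  · exact Or.inr ⟨h1.symm, h3, h2⟩

theorem gam_fst {Q : Finset G.Dart} {d : G.Dart} (hd : d ∈ Gam p A Q) : d.fst ∈ X p A Q := by
  rcases hd with hd | ⟨h1, h2, h3⟩
  · exact mem_X hd
  · exact h2

theorem gam_snd {Q : Finset G.Dart} (hQ : ∀ d ∈ Q, d.symm ∈ Q) {d : G.Dart}
    (hd : d ∈ Gam p A Q) : d.snd ∈ X p A Q := gam_fst (gam_symm hQ hd)

/-- every vertex of `X` is the first vertex of a dart of the cut graph -/
theorem exists_gam (hp : Dn G h A p) {Q : Finset G.Dart} {x : V} (hx : x ∈ X p A Q) :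
    ∃ d ∈ Gam p A Q, d.fst = x := by
  obtain ⟨d, hd, ho⟩ := hx
  rcases Relation.ReflTransGen.cases_tail ho with h1 | ⟨y, h1, h2, h3⟩
  · exact ⟨d, Or.inl hd, h1.symm⟩
  · have hy : y ∈ X p A Q := ⟨d, hd, h1⟩
    refine ⟨⟨(x, y), by rw [h3]; exact (hp y h2).1.symm⟩, Or.inr ⟨Or.inr ⟨h2, h3⟩, ?_, hy⟩, rfl⟩
    exact ⟨d, hd, ho⟩

theorem not_gam {Q C0 : Finset G.Dart} (h1 : ∀ d ∈ C0, ¬ Tr p A d) (h2 : ∀ d ∈ Q, d ∉ C0)
    {d : G.Dart} (hd : d ∈ C0) : d ∉ Gam p A Q := by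
  rintro (h3 | h3)
  · exact h2 d h3 hd
  · exact h1 d hd h3.1

/-- the number of the darts of the cut graph -/
theorem card_gam [Finite V] (hp : Dn G h A p) {Q : Finset G.Dart} (hQT : ∀ d ∈ Q, ¬ Tr p A d) :
    Nat.card (Gam p A Q) = Q.card + 2 * (X p A Q \ A).ncard := by
  classical
  have := Fintype.ofFinite V
  let Y : Set V := X p A Q \ A
  let φ : {d // d ∈ Q} ⊕ (Y ⊕ Y) → Gam p A Q := fun x =>
    match x with
    | Sum.inl d => ⟨d.1, Or.inl d.2⟩
    | Sum.inr (Sum.inl v) => ⟨⟨((v : V), p v), (hp v v.2.2).1⟩,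
        Or.inr ⟨Or.inl ⟨v.2.2, rfl⟩, v.2.1, X_p v.2.1 v.2.2⟩⟩
    | Sum.inr (Sum.inr v) => ⟨⟨(p v, (v : V)), (hp v v.2.2).1.symm⟩,
        Or.inr ⟨Or.inr ⟨v.2.2, rfl⟩, X_p v.2.1 v.2.2, v.2.1⟩⟩
  have hφ : Function.Bijective φ := by
    constructor
    · rintro (d | v | v) (e | w | w) hvw
      · have h1 : (φ (Sum.inl d)).1 = (φ (Sum.inl e)).1 := by rw [hvw]
        exact congrArg Sum.inl (Subtype.ext h1)
      · exfalso
        have h1 : (φ (Sum.inl d)).1 = (φ (Sum.inr (Sum.inl w))).1 := by rw [hvw]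
        refine hQT d.1 d.2 ?_
        have h2 : d.1 = (φ (Sum.inr (Sum.inl w))).1 := h1
        rw [h2]
        exact Or.inl ⟨w.2.2, rfl⟩
      · exfalso
        have h1 : (φ (Sum.inl d)).1 = (φ (Sum.inr (Sum.inr w))).1 := by rw [hvw]
        refine hQT d.1 d.2 ?_
        have h2 : d.1 = (φ (Sum.inr (Sum.inr w))).1 := h1
        rw [h2]
        exact Or.inr ⟨w.2.2, rfl⟩
      · exfalso
        have h1 : (φ (Sum.inr (Sum.inl v))).1 = (φ (Sum.inl e)).1 := by rw [hvw]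
        refine hQT e.1 e.2 ?_
        have h2 : e.1 = (φ (Sum.inr (Sum.inl v))).1 := h1.symm
        rw [h2]
        exact Or.inl ⟨v.2.2, rfl⟩
      · have h1 : (φ (Sum.inr (Sum.inl v))).1.fst = (φ (Sum.inr (Sum.inl w))).1.fst := by rw [hvw]
        exact congrArg (fun t => Sum.inr (Sum.inl t)) (Subtype.ext h1)
      · exfalso
        have h1 : (φ (Sum.inr (Sum.inl v))).1.fst = (φ (Sum.inr (Sum.inr w))).1.fst := by rw [hvw]
        have h2 : (φ (Sum.inr (Sum.inl v))).1.snd = (φ (Sum.inr (Sum.inr w))).1.snd := by rw [hvw]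
        have h1' : (v : V) = p w := h1
        have h2' : p v = (w : V) := h2
        have h3 := (hp v v.2.2).2
        have h4 := (hp w w.2.2).2
        rw [h2'] at h3
        rw [← h1'] at h4
        exact lt_asymm h3 h4
      · exfalso
        have h1 : (φ (Sum.inr (Sum.inr v))).1 = (φ (Sum.inl e)).1 := by rw [hvw]
        refine hQT e.1 e.2 ?_
        have h2 : e.1 = (φ (Sum.inr (Sum.inr v))).1 := h1.symm
        rw [h2]
        exact Or.inr ⟨v.2.2, rfl⟩
      · exfalso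
        have h1 : (φ (Sum.inr (Sum.inr v))).1.fst = (φ (Sum.inr (Sum.inl w))).1.fst := by rw [hvw]
        have h2 : (φ (Sum.inr (Sum.inr v))).1.snd = (φ (Sum.inr (Sum.inl w))).1.snd := by rw [hvw]
        have h1' : p v = (w : V) := h1
        have h2' : (v : V) = p w := h2
        have h3 := (hp v v.2.2).2
        have h4 := (hp w w.2.2).2
        rw [h1'] at h3
        rw [← h2'] at h4
        exact lt_asymm h3 h4
      · have h1 : (φ (Sum.inr (Sum.inr v))).1.snd = (φ (Sum.inr (Sum.inr w))).1.snd := by rw [hvw]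
        exact congrArg (fun t => Sum.inr (Sum.inr t)) (Subtype.ext h1)
    · rintro ⟨d, hd | ⟨hd | hd, h2, h3⟩⟩
      · exact ⟨Sum.inl ⟨d, hd⟩, rfl⟩
      · refine ⟨Sum.inr (Sum.inl ⟨d.fst, h2, hd.1⟩), Subtype.ext ?_⟩
        show (⟨(d.fst, p d.fst), _⟩ : G.Dart) = d
        ext
        · rfl
        · exact hd.2.symm
      · refine ⟨Sum.inr (Sum.inr ⟨d.snd, h3, hd.1⟩), Subtype.ext ?_⟩
        show (⟨(p d.snd, d.snd), _⟩ : G.Dart) = d
        ext
        · exact hd.2.symm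
        · rfl
  rw [← Nat.card_eq_of_bijective φ hφ, Nat.card_sum, Nat.card_sum, Nat.card_eq_fintype_card,
    Fintype.card_coe, two_mul]
  rfl

/-- the Euler count of the cut graph -/
theorem euler_gam [Finite V] (hp : Dn G h A p) {Q : Finset G.Dart} (hQT : ∀ d ∈ Q, ¬ Tr p A d)
    (hQ : Q.card + 2 * (Nat.card V + Nat.card (Fc σ)) = 2 * (Nat.card G.edgeSet + A.ncard + 1)) :
    2 * (Nat.card G.edgeSet + 1 + (X p A Q).ncard) ≤
      Nat.card (Gam p A Q) + 2 * (Nat.card V + Nat.card (Fc σ)) := by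
  have h1 := card_gam hp hQT
  have h2 : (X p A Q).ncard ≤ (X p A Q \ A).ncard + A.ncard :=
    (Set.ncard_le_ncard (fun v hv => by
      by_cases hA : v ∈ A
      · exact Or.inr hA
      · exact Or.inl ⟨hv, hA⟩) (Set.toFinite _)).trans (Set.ncard_union_le _ _)
  omega

end Vale.Agent.P235.ExDA
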