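import Vale.Agent.P235.R2.H680.Plane
import Vale.Agent.P235.R2.H680.Gadget

set_option linter.all false

/-! The spaces over a pair are path metrics of finite connected plane graphs of treewidth at most
three. -/

namespace Vale.Agent.P235.R2.H680

open Set Vale.Agent.P235.TL

theorem addG_connected {V : Type} {G : SimpleGraph V} (hG : G.Connected) (a b : V) :
    (addG G a b).Connected := by
  have hold : ∀ u v, (addG G a b).Reachable (some (some u)) (some (some v)) := by
    intro u v
    exact (hG u v).map (⟨fun x => some (some x), fun {x y} h => h⟩ : G →g addG G a b)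
  have h1 : (addG G a b).Reachable (some none) (some (some a)) :=
    SimpleGraph.Adj.reachable (G := addG G a b) (Or.inl rfl)
  have h2 : (addG G a b).Reachable none (some (some a)) :=
    SimpleGraph.Adj.reachable (G := addG G a b) (Or.inl rfl)
  have key : ∀ x, (addG G a b).Reachable x (some (some a)) := by
    rintro (_ | _ | x)
    · exact h2
    · exact h1
    · exact hold _ _
  rw [SimpleGraph.connected_iff]
  exact ⟨fun x y => (key x).trans (key y).symm, ⟨none⟩⟩

theorem base_plane : ∃ σ, PlaneMap (⊤ : SimpleGraph Bool) σ := by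
  classical
  refine ⟨1, SurfMap.plane SimpleGraph.connected_top ⟨fun d => rfl, ?_, ?_⟩⟩
  · rintro ⟨⟨x, y⟩, h⟩ ⟨⟨x', y'⟩, h'⟩ hxx
    have hxx' : x = x' := hxx
    subst hxx'
    have h1 : x ≠ y := h
    have h2 : x ≠ y' := h'
    have : y = y' := by
      cases x <;> cases y <;> cases y' <;> simp_all
    subst this
    exact Equiv.Perm.SameCycle.refl _ _
  · have h1 : Nat.card (⊤ : SimpleGraph Bool).edgeSet = 1 := by
      rw [Nat.card_eq_fintype_card, ← SimpleGraph.edgeFinset_card,
        SimpleGraph.card_edgeFinset_top_eq_card_choose_two]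
      rfl
    have h2 : Nat.card Bool = 2 := by simp
    have : Finite (⊤ : SimpleGraph Bool).Dart := finite_dart
    have : Nonempty (⊤ : SimpleGraph Bool).Dart := ⟨⟨(false, true), Bool.false_ne_true⟩⟩
    have h3 : 0 < Nat.card (Quotient (Equiv.Perm.SameCycle.setoid
        (faceNext (1 : Equiv.Perm (⊤ : SimpleGraph Bool).Dart)))) := by
      have : Nonempty (Quotient (Equiv.Perm.SameCycle.setoid
        (faceNext (1 : Equiv.Perm (⊤ : SimpleGraph Bool).Dart)))) :=
        ⟨Quotient.mk _ (Classical.arbitrary _)⟩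
      exact Nat.card_pos
    rw [h1, h2]
    omega

theorem Ext.tree {V : Type} {i : Bool → V} {d : V → V → ℝ} {E : V → V → Prop} {t : ℝ}
    (h : Ext (pr t) (· ≠ ·) V i d E) :
    ∃ (ι : Type) (_ : Finite ι) (T : SimpleGraph ι) (B : ι → Finset V), T.IsTree ∧
      (∀ v, ∃ t, v ∈ B t) ∧ (∀ u v, E u v → ∃ t, u ∈ B t ∧ v ∈ B t) ∧
      (∀ v, (T.induce {t | v ∈ B t}).Preconnected) ∧ (∀ t, (B t).card ≤ 3 + 1) := by
  induction h with
  | base =>
    refine ⟨Unit, inferInstance, ⊥, fun _ => Finset.univ, SimpleGraph.IsTree.of_subsingleton,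
      fun v => ⟨(), by simp⟩, fun u v _ => ⟨(), by simp, by simp⟩, ?_, ?_⟩
    · intro v
      rintro ⟨⟨⟩, _⟩ ⟨⟨⟩, _⟩
      exact SimpleGraph.Reachable.refl _
    · intro _
      simp
  | @step V i d E a b δ δ' h hE ha ha' ih =>
    classical
    obtain ⟨ι, _, T, B, hT, hcov, hcl, hpre, hcard⟩ := ih
    obtain ⟨t₀, hta, htb⟩ := hcl _ _ hE
    set f : V ↪ Option (Option V) := Function.Embedding.some.trans Function.Embedding.some with hf
    set Q : Finset (Option (Option V)) := {none, some none, some (some a), some (some b)} with hQ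
    set B' : Option ι → Finset (Option (Option V)) := fun t =>
      match t with
      | none => Q
      | some t => (B t).map f with hB'
    have m0 : ∀ t, none ∉ B' (some t) := by
      intro t ht
      rw [hB'] at ht
      simp [hf] at ht
    have m0' : ∀ t, some none ∉ B' (some t) := by
      intro t ht
      rw [hB'] at ht
      simp [hf] at ht
    have m1 : ∀ t v, some (some v) ∈ B' (some t) ↔ v ∈ B t := by
      intro t v
      show some (some v) ∈ (B t).map f ↔ _
      simp [hf]
    have m2 : none ∈ B' none := by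
      show none ∈ Q
      simp [hQ]
    have m2' : some none ∈ B' none := by
      show some none ∈ Q
      simp [hQ]
    have m3 : ∀ v, some (some v) ∈ B' none ↔ v = a ∨ v = b := by
      intro v
      show some (some v) ∈ Q ↔ _
      simp [hQ]
    have m3a : some (some a) ∈ B' none := (m3 a).2 (Or.inl rfl)
    have m3b : some (some b) ∈ B' none := (m3 b).2 (Or.inr rfl)
    refine ⟨Option ι, inferInstance, leaf T t₀, B', leaf_isTree hT t₀, ?_, ?_, ?_, ?_⟩
    · rintro (_ | _ | v)
      · exact ⟨none, m2⟩
      · exact ⟨none, m2'⟩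
      · obtain ⟨t, ht⟩ := hcov v
        exact ⟨some t, (m1 t v).2 ht⟩
    · rintro (_ | _ | u) (_ | _ | v) huv
      · exact huv.elim
      · exact ⟨none, m2, m2'⟩
      · exact ⟨none, m2, (m3 v).2 huv⟩
      · exact ⟨none, m2', m2⟩
      · exact huv.elim
      · exact ⟨none, m2', (m3 v).2 huv⟩
      · exact ⟨none, (m3 u).2 huv, m2⟩
      · exact ⟨none, (m3 u).2 huv, m2'⟩
      · obtain ⟨t, h1, h2⟩ := hcl u v huv
        exact ⟨some t, (m1 t u).2 h1, (m1 t v).2 h2⟩
    · rintro (_ | _ | v)
      · rintro ⟨t, ht⟩ ⟨t', ht'⟩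
        rcases t with _ | t
        · rcases t' with _ | t'
          · exact SimpleGraph.Reachable.refl _
          · exact absurd ht' (m0 t')
        · exact absurd ht (m0 t)
      · rintro ⟨t, ht⟩ ⟨t', ht'⟩
        rcases t with _ | t
        · rcases t' with _ | t'
          · exact SimpleGraph.Reachable.refl _
          · exact absurd ht' (m0' t')
        · exact absurd ht (m0' t)
      · set P := (leaf T t₀).induce {t | some (some v) ∈ B' t} with hP
        have hf : ∀ (x y : ι) (hav : v ∈ B x) (hbv : v ∈ B y),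
            P.Reachable ⟨some x, (m1 x v).2 hav⟩ ⟨some y, (m1 y v).2 hbv⟩ := by
          intro x y hav hbv
          exact (hpre v ⟨x, hav⟩ ⟨y, hbv⟩).map
            (⟨fun t => ⟨some t.1, (m1 t.1 v).2 t.2⟩, fun {a b} h => h⟩ :
              T.induce {t | v ∈ B t} →g P)
        have hv0 : ∀ (hv : some (some v) ∈ B' none), v ∈ B t₀ := by
          intro hv
          rcases (m3 v).1 hv with rfl | rfl
          · exact hta
          · exact htb
        have h0 : ∀ (hv : some (some v) ∈ B' none), P.Reachable ⟨none, hv⟩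
            ⟨some t₀, (m1 t₀ v).2 (hv0 hv)⟩ := by
          intro hv
          refine SimpleGraph.Adj.reachable ?_
          show t₀ = t₀
          rfl
        rintro ⟨t, ht⟩ ⟨t', ht'⟩
        rcases t with _ | t <;> rcases t' with _ | t'
        · exact SimpleGraph.Reachable.refl _
        · exact (h0 ht).trans (hf _ _ (hv0 ht) ((m1 t' v).1 ht'))
        · exact (hf _ _ ((m1 t v).1 ht) (hv0 ht')).trans (h0 ht').symm
        · exact hf _ _ ((m1 t v).1 ht) ((m1 t' v).1 ht')
    · rintro (_ | t)
      · show Q.card ≤ 4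
        rw [hQ]
        refine (Finset.card_insert_le _ _).trans ?_
        have h1 := Finset.card_insert_le (some none : Option (Option V))
          {some (some a), some (some b)}
        have h2 := Finset.card_insert_le (some (some a) : Option (Option V)) {some (some b)}
        rw [Finset.card_singleton] at h2
        omega
      · show ((B t).map f).card ≤ 3 + 1
        rw [Finset.card_map]
        exact hcard t

theorem Ext.plane {V : Type} {i : Bool → V} {d : V → V → ℝ} {E : V → V → Prop} {t : ℝ}
    (h : Ext (pr t) (· ≠ ·) V i d E) :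
    ∃ G : SimpleGraph V, (∀ u v, G.Adj u v ↔ E u v) ∧ G.Connected ∧ ∃ σ, PlaneMap G σ := by
  induction h with
  | base => exact ⟨⊤, fun u v => Iff.rfl, SimpleGraph.connected_top, base_plane⟩
  | @step V i d E a b δ δ' h hE ha ha' ih =>
    obtain ⟨G, h1, h2, σ, h3⟩ := ih
    have := h.finite
    obtain ⟨σ', h4⟩ := plane_step ((h1 a b).2 hE) (addG_connected h2 a b) h3
    refine ⟨addG G a b, ?_, addG_connected h2 a b, σ', h4⟩
    have e : G.Adj = E := by funext u v; exact propext (h1 u v)
    intro u v
    show addE G.Adj a b u v ↔ _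
    rw [e]

/-- the space is the path metric of a connected plane graph of treewidth at most three -/
theorem Ext.graph {V : Type} {i : Bool → V} {d : V → V → ℝ} {E : V → V → Prop}
    (h : Ext (pr 1) (· ≠ ·) V i d E) :
    ∃ G : SimpleGraph V, G.Connected ∧ (∃ σ, PlaneMap G σ) ∧ TreewidthLE G 3 ∧
      (∀ e ∈ G.edgeSet, 0 < len d e) ∧ pathDist G (len d) = d := by
  have hd := h.met (pr_met one_pos)
  have := h.finite
  obtain ⟨G, h1, hconn, hσ⟩ := h.plane
  have hℓ : ∀ e ∈ G.edgeSet, 0 < len d e := by
    intro e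
    induction e using Sym2.inductionOn with
    | hf a b =>
      intro he
      rw [len_mk hd.symm]
      exact hd.pos _ _ (SimpleGraph.ne_of_adj _ ((SimpleGraph.mem_edgeSet _).1 he))
  refine ⟨G, hconn, hσ, ?_, hℓ, ?_⟩
  · obtain ⟨ι, hι, T, B, hT, hcov, hcl, hpre, hcard⟩ := h.tree
    exact ⟨ι, hι, T, B, hT, hcov, fun u v huv => hcl u v ((h1 u v).1 huv), hpre, hcard⟩
  · have hp := pathDist_isMet hconn hℓ
    funext x y
    apply le_antisymm
    · refine h.le_of_edge one_pos hp.self hp.symm hp.tri ?_ x y
      intro u v huv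
      refine (pathDist_adj hℓ ((h1 u v).2 huv)).trans ?_
      rw [len_mk hd.symm]
    · have := pathDist_semi (ρ := d) (ℓ := len d) (K := 1) hconn one_pos hd.self hd.tri
        (fun u v _ => by rw [len_mk hd.symm, one_mul]) x y
      rwa [one_mul] at this

theorem hypP {D : ℝ} (hD : 0 < D)
    (H : ∀ (V : Type) [Finite V] (G : SimpleGraph V), G.Connected → (∃ σ, PlaneMap G σ) →
      TreewidthLE G 3 → DistortionLE G D) : HypP D := by
  intro V i d E h
  obtain ⟨G, h1, hσ, h2, h3, h4⟩ := h.graph
  have := h.finite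
  have h5 := H V G h1 hσ h2 (len d) h3
  rw [h4] at h5
  obtain ⟨ρ, hρ, h6, h7, -⟩ := h5.toL1S
  refine ⟨fun x y => D⁻¹ * ρ x y, hρ.isL1.smul (by positivity), fun x y => ?_, fun x y => ?_⟩
  · rw [← mul_assoc, mul_inv_cancel₀ hD.ne', one_mul]; exact h6 x y
  · rw [inv_mul_le_iff₀ hD]; exact h7 x y

end Vale.Agent.P235.R2.H680
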