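import Vale.Agent.P235.R2.H680.KprRSpec
import Vale.Agent.P235.R2.RED.Bags2

/-!
P235-M (helper90, helper680).  Row R5 with `m + 2` chops: components of weak diameter at most
`10 (m + 2)² Δ`.
-/

set_option autoImplicit false
set_option linter.all false

namespace Vale.Agent.P235.KprR

open Vale.Agent.P235
open Vale.Agent.P235.Kpr (Pot slab chop)

theorem chop_le {V : Type} (H : SimpleGraph V) (f : V → ℝ) (Δ θ : ℝ) : chop H f Δ θ ≤ H :=
  fun _ _ h => h.1

theorem Chops.le {V : Type} {ℓ : Sym2 V → ℝ} {Δ : ℝ} {n : ℕ} {H K : SimpleGraph V}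
    (h : Chops ℓ Δ n H K) : K ≤ H := by
  induction h with
  | zero => exact le_rfl
  | succ _ _ ih => exact ih.trans (chop_le _ _ _ _)

theorem conn_singleton {V : Type} (G : SimpleGraph V) (a : V) :
    (G.induce ({a} : Set V)).Connected := by
  have : Nonempty ↥({a} : Set V) := ⟨⟨a, rfl⟩⟩
  refine ⟨fun u v => ?_⟩
  have huv : u = v := Subtype.ext (u.2.trans v.2.symm)
  rw [huv]

/-- the first vertex of a walk far from `x` -/
theorem exists_far {V : Type} {H : SimpleGraph V} {d : V → ℝ} {R Δ : ℝ}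
    (hstep : ∀ u v, H.Adj u v → d v ≤ d u + Δ) {a b : V} (w : H.Walk a b) (ha : d a ≤ R)
    (hb : R < d b) : ∃ z, H.Reachable a z ∧ R < d z ∧ d z ≤ R + Δ := by
  induction w with
  | nil => exact absurd hb (not_lt.2 ha)
  | @cons a c b hac p ih =>
    by_cases hcR : d c ≤ R
    · obtain ⟨z, h1, h2, h3⟩ := ih hcR hb
      exact ⟨z, hac.reachable.trans h1, h2, h3⟩
    · refine ⟨c, hac.reachable, not_le.1 hcR, ?_⟩
      have := hstep a c hac
      linarith

/-- all stages -/
theorem stages (hstage : RowStage) {m : ℕ} {V : Type} [Finite V] {G : SimpleGraph V}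
    {ℓ : Sym2 V → ℝ} {Δ : ℝ} (hc : G.Connected) (hℓ : ∀ e ∈ G.edgeSet, 0 < ℓ e) (hΔ : 0 < Δ)
    {n : ℕ} {H K : SimpleGraph V} (hC : Chops ℓ Δ n H K) :
    H ≤ G → (∀ u v, H.Adj u v → ℓ s(u, v) ≤ Δ) → ∀ (x : Fin (m + 2) → V),
    (∀ k l, k ≠ l → 8 * (n : ℝ) * Δ < pathDist G ℓ (x k) (x l)) →
    Stage m G ℓ Δ x K 0 (fun _ => ∅) (fun k => {x k}) x 0 →
    ∃ A X y, Stage m G ℓ Δ x H n A X y (4 * (n : ℝ) * Δ) := by
  induction hC with
  | zero H =>
    intro _ _ x _ hS
    have h0 : 4 * ((0 : ℕ) : ℝ) * Δ = 0 := by simp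
    rw [h0]
    exact ⟨_, _, _, hS⟩
  | @succ n H K f r θ hP hC ih =>
    intro hHG hle x hsep hS
    have hn : (0 : ℝ) ≤ n := Nat.cast_nonneg n
    obtain ⟨A, X, y, hS'⟩ := ih ((chop_le _ _ _ _).trans hHG) (fun u v h => hle u v h.1) x
      (fun k l hkl => by
        have := hsep k l hkl
        push_cast at this
        nlinarith) hS
    obtain ⟨A', X', y', hS''⟩ := hstage m V G H ℓ Δ θ (4 * (n : ℝ) * Δ) x n A X y f r hc hℓ hHG hΔ
      (by positivity) hle hP (fun k l hkl => by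
        have := hsep k l hkl
        push_cast at this
        nlinarith) hS'
    refine ⟨A', X', y', ?_⟩
    have h1 : 4 * ((n + 1 : ℕ) : ℝ) * Δ = 4 * (n : ℝ) * Δ + 4 * Δ := by
      push_cast
      ring
    rw [h1]
    exact hS''

/-- **(R5)** -/
theorem rowDiam (hstage : RowStage) : RowDiam := by
  intro m V _ G H K ℓ Δ hc hminor hℓ hHG hΔ hshort hC x y hxy
  by_contra hcon
  have hfar : 10 * ((m : ℝ) + 2) ^ 2 * Δ < pathDist G ℓ x y := not_le.1 hcon
  have hd0 := Red.pd_self hℓ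
  have hdc := Red.pd_comm hc hℓ
  have htri := Red.pd_tri hc hℓ
  have hm : (0 : ℝ) ≤ m := Nat.cast_nonneg m
  have hKH := hC.le
  have hstep : ∀ u v, K.Adj u v → pathDist G ℓ x v ≤ pathDist G ℓ x u + Δ := by
    intro u v huv
    have h1 : H.Adj u v := hKH huv
    have h2 := Red.pd_adj hℓ (hHG h1)
    have h3 := htri x u v
    have h4 := hshort u v h1
    linarith
  obtain ⟨w⟩ := hxy
  -- the points
  set T : ℝ := (8 * ((m : ℝ) + 2) + 2) * Δ with hT
  have hT0 : 0 < T := by positivity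
  have hz : ∀ i : ℕ, i ≤ m + 1 → ∃ z, K.Reachable x z ∧ (i : ℝ) * T ≤ pathDist G ℓ x z ∧
      pathDist G ℓ x z ≤ (i : ℝ) * T + Δ := by
    intro i hi
    rcases Nat.eq_zero_or_pos i with h0 | h0
    · subst h0
      refine ⟨x, SimpleGraph.Reachable.refl _, ?_, ?_⟩
      · rw [hd0]; simp
      · rw [hd0]; simp [hΔ.le]
    · have hi' : (i : ℝ) ≤ m + 1 := by exact_mod_cast hi
      obtain ⟨z, h1, h2, h3⟩ := exists_far (d := pathDist G ℓ x) (R := i * T) hstep w
        (by rw [hd0]; positivity) (by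
          refine lt_of_le_of_lt ?_ hfar
          have h4 : (i : ℝ) * T ≤ ((m : ℝ) + 1) * T := mul_le_mul_of_nonneg_right hi' hT0.le
          refine h4.trans ?_
          rw [hT]
          have h5 : ((m : ℝ) + 1) * (8 * ((m : ℝ) + 2) + 2) ≤ 10 * ((m : ℝ) + 2) ^ 2 := by
            nlinarith
          calc ((m : ℝ) + 1) * ((8 * ((m : ℝ) + 2) + 2) * Δ) =
              ((m : ℝ) + 1) * (8 * ((m : ℝ) + 2) + 2) * Δ := by ring
            _ ≤ _ := mul_le_mul_of_nonneg_right h5 hΔ.le)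
      exact ⟨z, h1, h2.le, h3⟩
  choose z hz1 hz2 hz3 using hz
  let p : Fin (m + 2) → V := fun k => z k.1 (by omega)
  have hp1 : ∀ k, K.Reachable x (p k) := fun k => hz1 _ _
  have hlt : ∀ k l : Fin (m + 2), k < l → 8 * ((m : ℝ) + 2) * Δ < pathDist G ℓ (p k) (p l) := by
    intro k l hkl
    have h1 : pathDist G ℓ x (p k) ≤ (k.1 : ℝ) * T + Δ := hz3 k.1 (by omega)
    have h2 : (l.1 : ℝ) * T ≤ pathDist G ℓ x (p l) := hz2 l.1 (by omega)
    have h3 := htri x (p k) (p l)
    have h4 : ((k.1 : ℝ) + 1) ≤ l.1 := by exact_mod_cast hkl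
    have h5 : ((k.1 : ℝ) + 1) * T ≤ l.1 * T := mul_le_mul_of_nonneg_right h4 hT0.le
    have h8 : T = 8 * ((m : ℝ) + 2) * Δ + 2 * Δ := by rw [hT]; ring
    linarith
  have hsep : ∀ k l : Fin (m + 2), k ≠ l → 8 * ((m : ℝ) + 2) * Δ < pathDist G ℓ (p k) (p l) := by
    intro k l hkl
    rcases lt_or_gt_of_ne hkl with h | h
    · exact hlt k l h
    · rw [hdc]
      exact hlt l k h
  have hreach : ∀ k, K.Reachable (p 0) (p k) := fun k => (hp1 0).symm.trans (hp1 k)
  have S0 : Stage m G ℓ Δ p K 0 (fun _ => ∅) (fun k => {p k}) p 0 :=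
    { aconn := fun j hj => absurd hj (Nat.not_lt_zero _)
      adisj := fun j hj => absurd hj (Nat.not_lt_zero _)
      xconn := fun k => conn_singleton G (p k)
      ax := fun j hj => absurd hj (Nat.not_lt_zero _)
      adj := fun j hj => absurd hj (Nat.not_lt_zero _)
      xmem := fun k => rfl
      ymem := fun k => rfl
      ball := fun k v hv => by
        have : v = p k := hv
        rw [this, hd0]
      areach := fun j hj => absurd hj (Nat.not_lt_zero _)
      xreach := fun k v hv => by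
        have : v = p k := hv
        rw [this]
        exact hreach k
      far := fun j hj => absurd hj (Nat.not_lt_zero _) }
  obtain ⟨A, X, y', S⟩ := stages hstage hc hℓ hΔ hC hHG hshort p (fun k l hkl => by
    have := hsep k l hkl
    push_cast
    exact this) S0
  refine hminor ⟨fun i => A i, X, fun i => S.aconn i i.2, S.xconn,
    fun i j hij => S.adisj i i.2 j j.2 fun h => hij (Fin.ext h),
    fun i j hij => Set.disjoint_left.2 fun v h1 h2 => ?_,
    fun i j => S.ax i i.2 j, fun i j => S.adj i i.2 j⟩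
  have h3 := S.ball i v h1
  have h4 := S.ball j v h2
  have h5 := htri (p i) v (p j)
  have h6 := hsep i j hij
  rw [hdc v (p j)] at h5
  push_cast at h3 h4
  linarith

end Vale.Agent.P235.KprR
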