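import Vale.Agent.P235.R2.H582.KprSpec

/-!
P235-M (helper680).  Klein, Plotkin, Rao for all proper minor-closed families: the rows of
helper582's `KprSpec` with `K_{r,r}` for `K_{3,3}` (statements only).
-/

set_option autoImplicit false

namespace Vale.Agent.P235.KprR

open Vale.Agent.P235 Vale.Agent.P235.Kpr

/-- `G` has no `K_{r,r}` minor -/
def NoMinor {V : Type} (r : ℕ) (G : SimpleGraph V) : Prop :=
  ¬ ∃ A S : Fin r → Set V, (∀ i, (G.induce (A i)).Connected) ∧ (∀ i, (G.induce (S i)).Connected) ∧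
    (∀ i j, i ≠ j → Disjoint (A i) (A j)) ∧ (∀ i j, i ≠ j → Disjoint (S i) (S j)) ∧
    (∀ i j, Disjoint (A i) (S j)) ∧ ∀ i j, ∃ a ∈ A i, ∃ b ∈ S j, G.Adj a b

/-- `Kpr.Stage` with `m + 2` sets `X k` -/
structure Stage {V : Type} (m : ℕ) (G : SimpleGraph V) (ℓ : Sym2 V → ℝ) (Δ : ℝ)
    (x : Fin (m + 2) → V) (H : SimpleGraph V) (n : ℕ) (A : ℕ → Set V) (X : Fin (m + 2) → Set V)
    (y : Fin (m + 2) → V) (ρ : ℝ) : Prop where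
  aconn : ∀ j < n, (G.induce (A j)).Connected
  adisj : ∀ i < n, ∀ j < n, i ≠ j → Disjoint (A i) (A j)
  xconn : ∀ k, (G.induce (X k)).Connected
  ax : ∀ j < n, ∀ k, Disjoint (A j) (X k)
  adj : ∀ j < n, ∀ k, ∃ a ∈ A j, ∃ b ∈ X k, G.Adj a b
  xmem : ∀ k, x k ∈ X k
  ymem : ∀ k, y k ∈ X k
  ball : ∀ k, ∀ v ∈ X k, pathDist G ℓ (x k) v ≤ ρ
  areach : ∀ j < n, ∀ a ∈ A j, H.Reachable (x 0) a
  xreach : ∀ k, ∀ v ∈ X k, H.Reachable (x 0) v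
  far : ∀ j < n, ∀ k, ∀ a ∈ A j, ∀ w : H.Walk (y k) a, Δ < (w.edges.map ℓ).sum

/-- `Chops ℓ Δ n H K`: `K` is obtained from `H` by `n` chops -/
inductive Chops {V : Type} (ℓ : Sym2 V → ℝ) (Δ : ℝ) :
    ℕ → SimpleGraph V → SimpleGraph V → Prop
  | zero (H : SimpleGraph V) : Chops ℓ Δ 0 H H
  | succ {n : ℕ} {H K : SimpleGraph V} {f : V → ℝ} {r : V → V} {θ : ℝ} : Pot H ℓ f r →
      Chops ℓ Δ n (chop H f Δ θ) K → Chops ℓ Δ (n + 1) H K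

/-- (R4) one more set `A n` -/
def RowStage : Prop :=
  ∀ (m : ℕ) (V : Type) [Finite V] (G H : SimpleGraph V) (ℓ : Sym2 V → ℝ) (Δ θ ρ : ℝ)
    (x : Fin (m + 2) → V)
    (n : ℕ) (A : ℕ → Set V) (X : Fin (m + 2) → Set V) (y : Fin (m + 2) → V) (f : V → ℝ)
    (r : V → V),
    G.Connected → (∀ e ∈ G.edgeSet, 0 < ℓ e) → H ≤ G → 0 < Δ → 0 ≤ ρ →
    (∀ u v, H.Adj u v → ℓ s(u, v) ≤ Δ) → Pot H ℓ f r →
    (∀ k l, k ≠ l → 2 * (ρ + 4 * Δ) < pathDist G ℓ (x k) (x l)) →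
    Stage m G ℓ Δ x (chop H f Δ θ) n A X y ρ →
    ∃ A' X' y', Stage m G ℓ Δ x H (n + 1) A' X' y' (ρ + 4 * Δ)

/-- (R5) `m + 2` chops leave components of weak diameter at most `10 (m + 2)² Δ` -/
def RowDiam : Prop :=
  ∀ (m : ℕ) (V : Type) [Finite V] (G H K : SimpleGraph V) (ℓ : Sym2 V → ℝ) (Δ : ℝ),
    G.Connected → NoMinor (m + 2) G → (∀ e ∈ G.edgeSet, 0 < ℓ e) →
    H ≤ G → 0 < Δ → (∀ u v, H.Adj u v → ℓ s(u, v) ≤ Δ) → Chops ℓ Δ (m + 2) H K →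
    ∀ x y, K.Reachable x y → pathDist G ℓ x y ≤ 10 * ((m : ℝ) + 2) ^ 2 * Δ

/-- (R6) random partitions -/
def RowKPR : Prop :=
  ∀ (m : ℕ) (V : Type) [Finite V] (G : SimpleGraph V) (ℓ : Sym2 V → ℝ), G.Connected →
    NoMinor (m + 2) G → (∀ e ∈ G.edgeSet, 0 < ℓ e) →
    ∀ (Δ : ℝ) (N : ℕ), 0 < Δ → 0 < N → ∃ (ι : Type) (_ : Fintype ι) (_ : Nonempty ι)
      (c : ι → V → V),
      (∀ ω u v, c ω u = c ω v → pathDist G ℓ u v ≤ 10 * ((m : ℝ) + 2) ^ 2 * Δ) ∧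
      ∀ u v, G.Adj u v → ({ω | c ω u ≠ c ω v}.ncard : ℝ) ≤
        ((m : ℝ) + 2) * (Nat.card ι : ℝ) * (ℓ s(u, v) / Δ + 1 / N)

/-- (R7) random retractions onto any set `X` -/
def RowRetr : Prop :=
  ∀ (m : ℕ) (V : Type) [Finite V] (G : SimpleGraph V) (ℓ : Sym2 V → ℝ), G.Connected →
    NoMinor (m + 2) G → (∀ e ∈ G.edgeSet, 0 < ℓ e) →
    ∀ (X : Set V) (ν : V → V), Near G ℓ X ν →
    ∃ (ι : Type) (_ : Fintype ι) (w : ι → ℝ) (π : ι → V → V), (∀ i, 0 ≤ w i) ∧ ∑ i, w i = 1 ∧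
      (∀ i v, π i v ∈ X) ∧
      (∀ u v, G.Adj u v → ∑ i, w i * pathDist G ℓ (π i u) (π i v) ≤
        1000 * ((m : ℝ) + 2) ^ 3 * ℓ s(u, v)) ∧
      ∀ i v, pathDist G ℓ v (π i v) ≤ 3 * pathDist G ℓ v (ν v)

/-- (R8) the step which deletes any set `X` whose metric embeds with distortion `B` -/
def RowStep : Prop :=
  ∀ (m : ℕ) (V : Type) [Finite V] (G : SimpleGraph V) (ℓ : Sym2 V → ℝ), G.Connected →
    NoMinor (m + 2) G → (∀ e ∈ G.edgeSet, 0 < ℓ e) →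
    ∀ (X : Set V) (B : ℝ), X.Nonempty → 1 ≤ B →
    EmbedsL1 (fun u v : X => pathDist G ℓ u v) B →
    ∃ F : V → V → ℝ, IsL1 F ∧ (∀ u v, G.Adj u v → F u v ≤ ℓ s(u, v)) ∧
      ∀ ν : V → V, Near G ℓ X ν → ∀ x y δ, 0 < δ → pathDist G ℓ x (ν x) ≤ δ →
        pathDist G ℓ y (ν y) ≤ 5 / 4 * δ → 8 * δ ≤ pathDist G ℓ x y →
        2 * δ ≤ 2000 * ((m : ℝ) + 2) ^ 3 * B * F x y

end Vale.Agent.P235.KprR
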