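import Vale.Agent.P235.R2.H680.Ext
import Vale.Agent.P235.H150.Sat

set_option linter.all false

/-! The laws on a space that no further extension can break. -/

namespace Vale.Agent.P235.R2.H680

open Set Vale.Agent.P235.TL

/-- metrics on `A` which extend to admissible ones on every space over `(A, dA, EA)` -/
def KE (D : ℝ) {A : Type} (dA : A → A → ℝ) (EA : A → A → Prop) : Set (A → A → ℝ) :=
  {ρ | ∀ (V : Type) (i : A → V) (d : V → V → ℝ) (E : V → V → Prop), Ext dA EA V i d E →
    ∃ R, TL.Adm D d R ∧ ∀ a b, R (i a) (i b) = ρ a b}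

variable {D : ℝ} {A : Type} {dA : A → A → ℝ} {EA : A → A → Prop}

theorem KE.adm {ρ : A → A → ℝ} (h : ρ ∈ KE D dA EA) : TL.Adm D dA ρ := by
  obtain ⟨R, hR, h'⟩ := h A id dA _ Ext.base
  have : R = ρ := by funext a b; exact h' a b
  rwa [this] at hR

theorem KE.closed [Finite A] : IsClosed (KE D dA EA) := by
  unfold KE
  simp only [Set.setOf_forall]
  refine isClosed_iInter fun V => isClosed_iInter fun i => isClosed_iInter fun d =>
    isClosed_iInter fun C => isClosed_iInter fun h => ?_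
  have := h.finite
  have hc := (FF_compact (D := D) (Empty.elim : Empty → A) (fun a _ => a.elim) i d).isClosed
  have e : {a : A → A → ℝ | ∃ R, TL.Adm D d R ∧ ∀ (a_1 b : A), R (i a_1) (i b) = a a_1 b} =
      FF D (Empty.elim : Empty → A) (fun a _ => a.elim) i d := by
    ext r
    constructor
    · intro h; exact ⟨h, fun a => a.elim⟩
    · intro h; exact h.1
  rw [e]; exact hc

theorem KE.compact [Finite A] : IsCompact (KE D dA EA) :=
  (isCompact_adm D dA).of_isClosed_subset KE.closed fun _ h => KE.adm h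

/-- restriction along an isometric edge preserving map -/
theorem KE.restrict (hA : Met dA) {ρ : A → A → ℝ} (h : ρ ∈ KE D dA EA) {B : Type}
    {dB : B → B → ℝ} {EB : B → B → Prop} (hB : Met dB) {φ : B → A}
    (hφ : ∀ x y, dA (φ x) (φ y) = dB x y) (hE : ∀ x y, EB x y → EA (φ x) (φ y)) :
    (fun x y => ρ (φ x) (φ y)) ∈ KE D dB EB := by
  intro V iV dV EV hV
  obtain ⟨W', dW', EW', j, ψ, hW', hg, h5⟩ :=
    Ext.amalgam hA (Ext.base (dA := dA) (EA := EA)) hφ hE hB hV
  obtain ⟨R, hR, hR'⟩ := h _ _ _ _ hW'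
  refine ⟨_, hR.comap hg.isoψ, fun a b => ?_⟩
  show R (ψ (iV a)) (ψ (iV b)) = ρ (φ a) (φ b)
  rw [hg.comm, hg.comm, ← hR']

theorem KE.scale {ρ : A → A → ℝ} (h : ρ ∈ KE D dA EA) {c : ℝ}
    (hc : 0 < c) : (fun x y => c * ρ x y) ∈ KE D (fun x y => c * dA x y) EA := by
  intro V i d C hV
  have h1 := hV.scale (inv_pos.2 hc)
  have e : (fun a b => c⁻¹ * (c * dA a b)) = dA := by
    funext a b
    rw [← mul_assoc, inv_mul_cancel₀ hc.ne', one_mul]
  rw [e] at h1
  obtain ⟨R, hR, hR'⟩ := h _ _ _ _ h1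
  refine ⟨fun x y => c * R x y, ⟨hR.l1.smul hc.le, fun x y => ?_, fun x y => ?_⟩, fun a b => ?_⟩
  · have := mul_le_mul_of_nonneg_left (hR.low x y) hc.le
    rw [← mul_assoc, mul_inv_cancel₀ hc.ne', one_mul] at this
    linarith
  · have := mul_le_mul_of_nonneg_left (hR.up x y) hc.le
    rw [← mul_assoc, mul_inv_cancel₀ hc.ne', one_mul] at this
    exact this
  · show c * R (i a) (i b) = c * ρ a b
    rw [hR']

/-- directed intersection -/
theorem FF_inter {B : Type} [Finite B] {dB : B → B → ℝ} {EB : B → B → Prop} (hB : Met dB)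
    {ι : A → B} {ρ : A → A → ℝ}
    (hne : ∀ (V : Type) (i : B → V) (d : V → V → ℝ) (E : V → V → Prop), Ext dB EB V i d E →
      (FF D ι ρ i d).Nonempty) :
    ∃ r ∈ KE D dB EB, ∀ a b, r (ι a) (ι b) = ρ a b := by
  set S : Set (Set (B → B → ℝ)) := {F | ∃ (V : Type) (i : B → V) (d : V → V → ℝ)
    (E : V → V → Prop), Ext dB EB V i d E ∧ F = FF D ι ρ i d} with hS
  have hSne : Nonempty S := ⟨⟨_, B, id, dB, _, Ext.base, rfl⟩⟩
  have hcomp : ∀ U ∈ S, IsCompact U := by
    rintro _ ⟨V, i, d, C, h, rfl⟩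
    have := h.finite
    exact FF_compact _ _ _ _
  have hdir : DirectedOn (· ⊇ ·) S := by
    rintro _ ⟨V₁, i₁, d₁, C₁, h₁, rfl⟩ _ ⟨V₂, i₂, d₂, C₂, h₂, rfl⟩
    obtain ⟨W', dW', CW', j, ψ, hW', hg, e5⟩ := Ext.amalgam hB h₁ h₁.iso h₁.edge hB h₂
    refine ⟨_, ⟨W', _, dW', CW', h₁.trans hW', rfl⟩, ?_, ?_⟩
    · rintro r ⟨⟨R, hR, hr⟩, h'⟩
      exact ⟨⟨_, hR.comap hg.isoj, fun a b => hr a b⟩, h'⟩
    · rintro r ⟨⟨R, hR, hr⟩, h'⟩
      refine ⟨⟨_, hR.comap hg.isoψ, fun a b => ?_⟩, h'⟩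
      show R (ψ (i₂ a)) (ψ (i₂ b)) = r a b
      rw [hg.comm, hg.comm, hr]
  have hSn : ∀ U ∈ S, U.Nonempty := by
    rintro _ ⟨V, i, d, C, h, rfl⟩
    exact hne V i d C h
  obtain ⟨r, hr⟩ := IsCompact.nonempty_sInter_of_directed_nonempty_isCompact_isClosed hdir hSn
    hcomp (fun U hU => (hcomp U hU).isClosed)
  refine ⟨r, fun V i d C h => ?_, ?_⟩
  · exact (hr _ ⟨V, i, d, C, h, rfl⟩).1
  · exact (hr _ ⟨B, id, dB, _, Ext.base, rfl⟩).2

/-- laws extend along extensions -/
theorem KE.extend [Finite A] (hA : Met dA) {ρ : A → A → ℝ} (hρ : ρ ∈ KE D dA EA) {B : Type}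
    {ι : A → B} {dB : B → B → ℝ} {EB : B → B → Prop} (hB : Ext dA EA B ι dB EB) :
    ∃ r ∈ KE D dB EB, ∀ a b, r (ι a) (ι b) = ρ a b := by
  have := hB.finite
  refine FF_inter (hB.met hA) fun V iV dV CV hV => ?_
  obtain ⟨R, hR, hR'⟩ := hρ _ _ _ _ (hB.trans hV)
  exact ⟨fun a b => R (iV a) (iV b), ⟨R, hR, fun a b => rfl⟩, hR'⟩

/-- all spaces over pairs have admissible metrics -/
def HypP (D : ℝ) : Prop :=
  ∀ (V : Type) (i : Bool → V) (d : V → V → ℝ) (E : V → V → Prop),
    Ext (pr 1) (· ≠ ·) V i d E → ∃ R, TL.Adm D d R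

theorem KE.nonempty (H : HypP D) : ∃ r, r ∈ KE D (pr 1) (· ≠ ·) := by
  obtain ⟨r, hr, -⟩ := FF_inter (D := D) (EB := (· ≠ ·)) (pr_met one_pos)
    (ι := (Empty.elim : Empty → Bool)) (ρ := fun a _ => a.elim) (fun V i d C h => by
      obtain ⟨R, hR⟩ := H V i d C h
      exact ⟨fun a b => R (i a) (i b), ⟨R, hR, fun a b => rfl⟩, fun a => a.elim⟩)
  exact ⟨r, hr⟩

/-- restriction to an edge, rescaled to length one -/
theorem KE.pair (hA : Met dA) {ρ : A → A → ℝ} (h : ρ ∈ KE D dA EA)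
    (hsym : ∀ a b, EA a b → EA b a) {a b : A} (hab : EA a b) (hne : a ≠ b) :
    (fun x y : Bool => (dA a b)⁻¹ * ρ (if x then b else a) (if y then b else a)) ∈
      KE D (pr 1) (· ≠ ·) := by
  have ht := hA.pos a b hne
  have h1 := KE.restrict hA h (pr_met ht) (EB := (· ≠ ·)) (φ := fun x : Bool => if x then b else a)
    (fun x y => by
      rcases x <;> rcases y
      · simp [pr, hA.self]
      · simp [pr]
      · simp [pr, hA.symm b a]
      · simp [pr, hA.self])
    (fun x y hxy => by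
      rcases x <;> rcases y
      · exact absurd rfl hxy
      · exact hab
      · exact hsym _ _ hab
      · exact absurd rfl hxy)
  have h2 := KE.scale h1 (inv_pos.2 ht)
  have e : (fun x y : Bool => (dA a b)⁻¹ * pr (dA a b) x y) = pr 1 := by
    funext x y
    rcases x <;> rcases y <;> simp [pr, ht.ne']
  rw [e] at h2
  exact h2

/-- a semimetric below `d` on edges is below `d` -/
theorem Ext.le_of_edge {V : Type} {i : Bool → V} {d : V → V → ℝ} {E : V → V → Prop} {t : ℝ}
    (ht : 0 < t) (h : Ext (pr t) (· ≠ ·) V i d E) : ∀ {p : V → V → ℝ},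
    (∀ x, p x x = 0) → (∀ x y, p x y = p y x) → (∀ x y z, p x z ≤ p x y + p y z) →
    (∀ u v, E u v → p u v ≤ d u v) → ∀ u v, p u v ≤ d u v := by
  have key : ∀ {U : Type} {d : U → U → ℝ} (hd : Met d) {n : ℕ} (hn : 0 < n) (s : Fin n → U)
      (δ : Fin n → ℝ) {p : Option U → Option U → ℝ}, (∀ x, p x x = 0) →
      (∀ x y, p x y = p y x) → (∀ x y z, p x z ≤ p x y + p y z) →
      (∀ u v, p (some u) (some v) ≤ d u v) → (∀ j, p none (some (s j)) ≤ δ j) →
      ∀ u v, p u v ≤ addPt d s δ u v := by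
    intro U d hd n hn s δ p h1 h2 h3 h4 h5
    have h6 : ∀ v, p none (some v) ≤ toNew d s δ v := by
      intro v
      refine le_toNew hn fun j => ?_
      have := h3 none (some (s j)) (some v)
      have := h4 (s j) v
      have := h5 j
      linarith
    rintro (_ | u) (_ | v)
    · exact (h1 none).le
    · exact h6 v
    · rw [h2]; exact h6 u
    · exact h4 u v
  induction h with
  | base =>
    intro p h1 h2 h3 h4 u v
    by_cases e : u = v
    · subst e
      rw [h1, (pr_met ht).self]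
    · exact h4 u v e
  | @step V i d E a b δ δ' h hE ha ha' ih =>
    intro p h1 h2 h3 h4
    have hm := h.met (pr_met ht)
    have hm1 := hm.addPt ha
    have hm2 := hm1.addPt ha'
    have n0 : ∀ {U : Type} {d : U → U → ℝ} (hd : Met d) {n : ℕ} (s : Fin n → U)
      (δ : Fin n → ℝ) (k : Fin n), toNew d s δ (s k) ≤ δ k := by
      intro U d hd n s δ k
      have := toNew_le (d := d) (s := s) (δ := δ) k (s k)
      rwa [hd.self, add_zero] at this
    have g0 : ∀ u v, p (some (some u)) (some (some v)) ≤ d u v :=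
      ih (p := fun u v => p (some (some u)) (some (some v))) (fun x => h1 _) (fun x y => h2 _ _)
        (fun x y z => h3 _ _ _) (fun u v huv => h4 _ _ huv)
    have g1 : ∀ u v, p (some u) (some v) ≤ addPt d ![a, b] δ u v := by
      refine key hm (by norm_num) _ _ (p := fun u v => p (some u) (some v)) (fun x => h1 _)
        (fun x y => h2 _ _) (fun x y z => h3 _ _ _) g0 ?_
      intro k
      fin_cases k
      · refine (h4 (some none) (some (some a)) (Or.inl rfl)).trans ?_
        exact n0 hm ![a, b] δ 0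
      · refine (h4 (some none) (some (some b)) (Or.inr rfl)).trans ?_
        exact n0 hm ![a, b] δ 1
    refine key hm1 (by norm_num) _ _ h1 h2 h3 g1 ?_
    intro k
    fin_cases k
    · refine (h4 none (some (some a)) (Or.inl rfl)).trans ?_
      exact n0 hm1 ![some a, some b, none] δ' 0
    · refine (h4 none (some (some b)) (Or.inr rfl)).trans ?_
      exact n0 hm1 ![some a, some b, none] δ' 1
    · refine (h4 none (some none) trivial).trans ?_
      exact n0 hm1 ![some a, some b, none] δ' 2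

/-- the largest slope is one: the pair at distance exactly one is a law that no extension
can break -/
theorem pr_mem (H : HypP D) (hD : 0 < D) : (pr 1 : Bool → Bool → ℝ) ∈ KE D (pr 1) (· ≠ ·) := by
  have hP : Met (pr 1) := pr_met one_pos
  have hne : (KE D (pr 1) ((· ≠ ·) : Bool → Bool → Prop)).Nonempty := KE.nonempty H
  obtain ⟨ρ, hρ, hmax⟩ := (KE.compact (D := D) (dA := pr 1) (EA := ((· ≠ ·) : Bool → Bool →
    Prop))).exists_isMaxOn hne (f := fun r : Bool → Bool → ℝ => r false true)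
    ((continuous_apply true).comp (continuous_apply false)).continuousOn
  set q : ℝ := ρ false true with hq
  have h1 := (KE.adm hρ).low false true
  have h2 := (KE.adm hρ).up false true
  have e1 : pr 1 false true = 1 := rfl
  rw [e1] at h1 h2
  have hq0 : 0 < q := by
    by_contra h
    push Not at h
    have := mul_nonpos_of_nonneg_of_nonpos hD.le h
    linarith
  intro V i d E hV
  have hm := hV.met hP
  obtain ⟨r, hr, hri⟩ := KE.extend hP hρ hV
  have hrA := KE.adm hr
  have hsym := hV.symmE (fun a b h => Ne.symm h)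
  have hirr := hV.irreflE (fun a h => h rfl)
  have hed : ∀ u v, E u v → q⁻¹ * r u v ≤ d u v := by
    intro u v huv
    have hne : u ≠ v := fun e => hirr v (e ▸ huv)
    have h3 := hmax (KE.pair hm hr hsym huv hne)
    have h4 : (d u v)⁻¹ * r u v ≤ q := by simpa using h3
    have ht := hm.pos u v hne
    rw [inv_mul_le_iff₀ ht] at h4
    rw [inv_mul_le_iff₀ hq0, mul_comm]
    exact h4
  have hall := hV.le_of_edge one_pos (p := fun u v => q⁻¹ * r u v)
    (fun x => by show q⁻¹ * r x x = 0; rw [hrA.l1.self, mul_zero])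
    (fun x y => by show q⁻¹ * r x y = q⁻¹ * r y x; rw [hrA.l1.symm])
    (fun x y z => by
      show q⁻¹ * r x z ≤ q⁻¹ * r x y + q⁻¹ * r y z
      rw [← mul_add]
      exact mul_le_mul_of_nonneg_left (hrA.l1.tri x y z) (inv_pos.2 hq0).le) hed
  refine ⟨fun u v => q⁻¹ * r u v, ⟨hrA.l1.smul (inv_pos.2 hq0).le, fun x y => ?_, hall⟩, ?_⟩
  · have h5 := hrA.low x y
    have h6 := hrA.l1.nonneg x y
    have h7 : 1 ≤ q⁻¹ := (one_le_inv₀ hq0).2 h2
    have h8 : D * r x y ≤ D * (q⁻¹ * r x y) :=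
      mul_le_mul_of_nonneg_left (le_mul_of_one_le_left h6 h7) hD.le
    linarith
  · intro a b
    show q⁻¹ * r (i a) (i b) = pr 1 a b
    rw [hri]
    have hs := (KE.adm hρ).l1
    rcases a <;> rcases b
    · rw [hs.self, mul_zero]; rfl
    · show q⁻¹ * q = 1
      exact inv_mul_cancel₀ hq0.ne'
    · rw [hs.symm]
      show q⁻¹ * q = 1
      exact inv_mul_cancel₀ hq0.ne'
    · rw [hs.self, mul_zero]; rfl

end Vale.Agent.P235.R2.H680
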