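import Vale.Agent.P235.R2.H680.Ext
import Vale.Agent.P235.H105.Hop

set_option linter.all false

/-! Adding two adjacent vertices over an edge preserves planarity. -/

namespace Vale.Agent.P235.R2.H680

open Set

/-- the ten new darts -/
inductive ND
  | aR | Ra | bR | Rb | aS | Sa | bS | Sb | RS | SR
  deriving DecidableEq

instance : Fintype ND :=
  ⟨{.aR, .Ra, .bR, .Rb, .aS, .Sa, .bS, .Sb, .RS, .SR}, by intro n; cases n <;> simp⟩

theorem card_ND : Fintype.card ND = 10 := rfl

/-- reversal of new darts -/
def ND.rev : ND → ND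
  | .aR => .Ra
  | .Ra => .aR
  | .bR => .Rb
  | .Rb => .bR
  | .aS => .Sa
  | .Sa => .aS
  | .bS => .Sb
  | .Sb => .bS
  | .RS => .SR
  | .SR => .RS

/-- rotation of the new darts -/
def ND.rot : Equiv.Perm ND where
  toFun
    | .aR => .aS
    | .aS => .aR
    | .bR => .bS
    | .bS => .bR
    | .Ra => .RS
    | .RS => .Rb
    | .Rb => .Ra
    | .Sa => .Sb
    | .Sb => .SR
    | .SR => .Sa
  invFun
    | .aR => .aS
    | .aS => .aR
    | .bR => .bS
    | .bS => .bR
    | .Ra => .Rb
    | .RS => .Ra
    | .Rb => .RS
    | .Sa => .SR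
    | .Sb => .Sa
    | .SR => .Sb
  left_inv := by intro n; cases n <;> rfl
  right_inv := by intro n; cases n <;> rfl

/-- add two adjacent vertices joined to `a` and `b` -/
def addG {V : Type} (G : SimpleGraph V) (a b : V) : SimpleGraph (Option (Option V)) where
  Adj := addE G.Adj a b
  symm := ⟨by
    rintro (_ | _ | x) (_ | _ | y) h
    all_goals first | exact h | exact SimpleGraph.Adj.symm h⟩
  loopless := ⟨by
    rintro (_ | _ | x) h
    all_goals first | exact h | exact SimpleGraph.irrefl G h⟩

/-- end points of the new darts -/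
def ndP {V : Type} (a b : V) : ND → Option (Option V) × Option (Option V)
  | .aR => (some (some a), some none)
  | .Ra => (some none, some (some a))
  | .bR => (some (some b), some none)
  | .Rb => (some none, some (some b))
  | .aS => (some (some a), none)
  | .Sa => (none, some (some a))
  | .bS => (some (some b), none)
  | .Sb => (none, some (some b))
  | .RS => (some none, none)
  | .SR => (none, some none)

/-- old and new darts -/
def toD {V : Type} (G : SimpleGraph V) (a b : V) : G.Dart ⊕ ND → (addG G a b).Dart
  | .inl d => ⟨(some (some d.fst), some (some d.snd)), d.adj⟩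
  | .inr n => ⟨ndP a b n, by
      cases n
      · exact Or.inl rfl
      · exact Or.inl rfl
      · exact Or.inr rfl
      · exact Or.inr rfl
      · exact Or.inl rfl
      · exact Or.inl rfl
      · exact Or.inr rfl
      · exact Or.inr rfl
      · trivial
      · trivial⟩

theorem toD_bij {V : Type} (G : SimpleGraph V) {a b : V} (hab : a ≠ b) :
    Function.Bijective (toD G a b) := by
  constructor
  · rintro (d | n) (d' | n') h
    · have h1 : (some (some d.fst), some (some d.snd)) =
        ((some (some d'.fst), some (some d'.snd)) : Option (Option V) × Option (Option V)) :=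
        congrArg SimpleGraph.Dart.toProd h
      simp only [Prod.mk.injEq, Option.some.injEq] at h1
      congr 1
      exact SimpleGraph.Dart.ext _ _ (Prod.ext h1.1 h1.2)
    · exfalso
      have h1 : (some (some d.fst), some (some d.snd)) = ndP a b n' :=
        congrArg SimpleGraph.Dart.toProd h
      cases n' <;> simp [ndP] at h1
    · exfalso
      have h1 : ndP a b n = (some (some d'.fst), some (some d'.snd)) :=
        congrArg SimpleGraph.Dart.toProd h
      cases n <;> simp [ndP] at h1
    · have h1 : ndP a b n = ndP a b n' := congrArg SimpleGraph.Dart.toProd h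
      cases n <;> cases n' <;> simp [ndP, hab, hab.symm] at h1 ⊢
  · rintro ⟨⟨x, y⟩, h⟩
    rcases x with _ | _ | x <;> rcases y with _ | _ | y
    · exact h.elim
    · exact ⟨.inr .SR, rfl⟩
    · rcases h with rfl | rfl
      · exact ⟨.inr .Sa, rfl⟩
      · exact ⟨.inr .Sb, rfl⟩
    · exact ⟨.inr .RS, rfl⟩
    · exact h.elim
    · rcases h with rfl | rfl
      · exact ⟨.inr .Ra, rfl⟩
      · exact ⟨.inr .Rb, rfl⟩
    · rcases h with rfl | rfl
      · exact ⟨.inr .aS, rfl⟩
      · exact ⟨.inr .bS, rfl⟩
    · rcases h with rfl | rfl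
      · exact ⟨.inr .aR, rfl⟩
      · exact ⟨.inr .bR, rfl⟩
    · exact ⟨.inl ⟨(x, y), h⟩, rfl⟩

/-- constant on cycles -/
theorem const_cycle {α β : Type} {f : Equiv.Perm α} {c : α → β} (h : ∀ x, c (f x) = c x)
    {x y : α} (hxy : f.SameCycle x y) : c x = c y := by
  have hs : ∀ (n : ℤ) (d : α), c ((f ^ n) d) = c d := by
    intro n
    induction n using Int.induction_on with
    | zero => intro d; rfl
    | succ n ih =>
      intro d
      rw [zpow_add_one, Equiv.Perm.mul_apply, ih, h]
    | pred n ih =>
      intro d
      have h3 := h (f⁻¹ d)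
      rw [show f (f⁻¹ d) = d from Equiv.apply_symm_apply _ _] at h3
      rw [zpow_sub_one, Equiv.Perm.mul_apply, ih, ← h3]
  obtain ⟨n, hn⟩ := hxy
  rw [← hn, hs]

/-- relations containing all steps contain all cycles -/
theorem rel_cycle {α : Type} {f : Equiv.Perm α} {S : α → α → Prop} (hr : ∀ x, S x x)
    (hs : ∀ x y, S x y → S y x) (ht : ∀ x y z, S x y → S y z → S x z) (h : ∀ x, S x (f x))
    {x y : α} (hxy : f.SameCycle x y) : S x y := by
  have hn : ∀ (n : ℤ) (d : α), S d ((f ^ n) d) := by
    intro n
    induction n using Int.induction_on with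
    | zero => intro d; exact hr d
    | succ n ih =>
      intro d
      rw [zpow_add_one, Equiv.Perm.mul_apply]
      exact ht _ _ _ (h d) (ih _)
    | pred n ih =>
      intro d
      have h3 := h (f⁻¹ d)
      rw [show f (f⁻¹ d) = d from Equiv.apply_symm_apply _ _] at h3
      rw [zpow_sub_one, Equiv.Perm.mul_apply]
      exact ht _ _ _ (hs _ _ h3) (ih _)
  obtain ⟨n, rfl⟩ := hxy
  exact hn n x

theorem plane_step {V : Type} [Finite V] {G : SimpleGraph V} {a b : V} (hab : G.Adj a b)
    (hc : (addG G a b).Connected) {σ : Equiv.Perm G.Dart} (hσ : PlaneMap G σ) :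
    ∃ σ' : Equiv.Perm (addG G a b).Dart, PlaneMap (addG G a b) σ' := by
  classical
  have hne : a ≠ b := hab.ne
  set x : G.Dart := ⟨(a, b), hab⟩ with hx
  have hxs : x.symm.fst = b := rfl
  have hxf : x.fst = a := rfl
  set y : G.Dart := σ⁻¹ x with hy
  have hσy : σ y = x := Equiv.apply_symm_apply _ _
  have hyf : y.fst = a := by rw [← hσ.fst y, hσy]
  have hyx : y ≠ x.symm := by
    intro e
    have := congrArg (fun d : G.Dart => d.fst) e
    rw [hyf, hxs] at this
    exact hne this
  set π : Equiv.Perm (G.Dart ⊕ ND) := (Equiv.sumCongr σ ND.rot) *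
    Equiv.swap (.inl y) (.inr .aR) * Equiv.swap (.inl x.symm) (.inr .bS) with hπ
  set s1 : Equiv.Perm (G.Dart ⊕ ND) := Equiv.swap (.inl y) (.inr .aR) with hs1
  set s2 : Equiv.Perm (G.Dart ⊕ ND) := Equiv.swap (.inl x.symm) (.inr .bS) with hs2
  have hπa : ∀ z, π z = Equiv.sumCongr σ ND.rot (s1 (s2 z)) := fun _ => rfl
  have w1 : s1 (.inl y) = .inr .aR := Equiv.swap_apply_left _ _
  have w2 : s1 (.inr .aR) = .inl y := Equiv.swap_apply_right _ _
  have w3 : s2 (.inl x.symm) = .inr .bS := Equiv.swap_apply_left _ _
  have w4 : s2 (.inr .bS) = .inl x.symm := Equiv.swap_apply_right _ _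
  have w5 : ∀ d, d ≠ y → s1 (.inl d) = .inl d := fun d h =>
    Equiv.swap_apply_of_ne_of_ne (by simpa using h) (by simp)
  have w6 : ∀ n : ND, n ≠ .aR → s1 (.inr n) = .inr n := fun n h =>
    Equiv.swap_apply_of_ne_of_ne (by simp) (by simpa using h)
  have w7 : ∀ d, d ≠ x.symm → s2 (.inl d) = .inl d := fun d h =>
    Equiv.swap_apply_of_ne_of_ne (by simpa using h) (by simp)
  have w8 : ∀ n : ND, n ≠ .bS → s2 (.inr n) = .inr n := fun n h =>
    Equiv.swap_apply_of_ne_of_ne (by simp) (by simpa using h)
  have p1 : π (.inl x.symm) = .inr .bR := by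
    rw [hπa, w3, w6 _ (by simp)]
    rfl
  have p2 : π (.inl y) = .inr .aS := by
    rw [hπa, w7 _ hyx, w1]
    rfl
  have p3 : ∀ d, d ≠ x.symm → d ≠ y → π (.inl d) = .inl (σ d) := by
    intro d h1 h2
    rw [hπa, w7 _ h1, w5 _ h2]
    rfl
  have p4 : π (.inr .aR) = .inl x := by
    rw [hπa, w8 _ (by simp), w2]
    show Sum.inl (σ y) = _
    rw [hσy]
  have p5 : π (.inr .bS) = .inl (σ x.symm) := by
    rw [hπa, w4, w5 _ hyx.symm]
    rfl
  have p6 : ∀ n : ND, n ≠ .aR → n ≠ .bS → π (.inr n) = .inr (ND.rot n) := by
    intro n h1 h2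
    rw [hπa, w8 _ h2, w6 _ h1]
    rfl
  have q1 : π (.inr .aS) = .inr .aR := p6 _ (by simp) (by simp)
  have q2 : π (.inr .bR) = .inr .bS := p6 _ (by simp) (by simp)
  have q3 : π (.inr .Ra) = .inr .RS := p6 _ (by simp) (by simp)
  have q4 : π (.inr .RS) = .inr .Rb := p6 _ (by simp) (by simp)
  have q5 : π (.inr .Rb) = .inr .Ra := p6 _ (by simp) (by simp)
  have q6 : π (.inr .Sa) = .inr .Sb := p6 _ (by simp) (by simp)
  have q7 : π (.inr .Sb) = .inr .SR := p6 _ (by simp) (by simp)
  have q8 : π (.inr .SR) = .inr .Sa := p6 _ (by simp) (by simp)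
  set e : G.Dart ⊕ ND ≃ (addG G a b).Dart := Equiv.ofBijective _ (toD_bij G hne) with he
  set σ' : Equiv.Perm (addG G a b).Dart := (e.symm.trans π).trans e with hσ'
  have hσe : ∀ z, σ' (e z) = e (π z) := by
    intro z
    show e (π (e.symm (e z))) = _
    rw [e.symm_apply_apply]
  have efst : ∀ z, (e z).fst = (toD G a b z).fst := fun z => rfl
  refine ⟨σ', SurfMap.plane hc ⟨?_, ?_, ?_⟩⟩
  · -- vertices are preserved
    intro d
    obtain ⟨z, rfl⟩ := e.surjective d
    rw [hσe, efst, efst]
    rcases z with d | n
    · by_cases h1 : d = x.symm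
      · subst h1; rw [p1]; rfl
      by_cases h2 : d = y
      · subst h2; rw [p2]
        show some (some a) = some (some y.fst)
        rw [hyf]
      rw [p3 d h1 h2]
      show some (some (σ d).fst) = some (some d.fst)
      rw [hσ.fst]
    · cases n
      · rw [p4]; rfl
      · rw [q3]; rfl
      · rw [q2]; rfl
      · rw [q5]; rfl
      · rw [q1]; rfl
      · rw [q6]; rfl
      · rw [p5]
        show some (some (σ x.symm).fst) = some (some b)
        rw [hσ.fst]
        rfl
      · rw [q7]; rfl
      · rw [q4]; rfl
      · rw [q8]; rfl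
  · -- cyclic at every vertex
    set S : G.Dart ⊕ ND → G.Dart ⊕ ND → Prop := fun z z' => σ'.SameCycle (e z) (e z') with hS
    have step : ∀ z, S z (π z) := fun z => ⟨1, by rw [zpow_one, hσe]⟩
    have Ss : ∀ z z', S z z' → S z' z := fun z z' h => h.symm
    have St : ∀ z z' z'', S z z' → S z' z'' → S z z'' := fun z z' z'' h h' => h.trans h'
    have Sr : ∀ z, S z z := fun z => Equiv.Perm.SameCycle.refl _ _
    have t1 : S (.inr .aS) (.inl x) := St _ _ _ (q1 ▸ step (.inr .aS)) (p4 ▸ step (.inr .aR))
    have t2 : S (.inr .aR) (.inl x) := p4 ▸ step (.inr .aR)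
    have t3 : S (.inr .bR) (.inl x.symm) := Ss _ _ (p1 ▸ step (.inl x.symm))
    have t4 : S (.inr .bS) (.inl x.symm) := St _ _ _ (Ss _ _ (q2 ▸ step (.inr .bR))) t3
    have hold : ∀ d, S (.inl d) (.inl (σ d)) := by
      intro d
      by_cases h1 : d = x.symm
      · subst h1
        exact St _ _ _ (Ss _ _ t4) (p5 ▸ step (.inr .bS))
      by_cases h2 : d = y
      · subst h2
        rw [hσy]
        exact St _ _ _ (p2 ▸ step (.inl y)) t1
      have := step (.inl d)
      rwa [p3 d h1 h2] at this
    have hcyc : ∀ {d d' : G.Dart}, σ.SameCycle d d' → S (.inl d) (.inl d') :=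
      fun h => rel_cycle (S := fun d d' => S (.inl d) (.inl d')) (fun _ => Sr _)
        (fun _ _ => Ss _ _) (fun _ _ _ => St _ _ _) hold h
    have r1 : ∀ z v, (toD G a b z).fst = some (some v) → ∃ d : G.Dart, d.fst = v ∧ S z (.inl d) := by
      rintro (d | n) v h
      · refine ⟨d, ?_, Sr _⟩
        exact Option.some.inj (Option.some.inj h)
      · cases n
        · exact ⟨x, Option.some.inj (Option.some.inj h), t2⟩
        · exact absurd h (by simp [toD, ndP])
        · exact ⟨x.symm, Option.some.inj (Option.some.inj h), t3⟩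
        · exact absurd h (by simp [toD, ndP])
        · exact ⟨x, Option.some.inj (Option.some.inj h), t1⟩
        · exact absurd h (by simp [toD, ndP])
        · exact ⟨x.symm, Option.some.inj (Option.some.inj h), t4⟩
        · exact absurd h (by simp [toD, ndP])
        · exact absurd h (by simp [toD, ndP])
        · exact absurd h (by simp [toD, ndP])
    have r2 : ∀ z, (toD G a b z).fst = some none → S z (.inr .Ra) := by
      rintro (d | n) h
      · exact absurd h (by simp [toD])
      · cases n
        · exact absurd h (by simp [toD, ndP])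
        · exact Sr _
        · exact absurd h (by simp [toD, ndP])
        · exact q5 ▸ step (.inr .Rb)
        · exact absurd h (by simp [toD, ndP])
        · exact absurd h (by simp [toD, ndP])
        · exact absurd h (by simp [toD, ndP])
        · exact absurd h (by simp [toD, ndP])
        · exact Ss _ _ (q3 ▸ step (.inr .Ra))
        · exact absurd h (by simp [toD, ndP])
    have r3 : ∀ z, (toD G a b z).fst = none → S z (.inr .Sa) := by
      rintro (d | n) h
      · exact absurd h (by simp [toD])
      · cases n
        · exact absurd h (by simp [toD, ndP])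
        · exact absurd h (by simp [toD, ndP])
        · exact absurd h (by simp [toD, ndP])
        · exact absurd h (by simp [toD, ndP])
        · exact absurd h (by simp [toD, ndP])
        · exact Sr _
        · exact absurd h (by simp [toD, ndP])
        · exact Ss _ _ (q6 ▸ step (.inr .Sa))
        · exact absurd h (by simp [toD, ndP])
        · exact q8 ▸ step (.inr .SR)
    intro d d' h
    obtain ⟨z, rfl⟩ := e.surjective d
    obtain ⟨z', rfl⟩ := e.surjective d'
    rw [efst, efst] at h
    show S z z'
    rcases hz : (toD G a b z).fst with _ | _ | v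
    · exact St _ _ _ (r3 z hz) (Ss _ _ (r3 z' (h ▸ hz)))
    · exact St _ _ _ (r2 z hz) (Ss _ _ (r2 z' (h ▸ hz)))
    · obtain ⟨d, hd, h1⟩ := r1 z v hz
      obtain ⟨d', hd', h2⟩ := r1 z' v (h ▸ hz)
      exact St _ _ _ h1 (St _ _ _ (hcyc (hσ.cyc d d' (hd.trans hd'.symm))) (Ss _ _ h2))
  · -- Euler's formula
    set F := Quotient (Equiv.Perm.SameCycle.setoid (faceNext σ)) with hF
    have hst : ∀ d : G.Dart, (Quotient.mk _ (faceNext σ d) : F) = Quotient.mk _ d := fun d =>
      Quotient.sound ⟨-1, by simp⟩
    set c : G.Dart ⊕ ND → F ⊕ Fin 3 := fun z =>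
      match z with
      | .inl d => if d = x then .inr 0 else .inl (Quotient.mk _ d)
      | .inr .bR => .inr 0
      | .inr .Ra => .inr 0
      | .inr .bS => .inr 1
      | .inr .SR => .inr 1
      | .inr .Rb => .inr 1
      | .inr .aR => .inr 2
      | .inr .RS => .inr 2
      | .inr .Sa => .inr 2
      | .inr .aS => .inl (Quotient.mk _ x)
      | .inr .Sb => .inl (Quotient.mk _ x) with hcdef
    set rv : G.Dart ⊕ ND → G.Dart ⊕ ND := Sum.map SimpleGraph.Dart.symm ND.rev with hrv
    have hface : ∀ z, faceNext σ' (e z) = e (π (rv z)) := by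
      intro z
      show σ' ((e z).symm) = _
      have : (e z).symm = e (rv z) := by
        rcases z with d | n
        · rfl
        · cases n <;> rfl
      rw [this, hσe]
    have hinv : ∀ z, c (π (rv z)) = c z := by
      rintro (d | n)
      · show c (π (.inl d.symm)) = if d = x then .inr 0 else .inl (Quotient.mk _ d)
        by_cases h1 : d = x
        · subst h1
          rw [p1, if_pos rfl]
        rw [if_neg h1]
        have h1' : d.symm ≠ x.symm := fun h => h1 (by
          have := congrArg SimpleGraph.Dart.symm h
          simpa using this)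
        by_cases h2 : d.symm = y
        · rw [h2, p2]
          show (Sum.inl (Quotient.mk _ x) : F ⊕ Fin 3) = _
          congr 1
          have : faceNext σ d = x := by
            show σ d.symm = x
            rw [h2, hσy]
          rw [← this]
          exact hst d
        · rw [p3 _ h1' h2]
          have h3 : σ d.symm ≠ x := fun h => h2 (by
            apply σ.injective
            rw [h, hσy])
          show (if σ d.symm = x then (Sum.inr 0 : F ⊕ Fin 3) else .inl (Quotient.mk _ (σ d.symm)))
            = _
          rw [if_neg h3]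
          exact congrArg _ (hst d)
      · cases n
        · show c (π (.inr .Ra)) = _
          rw [q3]
        · show c (π (.inr .aR)) = _
          rw [p4]
          show (if x = x then (Sum.inr 0 : F ⊕ Fin 3) else _) = _
          rw [if_pos rfl]
        · show c (π (.inr .Rb)) = _
          rw [q5]
        · show c (π (.inr .bR)) = _
          rw [q2]
        · show c (π (.inr .Sa)) = _
          rw [q6]
        · show c (π (.inr .aS)) = _
          rw [q1]
        · show c (π (.inr .Sb)) = _
          rw [q7]
        · show c (π (.inr .bS)) = _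
          rw [p5]
          have h3 : σ x.symm ≠ x := fun h => by
            have := congrArg (fun d : G.Dart => d.fst) h
            rw [hσ.fst] at this
            exact hne this.symm
          show (if σ x.symm = x then (Sum.inr 0 : F ⊕ Fin 3) else .inl (Quotient.mk _ (σ x.symm)))
            = .inl (Quotient.mk _ x)
          rw [if_neg h3]
          exact congrArg _ (hst x)
        · show c (π (.inr .SR)) = _
          rw [q8]
        · show c (π (.inr .RS)) = _
          rw [q4]
    have hsurj : Function.Surjective c := by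
      rintro (f | i)
      · induction f using Quotient.inductionOn with
        | h d =>
          by_cases h1 : d = x
          · exact ⟨.inr .aS, by rw [h1]⟩
          · refine ⟨.inl d, ?_⟩
            show (if d = x then (Sum.inr 0 : F ⊕ Fin 3) else .inl (Quotient.mk _ d)) = _
            rw [if_neg h1]
      · fin_cases i
        · exact ⟨.inr .bR, rfl⟩
        · exact ⟨.inr .bS, rfl⟩
        · exact ⟨.inr .aR, rfl⟩
    set F' := Quotient (Equiv.Perm.SameCycle.setoid (faceNext σ')) with hF'
    have hDart : Finite G.Dart := finite_dart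
    have hDart' : Finite (addG G a b).Dart := finite_dart
    have hinv' : ∀ d : (addG G a b).Dart, c (e.symm (faceNext σ' d)) = c (e.symm d) := by
      intro d
      obtain ⟨z, rfl⟩ := e.surjective d
      rw [hface, e.symm_apply_apply, e.symm_apply_apply, hinv]
    let C : F' → F ⊕ Fin 3 := Quotient.lift (fun d => c (e.symm d)) fun d d' h =>
      const_cycle (c := fun d => c (e.symm d)) hinv' h
    have hC : Function.Surjective C := by
      intro f
      obtain ⟨z, hz⟩ := hsurj f
      refine ⟨Quotient.mk _ (e z), ?_⟩
      show c (e.symm (e z)) = f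
      rw [e.symm_apply_apply, hz]
    have hFF : Nat.card F + 3 ≤ Nat.card F' := by
      have h1 := Nat.card_le_card_of_surjective C hC
      rw [Nat.card_sum] at h1
      simpa using h1
    have hV : Nat.card (Option (Option V)) = Nat.card V + 2 := by
      rw [Finite.card_option, Finite.card_option]
    have hE : Nat.card (addG G a b).edgeSet = Nat.card G.edgeSet + 5 := by
      have := Fintype.ofFinite V
      have : Fintype G.Dart := Fintype.ofFinite _
      have h1 := SimpleGraph.dart_card_eq_twice_card_edges G
      have h2 := SimpleGraph.dart_card_eq_twice_card_edges (addG G a b)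
      have h3 : Fintype.card (addG G a b).Dart = Fintype.card G.Dart + 10 := by
        rw [← Fintype.card_congr e, Fintype.card_sum]
        rfl
      have h4 : Nat.card G.edgeSet = G.edgeFinset.card := by
        rw [Nat.card_eq_fintype_card, SimpleGraph.edgeFinset_card]
      have h5 : Nat.card (addG G a b).edgeSet = (addG G a b).edgeFinset.card := by
        rw [Nat.card_eq_fintype_card, SimpleGraph.edgeFinset_card]
      rw [h4, h5]
      have h6 : Fintype.card G.Dart = 2 * G.edgeFinset.card := by
        convert h1
      omega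
    have h := hσ.euler
    show Nat.card (addG G a b).edgeSet + 2 ≤ Nat.card (Option (Option V)) + Nat.card F' + 0
    rw [hV, hE]
    have h' : Nat.card V + Nat.card F = Nat.card G.edgeSet + 2 := h
    omega

end Vale.Agent.P235.R2.H680
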