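import Vale.Agent.P235.R2.H680.Star
import Vale.Agent.P235.R2.H105.Del
import Vale.Agent.P235.R2.H26.W1Defs

set_option linter.all false

/-! The plane surgery: an edge `ab` is replaced by a vertex joined to `a`, `b` and a third vertex
of a face of this edge. -/

namespace Vale.Agent.P235.W1

open Vale.Agent.P235 Vale.Agent.P235.Tight

theorem star_eq {V : Type} (G : SimpleGraph V) (a b w : V) :
    star G a b w = (addZ G a b w).deleteEdges {s(some a, some b)} := by
  ext x y
  rw [SimpleGraph.deleteEdges_adj, Set.mem_singleton_iff]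
  rcases x with _ | x <;> rcases y with _ | y
  · show False ↔ False ∧ _
    simp
  · show (y = a ∨ y = b ∨ y = w) ↔ (y = a ∨ y = b ∨ y = w) ∧ _
    simp
  · show (x = a ∨ x = b ∨ x = w) ↔ (x = a ∨ x = b ∨ x = w) ∧ _
    simp
  · show (G.Adj x y ∧ s(x, y) ≠ s(a, b)) ↔ G.Adj x y ∧ _
    simp

theorem star_connected {V : Type} {G : SimpleGraph V} (a b w : V) (hab : a ≠ b)
    (hc : G.Connected) : (star G a b w).Connected := by
  have hN : ∀ x, x = a ∨ x = b → (star G a b w).Reachable (some x) none := by
    rintro x (rfl | rfl)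
    · exact SimpleGraph.Adj.reachable (Or.inl rfl : (star G x b w).Adj (some x) none)
    · exact SimpleGraph.Adj.reachable (Or.inr (Or.inl rfl) : (star G a x w).Adj (some x) none)
  have h1 : ∀ x y : V, (star G a b w).Reachable (some x) (some y) := by
    intro x y
    obtain ⟨p⟩ := hc.preconnected x y
    induction p with
    | nil => exact SimpleGraph.Reachable.refl _
    | @cons u v z huv p ih =>
      refine SimpleGraph.Reachable.trans ?_ ih
      by_cases h : s(u, v) = s(a, b)
      · rw [Sym2.eq_iff] at h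
        rcases h with ⟨rfl, rfl⟩ | ⟨rfl, rfl⟩
        · exact (hN _ (Or.inl rfl)).trans (hN _ (Or.inr rfl)).symm
        · exact (hN _ (Or.inr rfl)).trans (hN _ (Or.inl rfl)).symm
      · exact SimpleGraph.Adj.reachable (show (star G a b w).Adj (some u) (some v) from ⟨huv, h⟩)
  have h2 : ∀ x : Option V, (star G a b w).Reachable x (some a) := by
    rintro (_ | x)
    · exact (hN a (Or.inl rfl)).symm
    · exact h1 x a
  exact { preconnected := fun x y => (h2 x).trans (h2 y).symm, nonempty := ⟨some a⟩ }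

theorem rowS : RowS := by
  intro V _ G σ d₀ a b w s t hab hG hσ hwa hwb hw hs hs' ht'
  set x : G.Dart := ⟨(a, b), hab⟩ with hx
  have hne : a ≠ b := hab.ne
  have hd : ¬ (faceNext σ).SameCycle d₀ x := by
    intro h
    apply hs
    obtain ⟨d, h1, h2⟩ := hs'
    exact ⟨d, h.symm.trans h1, h2⟩
  obtain ⟨σ₁, d₁, hσ₁, h1, h2⟩ := rowStar V G σ d₀ x w s t hG hσ hs' ht' hd hw hwa hwb
  have hstar := star_connected a b w hne hG
  rw [star_eq] at hstar
  let y : (addZ G a b w).Dart := ⟨(some a, some b), hab⟩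
  have hy : y.edge = s(some a, some b) := rfl
  have hGz := addZ_connected a b w hG
  have hst : StPlane ((addZ G a b w).deleteEdges {y.edge}) (some s) (some t) := by
    refine Vale.Agent.P235.R2.H105.rowDel (Option V) (addZ G a b w) σ₁ d₁ y (some s) (some t)
      hσ₁ h1 h2 ?_ (by rw [hy]; exact hstar)
    exact Vale.Agent.P235.R2.H105.two_sides hGz hσ₁ y (by rw [hy]; exact hstar)
  rw [hy, ← star_eq] at hst
  rw [← star_eq] at hstar
  obtain ⟨σ₂, d₂, h3, h4, h5⟩ := hst
  exact ⟨σ₂, d₂, hstar, h3, h4, h5⟩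

end Vale.Agent.P235.W1
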