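import Vale.Agent.P235.R2.H90.Surf
import Vale.Agent.P235.R2.H680.SurfD

/-!
P235-M (helper680), surfaces: the form with slopes at least `1 / D` and the form with the distance
from a root, from helper90's `surf_tight`.
-/

set_option linter.all false
set_option autoImplicit false

namespace Vale.Agent.P235.SurfD

open SimpleGraph Vale.Agent.P235.Red

theorem surfTight {C : ℝ} (hC : 1 ≤ C) (hMS : MStarLL C) :
    SurfTight (17000000000000000000000 * C) := by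
  intro V _ G σ ℓ h A B MB g hc hS hℓ h1 hlow hhigh
  exact R2.H90.Surf.surf_tight hC hMS V G σ ℓ h A B MB g hc hS hℓ h1 hlow hhigh

/-- **surfaces, few sources and sinks, slopes at least `1 / D`** -/
theorem surf_all {C : ℝ} (hC : 1 ≤ C) (hMS : MStarLL C) (V : Type) [Finite V]
    (G : SimpleGraph V) (σ : Equiv.Perm G.Dart) (ℓ : Sym2 V → ℝ) (h : V → ℝ) (A B : Finset V)
    (MB : Finset G.Dart) (g : ℕ) (D : ℝ) (hD : 1 ≤ D) (hc : G.Connected) (hS : SurfMap g G σ)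
    (hℓ : ∀ e ∈ G.edgeSet, 0 < ℓ e) (h1 : ∀ u v, G.Adj u v → |h u - h v| ≤ ℓ s(u, v))
    (hlow : ∀ v, v ∉ A → ∃ u, G.Adj v u ∧ ℓ s(v, u) ≤ D * (h v - h u))
    (hhigh : ∀ v, v ∉ B → (∀ m ∈ MB, v ∉ onFace σ m) →
      ∃ u, G.Adj v u ∧ ℓ s(v, u) ≤ D * (h u - h v)) :
    EmbedsL1 (pathDist G ℓ) (17000000000000000000000 * C * D *
      ((ll (Nat.card V) : ℝ) + 1 + Real.log (g + A.card + B.card + MB.card + 2))) :=
  surf_D (surfTight hC hMS) (by positivity) V G σ ℓ h A B MB g D hD hc hS hℓ h1 hlow hhigh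

/-- **surfaces, distance from a root** -/
theorem surf_root_all {C : ℝ} (hC : 1 ≤ C) (hMS : MStarLL C) (V : Type) [Finite V]
    (G : SimpleGraph V) (σ : Equiv.Perm G.Dart) (ℓ : Sym2 V → ℝ) (r : V) (B : Finset V)
    (MB : Finset G.Dart) (g : ℕ) (hc : G.Connected) (hS : SurfMap g G σ)
    (hℓ : ∀ e ∈ G.edgeSet, 0 < ℓ e)
    (hhigh : ∀ v, (∃ u, G.Adj v u ∧ pathDist G ℓ r u = pathDist G ℓ r v + ℓ s(v, u)) ∨ v ∈ B ∨
      ∃ m ∈ MB, v ∈ onFace σ m) :
    EmbedsL1 (pathDist G ℓ) (17000000000000000000000 * C *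
      ((ll (Nat.card V) : ℝ) + 1 + Real.log (g + B.card + MB.card + 3))) :=
  surf_root (surfTight hC hMS) V G σ ℓ r B MB g hc hS hℓ hhigh

end Vale.Agent.P235.SurfD
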