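import Vale.Agent.P235.R2.H680.SurfSAll
import Vale.Agent.P235.R2.RED.Swept

/-!
P235-M (helper680): the class of graphs on surfaces for the hand-in `PlanarFewMaxima`.
-/

set_option linter.all false
set_option autoImplicit false

namespace Vale.Agent.P235.SurfS

open SimpleGraph Vale.Agent.P235.Red
open Vale.Agent.P235.R2.H582 (embeds_mono)

/-- `G` has a rotation system of Euler genus at most `γ`, `h` is nonexpansive; every vertex has an
edge of slope at least `1/D` downwards, or is in `A`, or is on one of the faces of the darts in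
`M₁`; every vertex has one upwards, or is in `B`, or is on one of the faces of the darts in `M₂`;
`A` and `M₁` have together at most `a` elements, `B` and `M₂` at most `b`; no face is exceptional in
both directions -/
def OnSurface {V : Type} (G : SimpleGraph V) (ℓ : Sym2 V → ℝ) (D : ℝ) (γ a b : ℕ) : Prop :=
  ∃ (σ : Equiv.Perm G.Dart) (h : V → ℝ) (A B : Finset V) (M₁ M₂ : Finset G.Dart),
    SurfMap γ G σ ∧ A.card + M₁.card ≤ a ∧ B.card + M₂.card ≤ b ∧
    (∀ x ∈ M₁, ∀ y ∈ M₂, ¬ (faceNext σ).SameCycle x y) ∧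
    (∀ u v, G.Adj u v → |h u - h v| ≤ ℓ s(u, v)) ∧
    (∀ v, (∃ u, G.Adj v u ∧ ℓ s(v, u) ≤ D * (h v - h u)) ∨ v ∈ A ∨ ∃ m ∈ M₁, v ∈ onFace σ m) ∧
    ∀ v, (∃ u, G.Adj v u ∧ ℓ s(v, u) ≤ D * (h u - h v)) ∨ v ∈ B ∨ ∃ m ∈ M₂, v ∈ onFace σ m

theorem OnSurface.embeds {C : ℝ} (hC : 1 ≤ C) (hM : MStarLL C) {V : Type} [Finite V]
    {G : SimpleGraph V} {ℓ : Sym2 V → ℝ} {D : ℝ} (hc : G.Connected)
    (hℓ : ∀ e ∈ G.edgeSet, 0 < ℓ e) (hD : 1 ≤ D) {γ a b : ℕ} (h : OnSurface G ℓ D γ a b) :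
    EmbedsL1 (pathDist G ℓ) (25 * 10 ^ 32 * C * D *
      (Swp.LL (Nat.card V) + Real.log ((γ : ℝ) + a + 2) + √(Real.log ((b : ℝ) + 2)))) := by
  obtain ⟨σ, h, A, B, M₁, M₂, hS, ha, hb, hsep, h1, hlow, hhigh⟩ := h
  refine embeds_mono (pd_nonneg hℓ) ?_
    (surfS_ends_all hC hM V G σ ℓ h A B M₁ M₂ γ D hD hc hS hℓ h1 hsep hlow hhigh)
  have ha' : (A.card : ℝ) + M₁.card ≤ a := by exact_mod_cast ha
  have hb' : (B.card : ℝ) + M₂.card ≤ b := by exact_mod_cast hb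
  have h2 : Real.log ((γ : ℝ) + A.card + M₁.card + 2) ≤ Real.log ((γ : ℝ) + a + 2) :=
    Real.log_le_log (by positivity) (by linarith)
  have h3 : √(Real.log ((B.card : ℝ) + M₂.card + 2)) ≤ √(Real.log ((b : ℝ) + 2)) :=
    Real.sqrt_le_sqrt (Real.log_le_log (by positivity) (by linarith))
  have h4 : Swp.LL (Nat.card V) = (ll (Nat.card V) : ℝ) + 1 := rfl
  rw [h4]
  exact mul_le_mul_of_nonneg_left (by linarith) (by positivity)

end Vale.Agent.P235.SurfS
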