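import Vale.Agent.P235.R2.H582.Cap2
import Vale.Agent.P235.H206.SurfDefs

/-!
P235-M (helper680, after helper582's CapB, Cap2 and helper934's Multi4): a new vertex in a face of a
rotation system on a surface; the Euler genus does not change, the other faces survive.
-/

set_option autoImplicit false
set_option linter.all false

namespace Vale.Agent.P235.SurfF

open Equiv.Perm Function
open Vale.Agent.P235.H341W (capG)
open Vale.Agent.P235.R2.H582

/-- **inserting an edge into a face**: `e1` starts at one end `a.fst`, `e2` at the other end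
`a.snd`, both on one face.  Faces which meet `a.fst` still meet it; the other faces are copied. -/
theorem ins_edgeS {g : ℕ} {V : Type} [Finite V] {G G' : SimpleGraph V} {σ : Equiv.Perm G.Dart}
    (hP : SurfMap g G σ) {ι : G.Dart → G'.Dart} {a : G'.Dart} (h : Emb2 G G' id ι a)
    {e1 e2 : G.Dart} (h1 : e1.fst = a.fst) (h2 : e2.fst = a.snd)
    (hs : (faceNext σ).SameCycle e1 e2) :
    ∃ σ' : Equiv.Perm G'.Dart, SurfMap g G' σ' ∧
      (∀ d, a.fst ∈ onFace σ d → a.fst ∈ onFace σ' (ι d)) ∧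
      ∀ d, ¬ (faceNext σ).SameCycle d e1 →
        (∀ d', (faceNext σ).SameCycle d d' → (faceNext σ').SameCycle (ι d) (ι d')) ∧
        ∀ y, (faceNext σ').SameCycle (ι d) y →
          ∃ d', y = ι d' ∧ (faceNext σ).SameCycle d d' := by
  classical
  have fD := fin_dart G
  have fD' := fin_dart G'
  have hne : e1 ≠ e2 := by
    intro he
    rw [he] at h1
    exact a.adj.ne (h1.symm.trans h2)
  have nab : a ≠ a.symm := a.symm_ne.symm
  let ιe : G.Dart ↪ G'.Dart := ⟨ι, h.inj⟩
  set σ' := rot2 σ ιe a a.symm e1 e2 with hσ'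
  have r0 : ∀ x, σ x ≠ e1 → σ x ≠ e2 → σ' (ι x) = ι (σ x) := fun x k1 k2 =>
    rot2_old (ι := ιe) h.na h.nb k1 k2
  have r1 : ∀ x, σ x = e1 → σ' (ι x) = a := fun x k1 => rot2_1 (ι := ιe) h.na h.nb hne k1
  have r2 : ∀ x, σ x = e2 → σ' (ι x) = a.symm := fun x k1 => rot2_2 (ι := ιe) nab h.nb k1
  have ra : σ' a = ι e1 := rot2_a (ι := ιe) h.na nab
  have rb : σ' a.symm = ι e2 := rot2_b (ι := ιe) h.na h.nb hne
  have hsp : Splt (faceNext σ) (faceNext σ') ι a a.symm e1 e2 :=
    { inj := h.inj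
      na := h.na
      nb := h.nb
      nab := nab
      all := h.all
      ne := hne
      same := hs
      old := fun x k1 k2 => by
        show σ' (ι x).symm = ι (σ x.symm)
        rw [h.sy]
        exact r0 _ k1 k2
      h1 := fun x k1 => by
        show σ' (ι x).symm = a
        rw [h.sy]
        exact r1 _ k1
      h2 := fun x k1 => by
        show σ' (ι x).symm = a.symm
        rw [h.sy]
        exact r2 _ k1
      fa := rb
      fb := by
        show σ' a.symm.symm = ι e1
        rw [SimpleGraph.Dart.symm_symm]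
        exact ra }
  have hstep : ∀ z, σ'.SameCycle (ι z) (ι (σ z)) := by
    intro z
    by_cases k1 : σ z = e1
    · have s1 := next_cycle σ' (ι z)
      have s2 := next_cycle σ' a
      rw [r1 z k1] at s1
      rw [ra] at s2
      rw [k1]
      exact s1.trans s2
    by_cases k2 : σ z = e2
    · have s1 := next_cycle σ' (ι z)
      have s2 := next_cycle σ' a.symm
      rw [r2 z k2] at s1
      rw [rb] at s2
      rw [k2]
      exact s1.trans s2
    have s1 := next_cycle σ' (ι z)
    rwa [r0 z k1 k2] at s1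
  have hfst : ∀ d, (ι d).fst = d.fst := h.fst
  have hrep : ∀ y : G'.Dart, ∃ x : G.Dart, σ'.SameCycle y (ι x) ∧ x.fst = y.fst := by
    intro y
    rcases h.all y with rfl | rfl | ⟨x, rfl⟩
    · have s2 := next_cycle σ' y
      rw [ra] at s2
      exact ⟨e1, s2, h1⟩
    · have s2 := next_cycle σ' a.symm
      rw [rb] at s2
      exact ⟨e2, s2, h2⟩
    · exact ⟨x, Equiv.Perm.SameCycle.refl _ _, (hfst x).symm⟩
  refine ⟨σ', ⟨?_, ?_, ?_⟩, ?_⟩
  · intro y
    rcases h.all y with rfl | rfl | ⟨x, rfl⟩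
    · rw [ra, hfst]
      exact h1
    · rw [rb, hfst]
      exact h2
    · by_cases k1 : σ x = e1
      · rw [r1 x k1, hfst, ← hP.fst x, k1]
        exact h1.symm
      by_cases k2 : σ x = e2
      · rw [r2 x k2, hfst, ← hP.fst x, k2]
        exact h2.symm
      rw [r0 x k1 k2, hfst, hfst, hP.fst]
  · intro y y' hy
    obtain ⟨x, hx, hxf⟩ := hrep y
    obtain ⟨x', hx', hxf'⟩ := hrep y'
    have h3 := hP.cyc x x' (by rw [hxf, hxf', hy])
    exact (hx.trans (step_cycle hstep h3)).trans hx'.symm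
  · have h3 := hsp.card
    have h4 := hP.euler
    have h5 := h.edges
    show Nat.card G'.edgeSet + 2 ≤ Nat.card V + Nat.card (Cy (faceNext σ')) + g
    have h6 : Nat.card G.edgeSet + 2 ≤ Nat.card V + Nat.card (Cy (faceNext σ)) + g := h4
    omega
  · refine ⟨?_, fun d hd => ⟨fun d' h' => hsp.to hd h', fun y hy => hsp.from hd hy⟩⟩
    rintro d ⟨c, hc, hcf⟩
    by_cases hd : (faceNext σ).SameCycle d e1
    · rcases hsp.cov hd with k | k
      · exact ⟨a, k, rfl⟩
      · exact ⟨ι e1, k.trans hsp.be, by rw [hfst]; exact h1⟩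
    · exact ⟨ι c, hsp.to hd hc, by rw [hfst]; exact hcf⟩

/-- **inserting a pendant vertex** -/
theorem ins_pendS {g : ℕ} {V : Type} [Finite V] {G : SimpleGraph V} {G' : SimpleGraph (Option V)}
    {σ : Equiv.Perm G.Dart} (hP : SurfMap g G σ) {ι : G.Dart → G'.Dart} {a : G'.Dart}
    (h : Emb2 G G' some ι a) {e : G.Dart} (h1 : a.fst = some e.fst) (h2 : a.snd = none) :
    ∃ σ' : Equiv.Perm G'.Dart, SurfMap g G' σ' ∧
      (∀ d, (faceNext σ).SameCycle d e → none ∈ onFace σ' (ι d)) ∧
      ∀ d, ¬ (faceNext σ).SameCycle d e →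
        (∀ d', (faceNext σ).SameCycle d d' → (faceNext σ').SameCycle (ι d) (ι d')) ∧
        ∀ y, (faceNext σ').SameCycle (ι d) y →
          ∃ d', y = ι d' ∧ (faceNext σ).SameCycle d d' := by
  classical
  have fD := fin_dart G
  have fD' := fin_dart G'
  have nab : a ≠ a.symm := a.symm_ne.symm
  let ιe : G.Dart ↪ G'.Dart := ⟨ι, h.inj⟩
  set σ' := rot1 σ ιe a e with hσ'
  have r0 : ∀ x, σ x ≠ e → σ' (ι x) = ι (σ x) := fun x k1 => rot1_old (ι := ιe) h.na k1
  have r1 : ∀ x, σ x = e → σ' (ι x) = a := fun x k1 => rot1_1 (ι := ιe) k1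
  have ra : σ' a = ι e := rot1_a (ι := ιe) h.na
  have rb : σ' a.symm = a.symm := rot1_b (ι := ιe) h.nb nab.symm
  have hsp : Pend (faceNext σ) (faceNext σ') ι a a.symm e :=
    { inj := h.inj
      na := h.na
      nb := h.nb
      all := h.all
      old := fun x k1 => by
        show σ' (ι x).symm = ι (σ x.symm)
        rw [h.sy]
        exact r0 _ k1
      ha := fun x k1 => by
        show σ' (ι x).symm = a
        rw [h.sy]
        exact r1 _ k1
      fa := rb
      fb := by
        show σ' a.symm.symm = ι e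
        rw [SimpleGraph.Dart.symm_symm]
        exact ra }
  have hstep : ∀ z, σ'.SameCycle (ι z) (ι (σ z)) := by
    intro z
    by_cases k1 : σ z = e
    · have s1 := next_cycle σ' (ι z)
      have s2 := next_cycle σ' a
      rw [r1 z k1] at s1
      rw [ra] at s2
      rw [k1]
      exact s1.trans s2
    have s1 := next_cycle σ' (ι z)
    rwa [r0 z k1] at s1
  have hbf : a.symm.fst = none := h2
  have hrep : ∀ y : G'.Dart, y = a.symm ∨
      ∃ x : G.Dart, σ'.SameCycle y (ι x) ∧ some x.fst = y.fst := by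
    intro y
    rcases h.all y with rfl | rfl | ⟨x, rfl⟩
    · have s2 := next_cycle σ' y
      rw [ra] at s2
      exact Or.inr ⟨e, s2, h1.symm⟩
    · exact Or.inl rfl
    · exact Or.inr ⟨x, Equiv.Perm.SameCycle.refl _ _, (h.fst x).symm⟩
  refine ⟨σ', ⟨?_, ?_, ?_⟩, ?_⟩
  · intro y
    rcases h.all y with rfl | rfl | ⟨x, rfl⟩
    · rw [ra, h.fst]
      exact h1.symm
    · rw [rb]
    · by_cases k1 : σ x = e
      · rw [r1 x k1, h.fst, ← hP.fst x, k1]
        exact h1
      rw [r0 x k1, h.fst, h.fst, hP.fst]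
  · intro y y' hy
    rcases hrep y with k | ⟨x, hx, hxf⟩
    · rcases hrep y' with k' | ⟨x', hx', hxf'⟩
      · rw [k, k']
      · exfalso
        rw [k, hbf] at hy
        rw [← hy] at hxf'
        exact absurd hxf' (by simp)
    · rcases hrep y' with k' | ⟨x', hx', hxf'⟩
      · exfalso
        rw [k', hbf] at hy
        rw [hy] at hxf
        exact absurd hxf (by simp)
      · have h3 := hP.cyc x x' (by
          have : some x.fst = some x'.fst := by rw [hxf, hxf', hy]
          exact Option.some.inj this)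
        exact (hx.trans (step_cycle hstep h3)).trans hx'.symm
  · have h3 := hsp.card
    have h4 := hP.euler
    have h5 := h.edges
    show Nat.card G'.edgeSet + 2 ≤ Nat.card (Option V) + Nat.card (Cy (faceNext σ')) + g
    have h6 : Nat.card G.edgeSet + 2 ≤ Nat.card V + Nat.card (Cy (faceNext σ)) + g := h4
    have h7 : Nat.card (Option V) = Nat.card V + 1 := Finite.card_option
    omega
  · exact ⟨fun d hd => ⟨a.symm, (hsp.to hd).trans hsp.be.symm, hbf⟩,
      fun d hd => ⟨fun d' h' => hsp.to h', fun y hy => hsp.from' hd hy⟩⟩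

/-- **RowCap with both invariants**: every dart of the face of `d₀` is on a face which meets the new
vertex; every other face is copied -/
theorem cap_auxS {g : ℕ} {V : Type} [Finite V] {G : SimpleGraph V} {σ : Equiv.Perm G.Dart} {d₀ : G.Dart}
    (hP : SurfMap g G σ) (s : Finset V) (hs : s.Nonempty) (hsub : (s : Set V) ⊆ onFace σ d₀) :
    ∀ T : Set V, T = s → ∃ σ' : Equiv.Perm (capG G T).Dart, SurfMap g (capG G T) σ' ∧
      (∀ d, (faceNext σ).SameCycle d₀ d → none ∈ onFace σ' (cD G T d)) ∧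
      ∀ d, ¬ (faceNext σ).SameCycle d₀ d →
        (∀ d', (faceNext σ).SameCycle d d' → (faceNext σ').SameCycle (cD G T d) (cD G T d')) ∧
        ∀ y, (faceNext σ').SameCycle (cD G T d) y →
          ∃ d', y = cD G T d' ∧ (faceNext σ).SameCycle d d' := by
  classical
  induction hs using Finset.Nonempty.cons_induction with
  | singleton t =>
    intro T hT
    have hT' : T = {t} := by rw [hT]; simp
    subst hT'
    obtain ⟨e, he, hef⟩ := hsub (by simp : t ∈ ((({t} : Finset V)) : Set V))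
    obtain ⟨σ', h1, h2, h3⟩ := ins_pendS hP (emb_pend G t) (e := e) (by rw [hef]; rfl) rfl
    exact ⟨σ', h1, fun d hd => h2 d (hd.symm.trans he),
      fun d hd => h3 d fun hc => hd (he.trans hc.symm)⟩
  | cons t s ht hs ih =>
    intro T hT
    have hT' : T = insert t (s : Set V) := by rw [hT]; simp
    obtain ⟨σ₁, p1, p2, p3⟩ := ih (fun x hx => hsub (by simp [Finset.mem_coe.1 hx]))
      (s : Set V) rfl
    have hsT : (s : Set V) ⊆ T := by rw [hT']; exact Set.subset_insert _ _
    have htT : t ∈ T := by rw [hT']; exact Set.mem_insert _ _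
    obtain ⟨e, he, hef⟩ := hsub (by simp : t ∈ ((Finset.cons t s ht : Finset V) : Set V))
    obtain ⟨c, hc, hcf⟩ := p2 e he
    have hemb := emb_edge G (t := t) (fun h => ht (Finset.mem_coe.1 h)) hT' hsT htT
    obtain ⟨σ₂, q1, q2, q3⟩ := ins_edgeS p1 hemb (e1 := c) (e2 := cD G s e) hcf
      (by rw [cD_fst, hef]; rfl) hc.symm
    refine ⟨σ₂, q1, fun d hd => q2 (cD G s d) (p2 d hd), fun d hd => ?_⟩
    obtain ⟨a1, a2⟩ := p3 d hd
    have hnc : ¬ (faceNext σ₁).SameCycle (cD G s d) c := by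
      intro hcc
      obtain ⟨d', hd', _⟩ := a2 c hcc
      rw [hd', cD_fst] at hcf
      exact absurd hcf (by simp)
    obtain ⟨b1, b2⟩ := q3 (cD G s d) hnc
    refine ⟨fun d' h' => b1 _ (a1 d' h'), fun y hy => ?_⟩
    obtain ⟨y1, e1, h1⟩ := b2 y hy
    obtain ⟨d', e2, h2⟩ := a2 y1 h1
    refine ⟨d', ?_, h2⟩
    rw [e1, e2]
    rfl

/-- the faces after the cap of one face -/
theorem cap_facesS {g : ℕ} {V : Type} [Finite V] {G : SimpleGraph V} {σ : Equiv.Perm G.Dart}
    (hP : SurfMap g G σ) (d₀ : G.Dart) :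
    ∃ σ' : Equiv.Perm (capG G (onFace σ d₀)).Dart, SurfMap g (capG G (onFace σ d₀)) σ' ∧
      ∀ d, ¬ (faceNext σ).SameCycle d₀ d →
        (∀ v, v ∈ onFace σ d ↔ some v ∈ onFace σ' (cD G (onFace σ d₀) d)) ∧
        ∀ d', (faceNext σ').SameCycle (cD G (onFace σ d₀) d) (cD G (onFace σ d₀) d') →
          (faceNext σ).SameCycle d d' := by
  classical
  have hfin : (onFace σ d₀).Finite := Set.toFinite _
  have hne : (onFace σ d₀).Nonempty := ⟨d₀.fst, d₀, Equiv.Perm.SameCycle.refl _ _, rfl⟩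
  obtain ⟨σ', h1, h2, h3⟩ := cap_auxS (d₀ := d₀) hP hfin.toFinset (by simpa using hne)
    (by simp) (onFace σ d₀) (by simp)
  refine ⟨σ', h1, fun d hd => ?_⟩
  obtain ⟨a1, a2⟩ := h3 d hd
  refine ⟨fun v => ⟨?_, ?_⟩, ?_⟩
  · rintro ⟨d', k1, k2⟩
    exact ⟨cD G _ d', a1 d' k1, by rw [cD_fst, k2]⟩
  · rintro ⟨y, k1, k2⟩
    obtain ⟨d', e1, h4⟩ := a2 y k1
    rw [e1, cD_fst] at k2
    exact ⟨d', h4, Option.some.inj k2⟩
  · intro d' k
    obtain ⟨d'', e1, h4⟩ := a2 _ k
    rwa [cD_inj G _ e1]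

end Vale.Agent.P235.SurfF
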