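import Vale.Agent.P235.R2.H680.SurfF1
import Vale.Agent.P235.R2.H934.Multi4

/-!
P235-M (helper680, after helper934's Multi4): graphs on surfaces, faces replaced by vertices.
-/

set_option autoImplicit false
set_option linter.all false

namespace Vale.Agent.P235.SurfF

open Relation SimpleGraph
open Vale.Agent.P235 Vale.Agent.P235.Red Vale.Agent.P235.H341W Vale.Agent.P235.Red.W3
open Vale.Agent.P235.R2.H582 (embeds_mono cD cD_fst cD_inj)
open Vale.Agent.P235.R2.H934 (ll_mono' ll_add ll_le_log)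

/-- the vertices outside `A` and the faces of `MA` have a steep edge downwards, those outside `B`
and the faces of `MB` have a steep edge upwards -/
structure MFS (g : ℕ) {V : Type} (G : SimpleGraph V) (σ : Equiv.Perm G.Dart) (ℓ : Sym2 V → ℝ) (h : V → ℝ)
    (D : ℝ) (A B : Finset V) (MA MB : Finset G.Dart) : Prop where
  conn : G.Connected
  surf : SurfMap g G σ
  pos : ∀ e ∈ G.edgeSet, 0 < ℓ e
  lip : ∀ u v, G.Adj u v → |h u - h v| ≤ ℓ s(u, v)
  low : ∀ v, v ∉ A → (∀ m ∈ MA, v ∉ onFace σ m) → ∃ u, G.Adj v u ∧ ℓ s(v, u) ≤ D * (h v - h u)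
  high : ∀ v, v ∉ B → (∀ m ∈ MB, v ∉ onFace σ m) → ∃ u, G.Adj v u ∧ ℓ s(v, u) ≤ D * (h u - h v)
  sep : ∀ m ∈ MA, ∀ m' ∈ MB, ¬ (faceNext σ).SameCycle m m'

section

variable {g : ℕ} {V : Type} {G : SimpleGraph V} {σ : Equiv.Perm G.Dart} {ℓ : Sym2 V → ℝ} {h : V → ℝ}
  {D : ℝ} {A B : Finset V} {MA MB : Finset G.Dart}

theorem MFS.neg (hW : MFS g G σ ℓ h D A B MA MB) : MFS g G σ ℓ (fun v => - h v) D B A MB MA where
  conn := hW.conn
  surf := hW.surf
  pos := hW.pos
  lip := fun u v ha => by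
    have h1 := hW.lip u v ha
    rwa [show - h u - - h v = -(h u - h v) by ring, abs_neg]
  low := fun v hv hv' => by
    obtain ⟨w, hw, h1⟩ := hW.high v hv hv'
    exact ⟨w, hw, by rwa [show - h v - - h w = h w - h v by ring]⟩
  high := fun v hv hv' => by
    obtain ⟨w, hw, h1⟩ := hW.low v hv hv'
    exact ⟨w, hw, by rwa [show - h w - - h v = h v - h w by ring]⟩
  sep := fun m hm m' hm' k => hW.sep m' hm' m hm k.symm

open Classical in
/-- one new top in a face of `MB` -/
theorem MFS.cap [Finite V] (hW : MFS g G σ ℓ h D A B MA MB) (hD : 1 ≤ D) {d₀ : G.Dart}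
    (hd₀ : d₀ ∈ MB) {M H : ℝ} (hM : ∀ x y, pathDist G ℓ x y ≤ M) (hH : ∀ v, M < H - h v) :
    ∃ (σ' : Equiv.Perm (capG G (onFace σ d₀)).Dart) (A' B' : Finset (Option V))
      (MA' MB' : Finset (capG G (onFace σ d₀)).Dart),
      MFS g (capG G (onFace σ d₀)) σ' (capL ℓ h H) (capH h H) D A' B' MA' MB' ∧
      A'.card ≤ A.card ∧ B'.card ≤ B.card + 1 ∧ MA'.card ≤ MA.card ∧ MB'.card < MB.card := by
  have hTne : (onFace σ d₀).Nonempty := ⟨d₀.fst, d₀, Equiv.Perm.SameCycle.refl _ _, rfl⟩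
  obtain ⟨x, hx⟩ := hTne
  have hM0 : 0 ≤ M := (pd_nonneg hW.pos x x).trans (hM x x)
  obtain ⟨σ', hP', hF⟩ := cap_facesS hW.surf d₀
  have hsame : ∀ m, (faceNext σ).SameCycle d₀ m → onFace σ m ⊆ onFace σ d₀ := by
    rintro m hm v ⟨d', k1, k2⟩
    exact ⟨d', hm.trans k1, k2⟩
  refine ⟨σ', A.image some, insert none (B.image some), MA.image (cD G (onFace σ d₀)),
    (MB.filter fun m => ¬ (faceNext σ).SameCycle d₀ m).image (cD G (onFace σ d₀)),
    ⟨cap_connected hW.conn ⟨x, hx⟩, hP', ?_, ?_, ?_, ?_, ?_⟩, Finset.card_image_le, ?_,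
    Finset.card_image_le, ?_⟩
  · intro e he
    induction e with
    | _ a b =>
      rcases a with _ | a <;> rcases b with _ | b
      · exact absurd he (by simp [capG])
      · rw [capL_ns]; exact abs_pos.2 (by linarith [hH b])
      · rw [capL_sn]; exact abs_pos.2 (by linarith [hH a])
      · rw [capL_some]; exact hW.pos _ he
  · rintro (_ | u) (_ | v) ha
    · exact absurd ha (fun h => h)
    · exact le_of_eq rfl
    · show |h u - H| ≤ |H - h u|
      rw [abs_sub_comm]
    · exact hW.lip u v ha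
  · rintro (_ | v) hv hv'
    · refine ⟨some x, hx, ?_⟩
      show |H - h x| ≤ D * (H - h x)
      rw [abs_of_nonneg (by linarith [hH x])]
      exact le_mul_of_one_le_left (by linarith [hH x]) hD
    · obtain ⟨u, hu, h1⟩ := hW.low v (fun h3 => hv (Finset.mem_image_of_mem _ h3)) (by
        intro m hm h3
        have h4 : ¬ (faceNext σ).SameCycle d₀ m := fun k => hW.sep m hm d₀ hd₀ k.symm
        exact hv' _ (Finset.mem_image_of_mem _ hm) (((hF m h4).1 v).1 h3))
      exact ⟨some u, hu, h1⟩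
  · rintro (_ | v) hv hv'
    · exact absurd (Finset.mem_insert_self _ _) hv
    · by_cases hvT : v ∈ onFace σ d₀
      · refine ⟨none, hvT, ?_⟩
        show |H - h v| ≤ D * (H - h v)
        rw [abs_of_nonneg (by linarith [hH v])]
        exact le_mul_of_one_le_left (by linarith [hH v]) hD
      · obtain ⟨u, hu, h1⟩ := hW.high v
          (fun h3 => hv (Finset.mem_insert_of_mem (Finset.mem_image_of_mem _ h3))) (by
          intro m hm h3
          by_cases h4 : (faceNext σ).SameCycle d₀ m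
          · exact hvT (hsame m h4 h3)
          · exact hv' _ (Finset.mem_image_of_mem _ (Finset.mem_filter.2 ⟨hm, h4⟩))
              (((hF m h4).1 v).1 h3))
        exact ⟨some u, hu, h1⟩
  · intro y hy z hz k
    obtain ⟨m, hm, e1⟩ := Finset.mem_image.1 hy
    obtain ⟨m', hm', e2⟩ := Finset.mem_image.1 hz
    rw [← e1, ← e2] at k
    have h4 : ¬ (faceNext σ).SameCycle d₀ m := fun k => hW.sep m hm d₀ hd₀ k.symm
    exact hW.sep m hm m' (Finset.mem_filter.1 hm').1 ((hF m h4).2 m' k)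
  · refine (Finset.card_insert_le _ _).trans ?_
    exact Nat.add_le_add_right Finset.card_image_le 1
  · refine Finset.card_image_le.trans_lt (Finset.card_lt_card ⟨Finset.filter_subset _ _, ?_⟩)
    intro hsub
    exact (Finset.mem_filter.1 (hsub hd₀)).2 (Equiv.Perm.SameCycle.refl _ _)

/-- **faces replaced by vertices**: a bound for exceptional vertices gives a bound for exceptional
vertices and faces -/
theorem faces_surf {D : ℝ} (hD : 1 ≤ D) {g : ℕ} : ∀ (n : ℕ) (F : ℕ → ℕ → ℕ → ℝ),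
    (∀ a b c a' b' c', a ≤ a' → b ≤ b' → c ≤ c' → F a b c ≤ F a' b' c') →
    (∀ (V : Type) [Finite V] (G : SimpleGraph V) (σ : Equiv.Perm G.Dart) (ℓ : Sym2 V → ℝ)
      (h : V → ℝ) (A B : Finset V), MFS g G σ ℓ h D A B ∅ ∅ →
      EmbedsL1 (pathDist G ℓ) (F (Nat.card V) A.card B.card)) →
    ∀ (V : Type) [Finite V] (G : SimpleGraph V) (σ : Equiv.Perm G.Dart) (ℓ : Sym2 V → ℝ)
      (h : V → ℝ) (A B : Finset V) (MA MB : Finset G.Dart), MFS g G σ ℓ h D A B MA MB →
      MA.card + MB.card ≤ n →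
      EmbedsL1 (pathDist G ℓ) (F (Nat.card V + n) (A.card + MA.card) (B.card + MB.card)) := by
  classical
  intro n
  induction n with
  | zero =>
    intro F hF HV V _ G σ ℓ h A B MA MB hW hn
    have hA : MA = ∅ := Finset.card_eq_zero.1 (by omega)
    have hB : MB = ∅ := Finset.card_eq_zero.1 (by omega)
    subst hA
    subst hB
    refine embeds_mono (pd_nonneg hW.pos) (hF _ _ _ _ _ _ ?_ ?_ ?_) (HV V G σ ℓ h A B hW)
    · omega
    · simp
    · simp
  | succ n ih =>
    have step : ∀ (F : ℕ → ℕ → ℕ → ℝ),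
        (∀ a b c a' b' c', a ≤ a' → b ≤ b' → c ≤ c' → F a b c ≤ F a' b' c') →
        (∀ (V : Type) [Finite V] (G : SimpleGraph V) (σ : Equiv.Perm G.Dart) (ℓ : Sym2 V → ℝ)
          (h : V → ℝ) (A B : Finset V), MFS g G σ ℓ h D A B ∅ ∅ →
          EmbedsL1 (pathDist G ℓ) (F (Nat.card V) A.card B.card)) →
        ∀ (V : Type) [Finite V] (G : SimpleGraph V) (σ : Equiv.Perm G.Dart) (ℓ : Sym2 V → ℝ)
          (h : V → ℝ) (A B : Finset V) (MA MB : Finset G.Dart), MFS g G σ ℓ h D A B MA MB →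
          MA.card + MB.card ≤ n + 1 → MB.Nonempty →
          EmbedsL1 (pathDist G ℓ)
            (F (Nat.card V + (n + 1)) (A.card + MA.card) (B.card + MB.card)) := by
      intro F hF HV V _ G σ ℓ h A B MA MB hW hn hne
      obtain ⟨d₀, hd₀⟩ := hne
      have hVne : Nonempty V := ⟨d₀.fst⟩
      have hT : (onFace σ d₀).Nonempty := ⟨d₀.fst, d₀, Equiv.Perm.SameCycle.refl _ _, rfl⟩
      obtain ⟨M, H, h1, h2⟩ := exists_height G ℓ h
      obtain ⟨σ', A', B', MA', MB', hW', c1, c2, c3, c4⟩ := hW.cap hD hd₀ h1 h2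
      have hE := ih F hF HV (Option V) _ σ' _ _ A' B' MA' MB' hW' (by omega)
      have hE' := Tight.embeds_restrict some (fun x y => cap_dist hW.conn hW.pos hT h1 h2 x y) hE
      rw [Finite.card_option] at hE'
      exact embeds_mono (pd_nonneg hW.pos) (hF _ _ _ _ _ _ (by omega) (by omega) (by omega)) hE'
    intro F hF HV V _ G σ ℓ h A B MA MB hW hn
    by_cases hB : MB.Nonempty
    · exact step F hF HV V G σ ℓ h A B MA MB hW hn hB
    · by_cases hA : MA.Nonempty
      · exact step (fun a b c => F a c b) (fun a b c a' b' c' ha hb hc => hF _ _ _ _ _ _ ha hc hb)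
          (fun V _ G σ ℓ h A B hW => HV V G σ ℓ _ B A hW.neg) V G σ ℓ _ B A MB MA hW.neg (by omega)
          hA
      · rw [Finset.not_nonempty_iff_eq_empty] at hA hB
        have h1 := ih F hF HV V G σ ℓ h A B MA MB hW (by rw [hA, hB]; simp)
        exact embeds_mono (pd_nonneg hW.pos) (hF _ _ _ _ _ _ (by omega) le_rfl le_rfl) h1

end

end Vale.Agent.P235.SurfF
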