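import Vale.Agent.P235.R2.H611.FewD
import Vale.Agent.P235.H206.SurfDefs

/-!
P235-M (helper680), surfaces, with the square root of the logarithm of the number of sinks: the
form with slopes at least `1 / D` and the form with the distance from a root follow from the tight
form.
-/

set_option linter.all false
set_option autoImplicit false

namespace Vale.Agent.P235.SurfS

open SimpleGraph Vale.Agent.P235.Red Vale.Agent.P235.Red.W3 Vale.Agent.P235.Tight
open Vale.Agent.P235.Few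

/-- surfaces, tight form -/
def SurfTightS (K : ℝ) : Prop :=
  ∀ (V : Type) [Finite V] (G : SimpleGraph V) (σ : Equiv.Perm G.Dart) (ℓ : Sym2 V → ℝ)
    (h : V → ℝ) (A B : Finset V) (MB : Finset G.Dart) (g : ℕ), G.Connected → SurfMap g G σ →
    (∀ e ∈ G.edgeSet, 0 < ℓ e) →
    (∀ u v, G.Adj u v → |h u - h v| ≤ ℓ s(u, v)) →
    (∀ v, v ∉ A → ∃ u, G.Adj v u ∧ ℓ s(v, u) ≤ h v - h u) →
    (∀ v, v ∉ B → (∀ m ∈ MB, v ∉ onFace σ m) → ∃ u, G.Adj v u ∧ ℓ s(v, u) ≤ h u - h v) →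
    EmbedsL1 (pathDist G ℓ)
      (K * ((ll (Nat.card V) : ℝ) + 1 + Real.log (g + A.card + 2) +
        √(Real.log (B.card + MB.card + 2))))

/-- **surfaces, slopes at least `1 / D`** -/
theorem surfS_D {K : ℝ} (hT : SurfTightS K) (hK : 0 ≤ K) (V : Type) [Finite V]
    (G : SimpleGraph V) (σ : Equiv.Perm G.Dart) (ℓ : Sym2 V → ℝ) (h : V → ℝ) (A B : Finset V)
    (MB : Finset G.Dart) (g : ℕ) (D : ℝ) (hD : 1 ≤ D) (hc : G.Connected) (hS : SurfMap g G σ)
    (hℓ : ∀ e ∈ G.edgeSet, 0 < ℓ e) (h1 : ∀ u v, G.Adj u v → |h u - h v| ≤ ℓ s(u, v))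
    (hlow : ∀ v, v ∉ A → ∃ u, G.Adj v u ∧ ℓ s(v, u) ≤ D * (h v - h u))
    (hhigh : ∀ v, v ∉ B → (∀ m ∈ MB, v ∉ onFace σ m) →
      ∃ u, G.Adj v u ∧ ℓ s(v, u) ≤ D * (h u - h v)) :
    EmbedsL1 (pathDist G ℓ)
      (K * D * ((ll (Nat.card V) : ℝ) + 1 + Real.log (g + A.card + 2) +
        √(Real.log (B.card + MB.card + 2)))) := by
  have hW : Wide G ℓ h D (A : Set V) ((B : Set V) ∪ {v | ∃ m ∈ MB, v ∈ onFace σ m}) :=
    ⟨hc, hℓ, h1, fun v hv => hlow v hv, fun v hv =>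
      hhigh v (fun k => hv (Or.inl k)) (fun m hm k => hv (Or.inr ⟨m, hm, k⟩))⟩
  obtain ⟨ℓ', k1, k2, k3, k4, k5⟩ := wide_shr hD hW
  have hE := hT V G σ ℓ' h A B MB g hc hS k1 k2
    (fun v hv => by
      obtain ⟨u, hu, h2⟩ := k3 v hv
      refine ⟨u, hu.symm, ?_⟩
      rw [Sym2.eq_swap, h2])
    (fun v hv hv' => by
      obtain ⟨u, hu, h2⟩ := k4 v (by
        rintro (k | ⟨m, hm, k⟩)
        · exact hv k
        · exact hv' m hm k)
      exact ⟨u, hu, h2.le⟩)
  have hlog : 0 ≤ Real.log ((g : ℝ) + A.card + 2) := Real.log_nonneg (by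
    have h2 : (0 : ℝ) ≤ A.card := Nat.cast_nonneg _
    have h5 : (0 : ℝ) ≤ g := Nat.cast_nonneg _
    linarith)
  have hsq := Real.sqrt_nonneg (Real.log ((B.card : ℝ) + MB.card + 2))
  have hK' : (0 : ℝ) ≤ K * ((ll (Nat.card V) : ℝ) + 1 +
      Real.log ((g : ℝ) + A.card + 2) +
      √(Real.log ((B.card : ℝ) + MB.card + 2))) := by positivity
  have h4 := k5 _ hK' hE
  have h5 : K * ((ll (Nat.card V) : ℝ) + 1 +
      Real.log ((g : ℝ) + A.card + 2) +
      √(Real.log ((B.card : ℝ) + MB.card + 2))) * D =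
      K * D * ((ll (Nat.card V) : ℝ) + 1 +
      Real.log ((g : ℝ) + A.card + 2) +
      √(Real.log ((B.card : ℝ) + MB.card + 2))) := by ring
  rwa [h5] at h4

/-- **surfaces, distance from a root**: `(G, ℓ)` is any graph with lengths on the surface, and all
local maxima of the distance from `r` on vertices are in `B` or on the faces of `MB`. -/
theorem surfS_root {K : ℝ} (hT : SurfTightS K) (V : Type) [Finite V]
    (G : SimpleGraph V) (σ : Equiv.Perm G.Dart) (ℓ : Sym2 V → ℝ) (r : V) (B : Finset V)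
    (MB : Finset G.Dart) (g : ℕ) (hc : G.Connected) (hS : SurfMap g G σ)
    (hℓ : ∀ e ∈ G.edgeSet, 0 < ℓ e)
    (hhigh : ∀ v, (∃ u, G.Adj v u ∧ pathDist G ℓ r u = pathDist G ℓ r v + ℓ s(v, u)) ∨ v ∈ B ∨
      ∃ m ∈ MB, v ∈ onFace σ m) :
    EmbedsL1 (pathDist G ℓ)
      (K * ((ll (Nat.card V) : ℝ) + 1 + Real.log (g + 3) +
        √(Real.log (B.card + MB.card + 2)))) := by
  have tri := pd_tri hc hℓ
  have h := hT V G σ ℓ (pathDist G ℓ r) {r} B MB g hc hS hℓ
    (fun u v ha => by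
      have h1 := pd_adj hℓ ha
      have h2 := tri r u v
      have h3 := tri r v u
      rw [pd_comm hc hℓ v u] at h3
      exact abs_le.2 ⟨by linarith, by linarith⟩)
    (fun v hv => by
      obtain ⟨u, hu, h1⟩ := _root_.Vale.Agent.P235.Tight.exists_first hc hℓ
        (fun k : v = r => hv (by rw [k]; exact Finset.mem_singleton_self r))
      refine ⟨u, hu, ?_⟩
      rw [pd_comm hc hℓ r v, pd_comm hc hℓ r u]
      linarith)
    (fun v hv hv' => by
      rcases hhigh v with ⟨u, hu, h1⟩ | h1 | ⟨m, hm, h1⟩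
      · exact ⟨u, hu, by linarith⟩
      · exact absurd h1 hv
      · exact absurd h1 (hv' m hm))
  rw [Finset.card_singleton] at h
  have h6 : ((g : ℝ) + ((1 : ℕ) : ℝ) + 2) = g + 3 := by
    push_cast
    ring
  rwa [h6] at h

end Vale.Agent.P235.SurfS
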