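import Vale.Agent.P235.R2.H680.SurfF2
import Vale.Agent.P235.R2.H680.SurfAll
import Vale.Agent.P235.R2.H680.SurfS

/-!
P235-M (helper680): graphs on surfaces with few exceptional vertices and faces in both directions,
slopes at least `1 / D`.
-/

set_option autoImplicit false
set_option linter.all false

namespace Vale.Agent.P235.SurfF

open SimpleGraph
open Vale.Agent.P235 Vale.Agent.P235.Red
open Vale.Agent.P235.R2.H582 (embeds_mono)
open Vale.Agent.P235.R2.H934 (ll_mono' ll_add ll_le_log)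

theorem ll_add' (a b : ℕ) : (ll (a + b) : ℝ) ≤ ll a + ll b + 2 := by
  exact_mod_cast ll_add a b

/-- `ll m ≤ 2 √(log (m + 2))` -/
theorem ll_le_sqrt (m : ℕ) : (ll m : ℝ) ≤ 2 * √(Real.log (m + 2)) := by
  have hlog : 0 ≤ Real.log ((m : ℝ) + 2) := Real.log_nonneg (by
    have : (0 : ℝ) ≤ m := Nat.cast_nonneg m
    linarith)
  rcases Nat.eq_zero_or_pos m with rfl | hm
  · unfold ll
    simp
  set L := Nat.log 2 m with hL
  set j := ll m with hj
  have h1 : 2 ^ j ≤ L + 1 := by
    rw [hj]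
    unfold ll
    exact Nat.pow_log_le_self 2 (by omega)
  have h2 : j ^ 2 ≤ 2 * L := by
    have h3 : ∀ j : ℕ, j ^ 2 + 2 ≤ 2 * 2 ^ j + (if j = 0 then 1 else 0) := by
      intro j
      induction j with
      | zero => norm_num
      | succ k ih =>
        rw [if_neg (Nat.succ_ne_zero k)]
        rcases Nat.eq_zero_or_pos k with rfl | hk
        · norm_num
        rw [if_neg (by omega)] at ih
        rcases Nat.lt_or_ge k 3 with h4 | h4
        · interval_cases k <;> norm_num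
        have h5 : 2 * k + 1 ≤ k ^ 2 := by nlinarith
        have h6 : (k + 1) ^ 2 + 2 = k ^ 2 + 2 + (2 * k + 1) := by ring
        have h7 : 2 * 2 ^ (k + 1) = 2 * 2 ^ k + 2 * 2 ^ k := by ring
        omega
    have h4 := h3 j
    rcases Nat.eq_zero_or_pos j with h0 | h0
    · rw [h0]
      simp
    rw [if_neg (by omega)] at h4
    omega
  have h3 : (2 : ℝ) ^ L ≤ m := by
    exact_mod_cast Nat.pow_log_le_self 2 (by omega)
  have h4 : (L : ℝ) * Real.log 2 ≤ Real.log (m + 2) := by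
    rw [← Real.log_pow]
    exact Real.log_le_log (by positivity) (by linarith)
  have h5 := Real.log_two_gt_d9
  have h6 : (j : ℝ) ^ 2 ≤ 2 * L := by exact_mod_cast h2
  have h7 : (j : ℝ) ^ 2 ≤ 4 * Real.log (m + 2) := by
    have : (0 : ℝ) ≤ L := Nat.cast_nonneg L
    nlinarith
  have h8 : (j : ℝ) ≤ √(4 * Real.log (m + 2)) := Real.le_sqrt_of_sq_le h7
  have h9 : √(4 * Real.log ((m : ℝ) + 2)) = 2 * √(Real.log (m + 2)) := by
    rw [Real.sqrt_mul (by norm_num), show (4 : ℝ) = 2 ^ 2 by norm_num,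
      Real.sqrt_sq (by norm_num)]
  rwa [h9] at h8

/-- **surfaces, exceptional vertices and faces in both directions, log form** -/
theorem surf_ends {C : ℝ} (hC : 1 ≤ C) (hMS : MStarLL C) (V : Type) [Finite V]
    (G : SimpleGraph V) (σ : Equiv.Perm G.Dart) (ℓ : Sym2 V → ℝ) (h : V → ℝ) (A B : Finset V)
    (M₁ M₂ : Finset G.Dart) (g : ℕ) (D : ℝ) (hD : 1 ≤ D) (hc : G.Connected) (hS : SurfMap g G σ)
    (hℓ : ∀ e ∈ G.edgeSet, 0 < ℓ e) (h1 : ∀ u v, G.Adj u v → |h u - h v| ≤ ℓ s(u, v))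
    (hsep : ∀ a ∈ M₁, ∀ b ∈ M₂, ¬ (faceNext σ).SameCycle a b)
    (hlow : ∀ v, (∃ u, G.Adj v u ∧ ℓ s(v, u) ≤ D * (h v - h u)) ∨ v ∈ A ∨
      ∃ m ∈ M₁, v ∈ onFace σ m)
    (hhigh : ∀ v, (∃ u, G.Adj v u ∧ ℓ s(v, u) ≤ D * (h u - h v)) ∨ v ∈ B ∨
      ∃ m ∈ M₂, v ∈ onFace σ m) :
    EmbedsL1 (pathDist G ℓ) (51000000000000000000000 * C * D *
      ((ll (Nat.card V) : ℝ) + 1 +
        Real.log (g + A.card + B.card + M₁.card + M₂.card + 2))) := by
  have hW : MFS g G σ ℓ h D A B M₁ M₂ :=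
    { conn := hc
      surf := hS
      pos := hℓ
      lip := h1
      low := fun v hv hv' => by
        rcases hlow v with k | k | ⟨m, hm, k⟩
        · exact k
        · exact absurd k hv
        · exact absurd k (hv' m hm)
      high := fun v hv hv' => by
        rcases hhigh v with k | k | ⟨m, hm, k⟩
        · exact k
        · exact absurd k hv
        · exact absurd k (hv' m hm)
      sep := hsep }
  have hK : (0 : ℝ) ≤ 17000000000000000000000 * C * D := by positivity
  have hE := faces_surf hD (g := g) (M₁.card + M₂.card)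
    (fun n a b => 17000000000000000000000 * C * D * ((ll n : ℝ) + 1 + Real.log (g + a + b + 2)))
    (fun a b c a' b' c' ha hb hc => by
      have k1 := ll_mono' ha
      have hb' : (b : ℝ) ≤ b' := by exact_mod_cast hb
      have hc' : (c : ℝ) ≤ c' := by exact_mod_cast hc
      have k2 : Real.log ((g : ℝ) + b + c + 2) ≤ Real.log ((g : ℝ) + b' + c' + 2) :=
        Real.log_le_log (by positivity) (by linarith)
      exact mul_le_mul_of_nonneg_left (by linarith) hK)
    (fun V _ G σ ℓ h A B hW => by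
      have h2 := SurfD.surf_all hC hMS V G σ ℓ h A B ∅ g D hD hW.conn hW.surf hW.pos hW.lip
        (fun v hv => hW.low v hv (by simp)) (fun v hv _ => hW.high v hv (by simp))
      simpa using h2)
    V G σ ℓ h A B M₁ M₂ hW le_rfl
  refine embeds_mono (pd_nonneg hℓ) ?_ hE
  set m := M₁.card + M₂.card with hm
  set S : ℝ := (g : ℝ) + A.card + B.card + M₁.card + M₂.card + 2 with hSd
  have hg0 : (0 : ℝ) ≤ g := Nat.cast_nonneg _
  have hA0 : (0 : ℝ) ≤ A.card := Nat.cast_nonneg _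
  have hB0 : (0 : ℝ) ≤ B.card := Nat.cast_nonneg _
  have hM0 : (0 : ℝ) ≤ M₁.card := Nat.cast_nonneg _
  have hM0' : (0 : ℝ) ≤ M₂.card := Nat.cast_nonneg _
  have h2 := ll_add' (Nat.card V) m
  have h3 := ll_le_log m
  have h0 : (0 : ℝ) ≤ ll (Nat.card V) := Nat.cast_nonneg _
  have h4 : Real.log ((m : ℝ) + 2) ≤ Real.log S := by
    refine Real.log_le_log (by positivity) ?_
    rw [hm, hSd]
    push_cast
    linarith
  have h5 : Real.log ((g : ℝ) + ((A.card + M₁.card : ℕ) : ℝ) + ((B.card + M₂.card : ℕ) : ℝ) + 2) =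
      Real.log S := by
    rw [hSd]
    congr 1
    push_cast
    ring
  have h6 : 0 ≤ Real.log S := Real.log_nonneg (by rw [hSd]; linarith)
  rw [h5]
  have h7 : (ll (Nat.card V + m) : ℝ) + 1 + Real.log S ≤
      3 * ((ll (Nat.card V) : ℝ) + 1 + Real.log S) := by linarith
  calc 17000000000000000000000 * C * D * ((ll (Nat.card V + m) : ℝ) + 1 + Real.log S) ≤
      17000000000000000000000 * C * D * (3 * ((ll (Nat.card V) : ℝ) + 1 + Real.log S)) :=
        mul_le_mul_of_nonneg_left h7 hK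
    _ = _ := by ring

/-- **surfaces, exceptional vertices and faces in both directions, square root form**: from the
tight form with vertices downwards -/
theorem surfS_ends {K : ℝ} (hT : SurfS.SurfTightS K) (hK0 : 0 ≤ K) (V : Type) [Finite V]
    (G : SimpleGraph V) (σ : Equiv.Perm G.Dart) (ℓ : Sym2 V → ℝ) (h : V → ℝ) (A B : Finset V)
    (M₁ M₂ : Finset G.Dart) (g : ℕ) (D : ℝ) (hD : 1 ≤ D) (hc : G.Connected) (hS : SurfMap g G σ)
    (hℓ : ∀ e ∈ G.edgeSet, 0 < ℓ e) (h1 : ∀ u v, G.Adj u v → |h u - h v| ≤ ℓ s(u, v))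
    (hsep : ∀ a ∈ M₁, ∀ b ∈ M₂, ¬ (faceNext σ).SameCycle a b)
    (hlow : ∀ v, (∃ u, G.Adj v u ∧ ℓ s(v, u) ≤ D * (h v - h u)) ∨ v ∈ A ∨
      ∃ m ∈ M₁, v ∈ onFace σ m)
    (hhigh : ∀ v, (∃ u, G.Adj v u ∧ ℓ s(v, u) ≤ D * (h u - h v)) ∨ v ∈ B ∨
      ∃ m ∈ M₂, v ∈ onFace σ m) :
    EmbedsL1 (pathDist G ℓ) (5 * K * D *
      ((ll (Nat.card V) : ℝ) + 1 + Real.log (g + A.card + M₁.card + 2) +
        √(Real.log (B.card + M₂.card + 2)))) := by
  have hW : MFS g G σ ℓ h D A B M₁ M₂ :=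
    { conn := hc
      surf := hS
      pos := hℓ
      lip := h1
      low := fun v hv hv' => by
        rcases hlow v with k | k | ⟨m, hm, k⟩
        · exact k
        · exact absurd k hv
        · exact absurd k (hv' m hm)
      high := fun v hv hv' => by
        rcases hhigh v with k | k | ⟨m, hm, k⟩
        · exact k
        · exact absurd k hv
        · exact absurd k (hv' m hm)
      sep := hsep }
  have hK : (0 : ℝ) ≤ K * D := by positivity
  have hE := faces_surf hD (g := g) (M₁.card + M₂.card)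
    (fun n a b => K * D * ((ll n : ℝ) + 1 + Real.log (g + a + 2) + √(Real.log (b + 2))))
    (fun a b c a' b' c' ha hb hc => by
      have k1 := ll_mono' ha
      have hb' : (b : ℝ) ≤ b' := by exact_mod_cast hb
      have hc' : (c : ℝ) ≤ c' := by exact_mod_cast hc
      have k2 : Real.log ((g : ℝ) + b + 2) ≤ Real.log ((g : ℝ) + b' + 2) :=
        Real.log_le_log (by positivity) (by linarith)
      have k3 : √(Real.log ((c : ℝ) + 2)) ≤ √(Real.log ((c' : ℝ) + 2)) :=
        Real.sqrt_le_sqrt (Real.log_le_log (by positivity) (by linarith))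
      exact mul_le_mul_of_nonneg_left (by linarith) hK)
    (fun V _ G σ ℓ h A B hW => by
      have h2 := SurfS.surfS_D hT hK0 V G σ ℓ h A B ∅ g D hD hW.conn hW.surf hW.pos hW.lip
        (fun v hv => hW.low v hv (by simp)) (fun v hv _ => hW.high v hv (by simp))
      simpa using h2)
    V G σ ℓ h A B M₁ M₂ hW le_rfl
  refine embeds_mono (pd_nonneg hℓ) ?_ hE
  have hg0 : (0 : ℝ) ≤ g := Nat.cast_nonneg _
  have hA0 : (0 : ℝ) ≤ A.card := Nat.cast_nonneg _
  have hB0 : (0 : ℝ) ≤ B.card := Nat.cast_nonneg _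
  have hM0 : (0 : ℝ) ≤ M₁.card := Nat.cast_nonneg _
  have hM0' : (0 : ℝ) ≤ M₂.card := Nat.cast_nonneg _
  have h2 := ll_add' (Nat.card V) (M₁.card + M₂.card)
  have h2' := ll_add' M₁.card M₂.card
  have h3 := ll_le_log M₁.card
  have h3' := ll_le_sqrt M₂.card
  have h0 : (0 : ℝ) ≤ ll (Nat.card V) := Nat.cast_nonneg _
  have h4 : Real.log ((M₁.card : ℝ) + 2) ≤ Real.log ((g : ℝ) + A.card + M₁.card + 2) :=
    Real.log_le_log (by positivity) (by linarith)
  have h4' : √(Real.log ((M₂.card : ℝ) + 2)) ≤ √(Real.log ((B.card : ℝ) + M₂.card + 2)) :=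
    Real.sqrt_le_sqrt (Real.log_le_log (by positivity) (by linarith))
  have h5 : Real.log ((g : ℝ) + ((A.card + M₁.card : ℕ) : ℝ) + 2) =
      Real.log ((g : ℝ) + A.card + M₁.card + 2) := by
    congr 1
    push_cast
    ring
  have h5' : √(Real.log (((B.card + M₂.card : ℕ) : ℝ) + 2)) =
      √(Real.log ((B.card : ℝ) + M₂.card + 2)) := by
    congr 2
    push_cast
    ring
  have h6 : 0 ≤ Real.log ((g : ℝ) + A.card + M₁.card + 2) := Real.log_nonneg (by linarith)
  have h6' := Real.sqrt_nonneg (Real.log ((B.card : ℝ) + M₂.card + 2))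
  rw [h5, h5']
  have h7 : (ll (Nat.card V + (M₁.card + M₂.card)) : ℝ) + 1 +
      Real.log ((g : ℝ) + A.card + M₁.card + 2) + √(Real.log ((B.card : ℝ) + M₂.card + 2)) ≤
      5 * ((ll (Nat.card V) : ℝ) + 1 + Real.log ((g : ℝ) + A.card + M₁.card + 2) +
        √(Real.log ((B.card : ℝ) + M₂.card + 2))) := by linarith
  calc K * D * ((ll (Nat.card V + (M₁.card + M₂.card)) : ℝ) + 1 +
        Real.log ((g : ℝ) + A.card + M₁.card + 2) +
        √(Real.log ((B.card : ℝ) + M₂.card + 2))) ≤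
      K * D * (5 * ((ll (Nat.card V) : ℝ) + 1 + Real.log ((g : ℝ) + A.card + M₁.card + 2) +
        √(Real.log ((B.card : ℝ) + M₂.card + 2)))) := mul_le_mul_of_nonneg_left h7 hK
    _ = _ := by ring

end Vale.Agent.P235.SurfF
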