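import Vale.Agent.P235.R2.H680.SurfK
import Vale.Agent.P235.R2.H549.KSpec
import Vale.Agent.P235.R2.H611.T5d

/-!
P235-M (helper680): terminals on surfaces, graphs without a `K_r` minor: square root bound for the
sources, the sinks and the genus (helper90, helper549, helper718, helper341).
-/

set_option linter.all false

namespace Vale.Agent.P235.R2.H680.SurfK

open Vale.Agent.P235 SimpleGraph Vale.Agent.P235.Red
open Vale.Agent.P235.R2.H582.GL Vale.Agent.P235.R2.H582.FewT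
open Vale.Agent.P235.R2.H582 (embeds_mono ll_mono)

/-- helper549's `RowLanesK`, with constant -/
def LanesK (C : ℝ) : Prop :=
  ∀ (r : ℕ) (V : Type) [Finite V] (G : SimpleGraph V) (ℓ : Sym2 V → ℝ),
    G.Connected → Kr.NoK r G → (∀ e ∈ G.edgeSet, 0 < ℓ e) →
    ∀ (u : V → ℝ), (∀ a b, |u a - u b| ≤ pathDist G ℓ a b) → ∀ (s : ℕ) (L : Fin s → Set V),
    (∀ i, ∀ a ∈ L i, ∀ b ∈ L i, pathDist G ℓ a b ≤ |u a - u b|) → (⋃ i, L i).Nonempty →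
    EmbedsL1 (fun x y : ↥(⋃ i, L i) => pathDist G ℓ x y)
      (C * ((r : ℝ) + 2) ^ 3 * √(Real.log ((s : ℝ) + 2)))

theorem stepLanes_of {C₁ : ℝ} (hC₁ : 1 ≤ C₁) (hLS : LanesK C₁) (hRS : Kr.RowK5) {V : Type}
    [Finite V] {G : SimpleGraph V} {ℓ : Sym2 V → ℝ} (r : ℕ) (hc : G.Connected)
    (hK : Kr.NoK r G) (hℓ : ∀ e ∈ G.edgeSet, 0 < ℓ e) :
    StepLanes G ℓ (400 * ((r : ℝ) + 2) ^ 3 * (C₁ * ((r : ℝ) + 2) ^ 3)) := by
  intro X n hX hlanes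
  obtain ⟨u, n', Ls, h1, h2, h3, h4, rfl⟩ := hlanes
  have hn : ((n' : ℕ) : ℝ) ≤ n := by exact_mod_cast h1
  have hn0 : (0 : ℝ) ≤ ((n' : ℕ) : ℝ) := Nat.cast_nonneg _
  have hr0 : (0 : ℝ) ≤ r := Nat.cast_nonneg _
  have h5 := hLS r V G ℓ hc hK hℓ u h2 n' Ls h4 hX
  have h6 : √(Real.log ((n' : ℝ) + 2)) ≤ √(Real.log ((n : ℝ) + 2)) :=
    Real.sqrt_le_sqrt (Real.log_le_log (by positivity) (by linarith))
  have h7 := Real.sqrt_nonneg (Real.log ((n : ℝ) + 2))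
  have hR : (1 : ℝ) ≤ ((r : ℝ) + 2) ^ 3 := one_le_pow₀ (by linarith)
  have hCR : 1 ≤ C₁ * ((r : ℝ) + 2) ^ 3 := by nlinarith
  have hB : 1 ≤ C₁ * ((r : ℝ) + 2) ^ 3 * (1 + √(Real.log ((n : ℝ) + 2))) := by nlinarith
  have h8 : EmbedsL1 (fun x y : ↥(⋃ i, Ls i) => pathDist G ℓ x y)
      (C₁ * ((r : ℝ) + 2) ^ 3 * (1 + √(Real.log ((n : ℝ) + 2)))) :=
    embeds_mono (fun a b => pd_nonneg hℓ _ _)
      (mul_le_mul_of_nonneg_left (by linarith) (by linarith)) h5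
  obtain ⟨F, k1, k2, k3⟩ := hRS V G ℓ r hc hK hℓ _ _ hX hB h8
  refine ⟨F, k1, fun a b => ?_, fun ν hν x y δ hδ hx hy hxy => ?_⟩
  · have h9 := pd_semi (ℓ := ℓ) (ρ := F) hc one_pos (fun x => k1.self x)
      (fun x y z => k1.tri x y z) (fun u v huv => by rw [one_mul]; exact k2 u v huv) a b
    rwa [one_mul] at h9
  · have h9 := k3 ν hν x y δ hδ hx hy hxy
    refine h9.trans (le_of_eq ?_)
    ring

/-- **Terminals on surfaces**, graphs without a `K_r` minor.  `G` has a rotation system of Euler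
genus at most `p` and no `K_r` minor, `h` is nonexpansive on `L`; every vertex of `L` outside `A`
has an edge of slope at least `1/D` downwards inside `L`, every one has one upwards, or is in `B` or
on one of the faces of `M`. -/
theorem surfK {C C₁ : ℝ} (hC1 : 1 ≤ C) (hMS : MStarLL C) (hC₁ : 1 ≤ C₁)
    (hLS : LanesK C₁) (hRS : Kr.RowK5) (V : Type) [Finite V]
    (G : SimpleGraph V) (σ : Equiv.Perm G.Dart) (ℓ : Sym2 V → ℝ) (h : V → ℝ) (L : Set V)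
    (A B : Finset V) (M : Finset G.Dart) (p r : ℕ) (D : ℝ) (hD : 1 ≤ D)
    (hc : G.Connected) (hσ : SurfMap p G σ) (hK : Kr.NoK r G) (hℓ : ∀ e ∈ G.edgeSet, 0 < ℓ e)
    (h1 : ∀ u ∈ L, ∀ v ∈ L, |h u - h v| ≤ pathDist G ℓ u v)
    (hlow : ∀ v ∈ L, (∃ u ∈ L, G.Adj v u ∧ ℓ s(v, u) ≤ D * (h v - h u)) ∨ v ∈ A)
    (hhigh : ∀ v ∈ L, (∃ u ∈ L, G.Adj v u ∧ ℓ s(v, u) ≤ D * (h u - h v)) ∨ v ∈ B ∨
      ∃ m ∈ M, v ∈ onFace σ m) :
    EmbedsL1 (fun u v : L => pathDist G ℓ u v)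
      (10 ^ 30 * (C * (400 * ((r : ℝ) + 2) ^ 3 * (C₁ * ((r : ℝ) + 2) ^ 3))) * D *
      ((ll (Nat.card V) : ℝ) + 1 + √(Real.log ((p + A.card + B.card + M.card : ℕ) + 2)))) := by
  have hr0 : (0 : ℝ) ≤ r := Nat.cast_nonneg _
  have hR : (1 : ℝ) ≤ ((r : ℝ) + 2) ^ 3 := one_le_pow₀ (by linarith)
  have hCR : 1 ≤ C₁ * ((r : ℝ) + 2) ^ 3 := by nlinarith
  obtain ⟨K, hKd⟩ : ∃ K : ℝ, K = 400 * ((r : ℝ) + 2) ^ 3 * (C₁ * ((r : ℝ) + 2) ^ 3) := ⟨_, rfl⟩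
  have hK1 : 1 ≤ K := by rw [hKd]; nlinarith
  rw [← hKd]
  obtain ⟨ℓ', k1, k2, k3, k4, k5⟩ := T5.exists_tight_lengths (A := (A : Set V))
    (B := {v | v ∈ B ∨ ∃ m ∈ M, v ∈ onFace σ m}) hD hc hℓ h1
    (fun v hv hvA => (hlow v hv).resolve_right fun h2 => hvA (Finset.mem_coe.2 h2))
    (fun v hv hvB => (hhigh v hv).resolve_right hvB)
  have hSL : StepLanes G ℓ' K := by
    rw [hKd]
    exact stepLanes_of hC₁ hLS hRS r hc hK k1
  have hE := surfK_tight hC1 hMS hK1 V G σ ℓ' h L A B M p hc hσ k1 hSL k2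
    (fun v hv hvA => by
      obtain ⟨u, h2, h3, h4, h5⟩ := k3 v hv fun h6 => hvA (Finset.mem_coe.1 h6)
      exact ⟨u, h4, h2.symm, by rw [Sym2.eq_swap]; exact h3⟩)
    (fun v hv => by
      by_cases hvB : v ∈ {v | v ∈ B ∨ ∃ m ∈ M, v ∈ onFace σ m}
      · exact Or.inr hvB
      · obtain ⟨u, h2, h3, h4, h5⟩ := k4 v hv hvB
        exact Or.inl ⟨u, h5, h2, h3⟩)
  have hKK : (0 : ℝ) ≤ 10 ^ 30 * (C * K) *
      ((ll (Nat.card V) : ℝ) + 1 + √(Real.log ((p + A.card + B.card + M.card : ℕ) + 2))) := by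
    have h2 := Real.sqrt_nonneg (Real.log ((p + A.card + B.card + M.card : ℕ) + 2))
    positivity
  have h4 := k5 _ hKK hE
  have h5 : 10 ^ 30 * (C * K) * ((ll (Nat.card V) : ℝ) + 1 +
        √(Real.log ((p + A.card + B.card + M.card : ℕ) + 2))) * D = 10 ^ 30 * (C * K) * D *
      ((ll (Nat.card V) : ℝ) + 1 +
        √(Real.log ((p + A.card + B.card + M.card : ℕ) + 2))) := by ring
  rwa [h5] at h4

end Vale.Agent.P235.R2.H680.SurfK
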