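import Vale.Agent.P235.R2.H680.SurfK2
import Vale.Agent.P235.R2.H549.KLanesAll
import Vale.Agent.P235.R2.H341.KrAll
import Vale.Agent.P235.R2.H882.MStar
import Vale.Agent.P235.R2.RED.Swept

/-!
P235-M (helper680): terminals on surfaces, graphs without a `K_r` minor: square root bound for the
sources, the sinks and the genus, unconditional.
-/

set_option linter.all false

namespace Vale.Agent.P235.R2.H680.SurfK

open Vale.Agent.P235 SimpleGraph Vale.Agent.P235.Red

/-- **Terminals on surfaces, graphs without a `K_r` minor.**  `G` has a rotation system of Euler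
genus at most `p` and no `K_r` minor, `L` is a set of vertices, `h` is nonexpansive on `L`; every
vertex of `L` outside `A` has an edge of slope at least `1/D` downwards inside `L`, every one has
one upwards, or is in `B`, or is on one of the faces of `M`. -/
theorem surf_all : ∃ K : ℝ, 1 ≤ K ∧ ∀ (V : Type) [Finite V]
    (G : SimpleGraph V) (σ : Equiv.Perm G.Dart) (ℓ : Sym2 V → ℝ) (h : V → ℝ) (L : Set V)
    (A B : Finset V) (M : Finset G.Dart) (p r : ℕ) (D : ℝ), 1 ≤ D →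
    G.Connected → SurfMap p G σ → Kr.NoK r G → (∀ e ∈ G.edgeSet, 0 < ℓ e) →
    (∀ u ∈ L, ∀ v ∈ L, |h u - h v| ≤ pathDist G ℓ u v) →
    (∀ v ∈ L, (∃ u ∈ L, G.Adj v u ∧ ℓ s(v, u) ≤ D * (h v - h u)) ∨ v ∈ A) →
    (∀ v ∈ L, (∃ u ∈ L, G.Adj v u ∧ ℓ s(v, u) ≤ D * (h u - h v)) ∨ v ∈ B ∨
      ∃ m ∈ M, v ∈ onFace σ m) →
    EmbedsL1 (fun u v : L => pathDist G ℓ u v) (K * ((r : ℝ) + 2) ^ 6 * D *
      (Swp.LL (Nat.card V) + √(Real.log ((p : ℝ) + A.card + B.card + M.card + 2)))) := by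
  obtain ⟨C₁, h1, h2⟩ := Kr.H549.lanesK
  refine ⟨10 ^ 30 * (228352 * (400 * C₁)), by linarith, ?_⟩
  intro V _ G σ ℓ h L A B M p r D hD hc hσ hK hℓ hl hlow hhigh
  have h3 := surfK (C := 228352) (by norm_num) H882.mStar h1 h2 Kr.step V G σ ℓ h L A B M p r D hD
    hc hσ hK hℓ hl hlow hhigh
  have h4 : 10 ^ 30 * (228352 * (400 * ((r : ℝ) + 2) ^ 3 * (C₁ * ((r : ℝ) + 2) ^ 3))) * D *
      ((ll (Nat.card V) : ℝ) + 1 + √(Real.log ((p + A.card + B.card + M.card : ℕ) + 2))) =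
      10 ^ 30 * (228352 * (400 * C₁)) * ((r : ℝ) + 2) ^ 6 * D *
      (Swp.LL (Nat.card V) + √(Real.log ((p : ℝ) + A.card + B.card + M.card + 2))) := by
    have h5 : Swp.LL (Nat.card V) = (ll (Nat.card V) : ℝ) + 1 := rfl
    rw [h5]
    push_cast
    ring
  rwa [h4] at h3

end Vale.Agent.P235.R2.H680.SurfK
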