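import Vale.Agent.P235.R2.H680.SurfF1
import Vale.Agent.P235.R2.H582.FaceT
import Vale.Agent.P235.R2.H934.Multi4

/-!
P235-M (helper680, after helper582's FaceT).  Terminals on surfaces: from exceptional vertices to
exceptional faces, in both directions.
-/

set_option autoImplicit false
set_option linter.all false

namespace Vale.Agent.P235.SurfL

open SimpleGraph Vale.Agent.P235 Vale.Agent.P235.Red Vale.Agent.P235.Red.F0 Vale.Agent.P235.Tight
  Vale.Agent.P235.H341W Vale.Agent.P235.Red.W3 Vale.Agent.P235.Quo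
open Vale.Agent.P235.R2.H582 (cD cD_fst cD_inj)
open Vale.Agent.P235.R2.H582.FaceT (widen capT onM onFace_same)
open Vale.Agent.P235.SurfF (cap_auxS)

/-- a new vertex joined to vertices of one face; the other faces are copied -/
theorem cap_facesT {g : ℕ} {V : Type} [Finite V] {G : SimpleGraph V} {σ : Equiv.Perm G.Dart}
    (hP : SurfMap g G σ) (d₀ : G.Dart) {T : Set V} (hne : T.Nonempty) (hT : T ⊆ onFace σ d₀) :
    ∃ σ' : Equiv.Perm (capG G T).Dart, SurfMap g (capG G T) σ' ∧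
      ∀ d, ¬ (faceNext σ).SameCycle d₀ d →
        (∀ v, v ∈ onFace σ d → some v ∈ onFace σ' (cD G T d)) ∧
        ∀ d', (faceNext σ').SameCycle (cD G T d) (cD G T d') → (faceNext σ).SameCycle d d' := by
  classical
  have hfin : T.Finite := Set.toFinite _
  obtain ⟨σ', h1, h2, h3⟩ := cap_auxS (d₀ := d₀) hP hfin.toFinset (by simpa using hne)
    (by simpa using hT) T (by simp)
  refine ⟨σ', h1, fun d hd => ?_⟩
  obtain ⟨a1, a2⟩ := h3 d hd
  refine ⟨?_, ?_⟩
  · rintro v ⟨d', k1, k2⟩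
    exact ⟨cD G _ d', a1 d' k1, by rw [cD_fst, k2]⟩
  · intro d' k
    obtain ⟨d'', e1, h4⟩ := a2 _ k
    rwa [cD_inj G _ e1]

/-- terminals, exceptional vertices and faces in both directions -/
structure WFL (g : ℕ) {V : Type} (G : SimpleGraph V) (σ : Equiv.Perm G.Dart) (ℓ : Sym2 V → ℝ)
    (h : V → ℝ) (D : ℝ) (L A B : Set V) (MA MB : Finset G.Dart) : Prop where
  surf : SurfMap g G σ
  wide : WideL G ℓ h D L (A ∪ onM σ MA) (B ∪ onM σ MB)
  sep : ∀ a ∈ MA, ∀ b ∈ MB, ¬ (faceNext σ).SameCycle a b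

theorem WFL.neg {g : ℕ} {V : Type} {G : SimpleGraph V} {σ : Equiv.Perm G.Dart}
    {ℓ : Sym2 V → ℝ} {h : V → ℝ} {D : ℝ} {L A B : Set V} {MA MB : Finset G.Dart}
    (hW : WFL g G σ ℓ h D L A B MA MB) : WFL g G σ ℓ (fun v => - h v) D L B A MB MA where
  surf := hW.surf
  wide := hW.wide.neg
  sep := fun a ha b hb k => hW.sep b hb a ha k.symm

theorem widen2 {V : Type} {G : SimpleGraph V} {ℓ : Sym2 V → ℝ} {h : V → ℝ} {D : ℝ}
    {L B₁ B₂ : Set V} (hW : WideL G ℓ h D L B₁ B₂) {B₁' B₂' : Set V}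
    (h1 : ∀ v ∈ L, v ∈ B₁ → v ∈ B₁') (h2 : ∀ v ∈ L, v ∈ B₂ → v ∈ B₂') :
    WideL G ℓ h D L B₁' B₂' where
  conn := hW.conn
  pos := hW.pos
  lip := hW.lip
  low := fun v hv hvB => hW.low v hv fun k => hvB (h1 v hv k)
  high := fun v hv hvB => hW.high v hv fun k => hvB (h2 v hv k)

theorem mono' {X : Type} {d : X → X → ℝ} (hd : ∀ x y, 0 ≤ d x y) {K K' : ℝ} (hK : K ≤ K')
    (hE : EmbedsL1 d K) : EmbedsL1 d K' := by
  obtain ⟨Ω, m, μ, f, hf⟩ := hE
  exact ⟨Ω, m, μ, f, fun x y => ⟨(hf x y).1, (hf x y).2.trans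
    (mul_le_mul_of_nonneg_right hK (hd x y))⟩⟩

/-- a bound `F n a b` for terminals in graphs with `n` vertices on surfaces of genus at most `g`,
with `a` exceptional vertices downwards and `b` upwards -/
def VFormS (g : ℕ) (D : ℝ) (F : ℕ → ℕ → ℕ → ℝ) : Prop :=
  ∀ (V : Type) [Finite V] (G : SimpleGraph V) (σ : Equiv.Perm G.Dart) (ℓ : Sym2 V → ℝ)
    (h : V → ℝ) (L A B : Set V), SurfMap g G σ → WideL G ℓ h D L A B →
    EmbedsL1 (fun u v : L => pathDist G ℓ u v) (F (Nat.card V) A.ncard B.ncard)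

theorem VFormS.neg {g : ℕ} {D : ℝ} {F : ℕ → ℕ → ℕ → ℝ} (hV : VFormS g D F) :
    VFormS g D (fun a b c => F a c b) := by
  intro V _ G σ ℓ h L A B hS hW
  exact hV V G σ ℓ (fun v => - h v) L B A hS hW.neg

/-- one step: one face of `MB` is removed -/
theorem WFL.step {g : ℕ} {V : Type} [Finite V] {G : SimpleGraph V} {σ : Equiv.Perm G.Dart}
    {ℓ : Sym2 V → ℝ} {h : V → ℝ} {D : ℝ} {L A B : Set V} {MA MB : Finset G.Dart} (hD : 1 ≤ D)
    (hW : WFL g G σ ℓ h D L A B MA MB) {m : G.Dart} (hm : m ∈ MB) {K : ℝ}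
    (hdrop : ∀ MB' : Finset G.Dart, MB'.card + 1 ≤ MB.card →
      WFL g G σ ℓ h D L A B MA MB' → EmbedsL1 (fun u v : L => pathDist G ℓ u v) K)
    (hcap : ∀ (T : Set V) (σ' : Equiv.Perm (capG G T).Dart) (H : ℝ) (A' B' : Set (Option V))
      (MA' MB' : Finset (capG G T).Dart), MA'.card ≤ MA.card → MB'.card + 1 ≤ MB.card →
      A'.ncard ≤ A.ncard → B'.ncard ≤ B.ncard + 1 →
      WFL g (capG G T) σ' (capL ℓ h H) (capH h H) D (capSet L) A' B' MA' MB' →
      EmbedsL1 (fun u v : (capSet L : Set (Option V)) => pathDist (capG G T) (capL ℓ h H) u v) K) :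
    EmbedsL1 (fun u v : L => pathDist G ℓ u v) K := by
  classical
  have hne : Nonempty V := hW.wide.conn.nonempty
  have hc := hW.wide.conn
  have hℓ := hW.wide.pos
  set T : Set V := onFace σ m ∩ L with hTdef
  rcases T.eq_empty_or_nonempty with hTe | hT
  · -- nothing on this face
    refine hdrop (MB.erase m) ?_ ⟨hW.surf, ?_, ?_⟩
    · rw [Finset.card_erase_of_mem hm]
      have := Finset.card_pos.2 ⟨m, hm⟩
      omega
    · refine widen hW.wide ?_
      rintro v hv (h1 | ⟨m', hm', h1⟩)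
      · exact Or.inl h1
      · refine Or.inr ⟨m', Finset.mem_erase.2 ⟨?_, hm'⟩, h1⟩
        rintro rfl
        have h2 : v ∈ T := ⟨h1, hv⟩
        rw [hTe] at h2
        exact h2
    · exact fun a ha b hb => hW.sep a ha b (Finset.mem_of_mem_erase hb)
  · obtain ⟨σ', hP', h0⟩ := cap_facesT hW.surf m hT Set.inter_subset_left
    obtain ⟨M₀, H, h1, h2⟩ := exists_height G ℓ h
    set N : Finset G.Dart := MB.filter fun m' => ¬ (faceNext σ).SameCycle m m' with hN
    have hNM : N ⊆ MB.erase m := by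
      intro m' hm'
      rw [hN, Finset.mem_filter] at hm'
      refine Finset.mem_erase.2 ⟨?_, hm'.1⟩
      rintro rfl
      exact hm'.2 (Equiv.Perm.SameCycle.refl _ _)
    have hNc : N.card + 1 ≤ MB.card := by
      have h3 := Finset.card_le_card hNM
      rw [Finset.card_erase_of_mem hm] at h3
      have := Finset.card_pos.2 ⟨m, hm⟩
      omega
    have hW1 : WideL G ℓ h D L (A ∪ onM σ MA) ((B ∪ onM σ N) ∪ T) := widen hW.wide (by
      rintro v hv (h3 | ⟨m', hm', h3⟩)
      · exact Or.inl (Or.inl h3)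
      · by_cases hs : (faceNext σ).SameCycle m m'
        · exact Or.inr ⟨onFace_same hs h3, hv⟩
        · exact Or.inl (Or.inr ⟨m', Finset.mem_filter.2 ⟨hm', hs⟩, h3⟩))
    have hW2 := capT hW1 hD hT Set.inter_subset_right h1 h2
    have hE := hcap T σ' H (some '' A) (some '' B ∪ {none}) (MA.image (cD G T))
      (N.image (cD G T)) Finset.card_image_le
      ((Nat.add_le_add_right Finset.card_image_le 1).trans hNc)
      (Set.ncard_image_of_injective A (Option.some_injective V)).le (by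
        refine (Set.ncard_union_le _ _).trans ?_
        rw [Set.ncard_image_of_injective B (Option.some_injective V), Set.ncard_singleton])
      ⟨hP', widen2 hW2 (by
        rintro v hv ⟨w, hw | ⟨m', hm', hw⟩, rfl⟩
        · exact Or.inl ⟨w, hw, rfl⟩
        · have hs : ¬ (faceNext σ).SameCycle m m' := fun k => hW.sep m' hm' m hm k.symm
          exact Or.inr ⟨_, Finset.mem_image_of_mem _ hm', (h0 m' hs).1 w hw⟩) (by
        rintro v hv (⟨w, hw | ⟨m', hm', hw⟩, rfl⟩ | h3)
        · exact Or.inl (Or.inl ⟨w, hw, rfl⟩)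
        · exact Or.inr ⟨_, Finset.mem_image_of_mem _ hm', (h0 m' (Finset.mem_filter.1 hm').2).1 w hw⟩
        · exact Or.inl (Or.inr h3)), by
        intro y hy z hz k
        obtain ⟨a, ha, rfl⟩ := Finset.mem_image.1 hy
        obtain ⟨b, hb, rfl⟩ := Finset.mem_image.1 hz
        have hs : ¬ (faceNext σ).SameCycle m a := fun k => hW.sep a ha m hm k.symm
        exact hW.sep a ha b (Finset.mem_filter.1 hb).1 ((h0 a hs).2 b k)⟩
    exact embeds_restrict (fun u : L => (⟨some u, Or.inr ⟨u, u.2, rfl⟩⟩ : capSet L))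
      (fun x y => cap_dist hc hℓ hT h1 h2 x y) hE

/-- **terminals on surfaces, from exceptional vertices to exceptional faces** -/
theorem faces_surfL {D : ℝ} (hD : 1 ≤ D) {g : ℕ} : ∀ (n : ℕ) (F : ℕ → ℕ → ℕ → ℝ),
    (∀ a b c a' b' c', a ≤ a' → b ≤ b' → c ≤ c' → F a b c ≤ F a' b' c') → VFormS g D F →
    ∀ (V : Type) [Finite V] (G : SimpleGraph V) (σ : Equiv.Perm G.Dart) (ℓ : Sym2 V → ℝ)
      (h : V → ℝ) (L A B : Set V) (MA MB : Finset G.Dart), WFL g G σ ℓ h D L A B MA MB →
      MA.card + MB.card ≤ n →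
      EmbedsL1 (fun u v : L => pathDist G ℓ u v)
        (F (Nat.card V + n) (A.ncard + MA.card) (B.ncard + MB.card)) := by
  classical
  intro n
  induction n with
  | zero =>
    intro F hF HV V _ G σ ℓ h L A B MA MB hW hn
    have hA : MA = ∅ := Finset.card_eq_zero.1 (by omega)
    have hB : MB = ∅ := Finset.card_eq_zero.1 (by omega)
    subst hA
    subst hB
    refine mono' (fun x y => d_nonneg hW.wide.pos _ _) (hF _ _ _ _ _ _ ?_ ?_ ?_)
      (HV V G σ ℓ h L A B hW.surf (widen2 hW.wide ?_ ?_))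
    · omega
    · simp
    · simp
    · rintro v hv (h1 | ⟨m, hm, -⟩)
      · exact h1
      · exact absurd hm (Finset.notMem_empty m)
    · rintro v hv (h1 | ⟨m, hm, -⟩)
      · exact h1
      · exact absurd hm (Finset.notMem_empty m)
  | succ n ih =>
    have step : ∀ (F : ℕ → ℕ → ℕ → ℝ),
        (∀ a b c a' b' c', a ≤ a' → b ≤ b' → c ≤ c' → F a b c ≤ F a' b' c') → VFormS g D F →
        ∀ (V : Type) [Finite V] (G : SimpleGraph V) (σ : Equiv.Perm G.Dart) (ℓ : Sym2 V → ℝ)
          (h : V → ℝ) (L A B : Set V) (MA MB : Finset G.Dart), WFL g G σ ℓ h D L A B MA MB →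
          MA.card + MB.card ≤ n + 1 → MB.Nonempty →
          EmbedsL1 (fun u v : L => pathDist G ℓ u v)
            (F (Nat.card V + (n + 1)) (A.ncard + MA.card) (B.ncard + MB.card)) := by
      intro F hF HV V _ G σ ℓ h L A B MA MB hW hn hne
      obtain ⟨m, hm⟩ := hne
      refine hW.step hD hm ?_ ?_
      · intro MB' hMB' hW'
        refine mono' (fun x y => d_nonneg hW.wide.pos _ _) (hF _ _ _ _ _ _ ?_ ?_ ?_)
          (ih F hF HV V G σ ℓ h L A B MA MB' hW' (by omega))
        · omega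
        · omega
        · omega
      · intro T σ' H A' B' MA' MB' k1 k2 k3 k4 hW'
        have hE := ih F hF HV (Option V) (capG G T) σ' _ _ _ A' B' MA' MB' hW' (by omega)
        rw [Finite.card_option] at hE
        refine mono' (fun x y => d_nonneg hW'.wide.pos _ _) (hF _ _ _ _ _ _ ?_ ?_ ?_) hE
        · omega
        · omega
        · omega
    intro F hF HV V _ G σ ℓ h L A B MA MB hW hn
    by_cases hB : MB.Nonempty
    · exact step F hF HV V G σ ℓ h L A B MA MB hW hn hB
    · by_cases hA : MA.Nonempty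
      · exact step (fun a b c => F a c b) (fun a b c a' b' c' ha hb hc => hF _ _ _ _ _ _ ha hc hb)
          HV.neg V G σ ℓ _ L B A MB MA hW.neg (by omega) hA
      · rw [Finset.not_nonempty_iff_eq_empty] at hA hB
        have h1 := ih F hF HV V G σ ℓ h L A B MA MB hW (by rw [hA, hB]; simp)
        exact mono' (fun x y => d_nonneg hW.wide.pos _ _)
          (hF _ _ _ _ _ _ (by omega) le_rfl le_rfl) h1

end Vale.Agent.P235.SurfL
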