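import Vale.Agent.P235.R2.H680.SurfL
import Vale.Agent.P235.R2.H680.SurfF3

/-!
P235-M (helper680).  Terminals on surfaces, exceptional vertices and faces in both directions: from
the form with exceptional vertices downwards.
-/

set_option autoImplicit false
set_option linter.all false

namespace Vale.Agent.P235.SurfL

open SimpleGraph Vale.Agent.P235 Vale.Agent.P235.Red Vale.Agent.P235.Red.F0 Vale.Agent.P235.Tight
  Vale.Agent.P235.H341W Vale.Agent.P235.Red.W3 Vale.Agent.P235.Quo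
open Vale.Agent.P235.R2.H582.FaceT (onM)
open Vale.Agent.P235.R2.H934 (ll_mono' ll_le_log)
open Vale.Agent.P235.SurfF (ll_add' ll_le_sqrt)

/-- terminals on surfaces: sources are vertices, sinks are vertices and faces -/
def SurfTerm (K : ℝ) : Prop :=
  ∀ (V : Type) [Finite V] (G : SimpleGraph V) (σ : Equiv.Perm G.Dart) (ℓ : Sym2 V → ℝ)
    (h : V → ℝ) (L : Set V) (A B : Finset V) (M : Finset G.Dart) (g : ℕ) (D : ℝ), 1 ≤ D →
    G.Connected → SurfMap g G σ → (∀ e ∈ G.edgeSet, 0 < ℓ e) →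
    (∀ u ∈ L, ∀ v ∈ L, |h u - h v| ≤ pathDist G ℓ u v) →
    (∀ v ∈ L, v ∉ A → ∃ u ∈ L, G.Adj v u ∧ ℓ s(v, u) ≤ D * (h v - h u)) →
    (∀ v ∈ L, (∃ u ∈ L, G.Adj v u ∧ ℓ s(v, u) ≤ D * (h u - h v)) ∨ v ∈ B ∨
      ∃ m ∈ M, v ∈ onFace σ m) →
    EmbedsL1 (fun u v : L => pathDist G ℓ u v) (K * D * ((ll (Nat.card V) : ℝ) + 1 +
      Real.log ((g + A.card : ℕ) + 2) + √(Real.log ((B.card + M.card : ℕ) + 2))))

/-- **terminals on surfaces, exceptional vertices and faces in both directions** -/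
theorem term_ends {K : ℝ} (hT : SurfTerm K) (hK0 : 0 ≤ K) (V : Type) [Finite V]
    (G : SimpleGraph V) (σ : Equiv.Perm G.Dart) (ℓ : Sym2 V → ℝ) (h : V → ℝ) (L : Set V)
    (A B : Finset V) (M₁ M₂ : Finset G.Dart) (g : ℕ) (D : ℝ) (hD : 1 ≤ D) (hc : G.Connected)
    (hS : SurfMap g G σ) (hℓ : ∀ e ∈ G.edgeSet, 0 < ℓ e)
    (hsep : ∀ a ∈ M₁, ∀ b ∈ M₂, ¬ (faceNext σ).SameCycle a b)
    (h1 : ∀ u ∈ L, ∀ v ∈ L, |h u - h v| ≤ pathDist G ℓ u v)
    (hlow : ∀ v ∈ L, (∃ u ∈ L, G.Adj v u ∧ ℓ s(v, u) ≤ D * (h v - h u)) ∨ v ∈ A ∨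
      ∃ m ∈ M₁, v ∈ onFace σ m)
    (hhigh : ∀ v ∈ L, (∃ u ∈ L, G.Adj v u ∧ ℓ s(v, u) ≤ D * (h u - h v)) ∨ v ∈ B ∨
      ∃ m ∈ M₂, v ∈ onFace σ m) :
    EmbedsL1 (fun u v : L => pathDist G ℓ u v) (5 * K * D *
      ((ll (Nat.card V) : ℝ) + 1 + Real.log (g + A.card + M₁.card + 2) +
        √(Real.log (B.card + M₂.card + 2)))) := by
  classical
  have hW : WFL g G σ ℓ h D L (A : Set V) (B : Set V) M₁ M₂ :=
    { surf := hS
      wide := ⟨hc, hℓ, h1, fun v hv hv' => by
          rcases hlow v hv with k | k | k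
          · exact k
          · exact absurd (Or.inl k) hv'
          · exact absurd (Or.inr k) hv', fun v hv hv' => by
          rcases hhigh v hv with k | k | k
          · exact k
          · exact absurd (Or.inl k) hv'
          · exact absurd (Or.inr k) hv'⟩
      sep := hsep }
  have hK : (0 : ℝ) ≤ K * D := by positivity
  have hE := faces_surfL hD (g := g) (M₁.card + M₂.card)
    (fun n a b => K * D * ((ll n : ℝ) + 1 + Real.log (g + a + 2) + √(Real.log (b + 2))))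
    (fun a b c a' b' c' ha hb hc => by
      have k1 := ll_mono' ha
      have hb' : (b : ℝ) ≤ b' := by exact_mod_cast hb
      have hc' : (c : ℝ) ≤ c' := by exact_mod_cast hc
      have k2 : Real.log ((g : ℝ) + b + 2) ≤ Real.log ((g : ℝ) + b' + 2) :=
        Real.log_le_log (by positivity) (by linarith)
      have k3 : √(Real.log ((c : ℝ) + 2)) ≤ √(Real.log ((c' : ℝ) + 2)) :=
        Real.sqrt_le_sqrt (Real.log_le_log (by positivity) (by linarith))
      exact mul_le_mul_of_nonneg_left (by linarith) hK)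
    (fun V _ G σ ℓ h L A B hS hW => by
      have hAf : A.Finite := Set.toFinite _
      have hBf : B.Finite := Set.toFinite _
      have h2 := hT V G σ ℓ h L hAf.toFinset hBf.toFinset ∅ g D hD hW.conn hS hW.pos hW.lip
        (fun v hv hvA => hW.low v hv fun k => hvA (hAf.mem_toFinset.2 k))
        (fun v hv => by
          by_cases hvB : v ∈ B
          · exact Or.inr (Or.inl (hBf.mem_toFinset.2 hvB))
          · exact Or.inl (hW.high v hv hvB))
      rw [← Set.ncard_eq_toFinset_card _ hAf, ← Set.ncard_eq_toFinset_card _ hBf,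
        Finset.card_empty, add_zero] at h2
      push_cast at h2
      exact h2)
    V G σ ℓ h L (A : Set V) (B : Set V) M₁ M₂ hW le_rfl
  rw [Set.ncard_coe_finset, Set.ncard_coe_finset] at hE
  refine mono' (fun x y => d_nonneg hℓ _ _) ?_ hE
  have hg0 : (0 : ℝ) ≤ g := Nat.cast_nonneg _
  have hA0 : (0 : ℝ) ≤ A.card := Nat.cast_nonneg _
  have hB0 : (0 : ℝ) ≤ B.card := Nat.cast_nonneg _
  have hM0 : (0 : ℝ) ≤ M₁.card := Nat.cast_nonneg _
  have hM0' : (0 : ℝ) ≤ M₂.card := Nat.cast_nonneg _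
  have h2 := ll_add' (Nat.card V) (M₁.card + M₂.card)
  have h2' := ll_add' M₁.card M₂.card
  have h3 := ll_le_log M₁.card
  have h3' := ll_le_sqrt M₂.card
  have h0 : (0 : ℝ) ≤ ll (Nat.card V) := Nat.cast_nonneg _
  have h4 : Real.log ((M₁.card : ℝ) + 2) ≤ Real.log ((g : ℝ) + A.card + M₁.card + 2) :=
    Real.log_le_log (by positivity) (by linarith)
  have h4' : √(Real.log ((M₂.card : ℝ) + 2)) ≤ √(Real.log ((B.card : ℝ) + M₂.card + 2)) :=
    Real.sqrt_le_sqrt (Real.log_le_log (by positivity) (by linarith))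
  have h5 : Real.log ((g : ℝ) + ((A.card + M₁.card : ℕ) : ℝ) + 2) =
      Real.log ((g : ℝ) + A.card + M₁.card + 2) := by
    congr 1
    push_cast
    ring
  have h5' : √(Real.log (((B.card + M₂.card : ℕ) : ℝ) + 2)) =
      √(Real.log ((B.card : ℝ) + M₂.card + 2)) := by
    congr 2
    push_cast
    ring
  have h6 : 0 ≤ Real.log ((g : ℝ) + A.card + M₁.card + 2) := Real.log_nonneg (by linarith)
  have h6' := Real.sqrt_nonneg (Real.log ((B.card : ℝ) + M₂.card + 2))
  beta_reduce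
  rw [h5, h5']
  have h7 : (ll (Nat.card V + (M₁.card + M₂.card)) : ℝ) + 1 +
      Real.log ((g : ℝ) + A.card + M₁.card + 2) + √(Real.log ((B.card : ℝ) + M₂.card + 2)) ≤
      5 * ((ll (Nat.card V) : ℝ) + 1 + Real.log ((g : ℝ) + A.card + M₁.card + 2) +
        √(Real.log ((B.card : ℝ) + M₂.card + 2))) := by linarith
  calc K * D * ((ll (Nat.card V + (M₁.card + M₂.card)) : ℝ) + 1 +
        Real.log ((g : ℝ) + A.card + M₁.card + 2) +
        √(Real.log ((B.card : ℝ) + M₂.card + 2))) ≤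
      K * D * (5 * ((ll (Nat.card V) : ℝ) + 1 + Real.log ((g : ℝ) + A.card + M₁.card + 2) +
        √(Real.log ((B.card : ℝ) + M₂.card + 2)))) := mul_le_mul_of_nonneg_left h7 hK
    _ = _ := by ring

end Vale.Agent.P235.SurfL
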