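import Vale.Agent.P235.R2.H680.SurfL2
import Vale.Agent.P235.R2.H680.Classes3

/-!
P235-M (helper680): the class of graphs on surfaces with terminals embeds, from `SurfTerm`.
-/

set_option linter.all false
set_option autoImplicit false

namespace Vale.Agent.P235.Pk

open SimpleGraph Vale.Agent.P235 Vale.Agent.P235.Red Vale.Agent.P235.SurfL

theorem OnSurfaceL.embeds {K : ℝ} (hT : SurfTerm K) (hK0 : 0 ≤ K) {V : Type} [Finite V]
    {G : SimpleGraph V} {ℓ : Sym2 V → ℝ} {D : ℝ} {L : Set V} (hc : G.Connected)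
    (hℓ : ∀ e ∈ G.edgeSet, 0 < ℓ e) (hD : 1 ≤ D) {a b : ℕ} (h : OnSurfaceL G ℓ D L a b) :
    EmbedsL1 (fun u v : L => pathDist G ℓ u v) (5 * K * D *
      (Swp.LL (Nat.card V) + Real.log ((a : ℝ) + 2) + √(Real.log ((b : ℝ) + 2)))) := by
  obtain ⟨γ, σ, h, A, B, M₁, M₂, hS, ha, hb, hsep, h1, hlow, hhigh⟩ := h
  obtain ⟨Ω, m, μ, f, hf⟩ :=
    term_ends hT hK0 V G σ ℓ h L A B M₁ M₂ γ D hD hc hS hℓ hsep h1 hlow hhigh
  refine ⟨Ω, m, μ, f, fun x y => ⟨(hf x y).1, (hf x y).2.trans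
    (mul_le_mul_of_nonneg_right ?_ (pd_nonneg hℓ x y))⟩⟩
  have ha' : (γ : ℝ) + A.card + M₁.card ≤ a := by exact_mod_cast ha
  have hb' : (B.card : ℝ) + M₂.card ≤ b := by exact_mod_cast hb
  have h3 : Real.log ((γ : ℝ) + A.card + M₁.card + 2) ≤ Real.log ((a : ℝ) + 2) :=
    Real.log_le_log (by positivity) (by linarith)
  have h4 : √(Real.log ((B.card : ℝ) + M₂.card + 2)) ≤ √(Real.log ((b : ℝ) + 2)) :=
    Real.sqrt_le_sqrt (Real.log_le_log (by positivity) (by linarith))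
  have h5 : Swp.LL (Nat.card V) = (ll (Nat.card V) : ℝ) + 1 := rfl
  rw [h5]
  exact mul_le_mul_of_nonneg_left (by linarith) (by positivity)

/-- all vertices are terminals -/
theorem OnSurfaceL.embeds_univ {K : ℝ} (hT : SurfTerm K) (hK0 : 0 ≤ K) {V : Type} [Finite V]
    {G : SimpleGraph V} {ℓ : Sym2 V → ℝ} {D : ℝ} (hc : G.Connected)
    (hℓ : ∀ e ∈ G.edgeSet, 0 < ℓ e) (hD : 1 ≤ D) {a b : ℕ}
    (h : OnSurfaceL G ℓ D Set.univ a b) :
    EmbedsL1 (pathDist G ℓ) (5 * K * D *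
      (Swp.LL (Nat.card V) + Real.log ((a : ℝ) + 2) + √(Real.log ((b : ℝ) + 2)))) := by
  obtain ⟨Ω, m, μ, f, hf⟩ := h.embeds hT hK0 hc hℓ hD
  exact ⟨Ω, m, μ, fun x => f ⟨x, trivial⟩, fun x y => hf ⟨x, trivial⟩ ⟨y, trivial⟩⟩

end Vale.Agent.P235.Pk
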