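import Vale.Agent.P235.R2.H90.Final
import Vale.Agent.P235.R2.H680.SurfF3

/-!
P235-M (helper680): graphs on surfaces, square root form, all slopes at least `1 / D`, exceptional
vertices and faces in both directions (from helper90's `surf_sqrt`).
-/

set_option linter.all false
set_option autoImplicit false

namespace Vale.Agent.P235.SurfS

open SimpleGraph Vale.Agent.P235.Red

theorem surfTightS {C : ℝ} (hC : 1 ≤ C) (hMS : MStarLL C) : SurfTightS (5 * 10 ^ 32 * C) := by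
  intro V _ G σ ℓ h A B MB g hc hS hℓ h1 hlow hhigh
  have h2 := R2.H90.Final.surf_sqrt hC hMS V G σ ℓ h A B MB g hc hS hℓ h1 hlow (fun v => by
    by_cases hv : v ∈ B
    · exact Or.inr (Or.inl hv)
    by_cases hm : ∃ m ∈ MB, v ∈ onFace σ m
    · exact Or.inr (Or.inr hm)
    · exact Or.inl (hhigh v hv fun m hm' k => hm ⟨m, hm', k⟩))
  push_cast at h2
  exact h2

/-- **surfaces, square root form, slopes at least `1 / D`** -/
theorem surfS_all {C : ℝ} (hC : 1 ≤ C) (hMS : MStarLL C) (V : Type) [Finite V]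
    (G : SimpleGraph V) (σ : Equiv.Perm G.Dart) (ℓ : Sym2 V → ℝ) (h : V → ℝ) (A B : Finset V)
    (MB : Finset G.Dart) (g : ℕ) (D : ℝ) (hD : 1 ≤ D) (hc : G.Connected) (hS : SurfMap g G σ)
    (hℓ : ∀ e ∈ G.edgeSet, 0 < ℓ e) (h1 : ∀ u v, G.Adj u v → |h u - h v| ≤ ℓ s(u, v))
    (hlow : ∀ v, v ∉ A → ∃ u, G.Adj v u ∧ ℓ s(v, u) ≤ D * (h v - h u))
    (hhigh : ∀ v, v ∉ B → (∀ m ∈ MB, v ∉ onFace σ m) →
      ∃ u, G.Adj v u ∧ ℓ s(v, u) ≤ D * (h u - h v)) :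
    EmbedsL1 (pathDist G ℓ) (5 * 10 ^ 32 * C * D *
      ((ll (Nat.card V) : ℝ) + 1 + Real.log (g + A.card + 2) +
        √(Real.log (B.card + MB.card + 2)))) :=
  surfS_D (surfTightS hC hMS) (by positivity) V G σ ℓ h A B MB g D hD hc hS hℓ h1 hlow hhigh

/-- **surfaces, square root form, distance from a root** -/
theorem surfS_root_all {C : ℝ} (hC : 1 ≤ C) (hMS : MStarLL C) (V : Type) [Finite V]
    (G : SimpleGraph V) (σ : Equiv.Perm G.Dart) (ℓ : Sym2 V → ℝ) (r : V) (B : Finset V)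
    (MB : Finset G.Dart) (g : ℕ) (hc : G.Connected) (hS : SurfMap g G σ)
    (hℓ : ∀ e ∈ G.edgeSet, 0 < ℓ e)
    (hhigh : ∀ v, (∃ u, G.Adj v u ∧ pathDist G ℓ r u = pathDist G ℓ r v + ℓ s(v, u)) ∨ v ∈ B ∨
      ∃ m ∈ MB, v ∈ onFace σ m) :
    EmbedsL1 (pathDist G ℓ) (5 * 10 ^ 32 * C *
      ((ll (Nat.card V) : ℝ) + 1 + Real.log (g + 3) +
        √(Real.log (B.card + MB.card + 2)))) :=
  surfS_root (surfTightS hC hMS) V G σ ℓ r B MB g hc hS hℓ hhigh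

/-- **surfaces, square root form, exceptional vertices and faces in both directions** -/
theorem surfS_ends_all {C : ℝ} (hC : 1 ≤ C) (hMS : MStarLL C) (V : Type) [Finite V]
    (G : SimpleGraph V) (σ : Equiv.Perm G.Dart) (ℓ : Sym2 V → ℝ) (h : V → ℝ) (A B : Finset V)
    (M₁ M₂ : Finset G.Dart) (g : ℕ) (D : ℝ) (hD : 1 ≤ D) (hc : G.Connected) (hS : SurfMap g G σ)
    (hℓ : ∀ e ∈ G.edgeSet, 0 < ℓ e) (h1 : ∀ u v, G.Adj u v → |h u - h v| ≤ ℓ s(u, v))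
    (hsep : ∀ a ∈ M₁, ∀ b ∈ M₂, ¬ (faceNext σ).SameCycle a b)
    (hlow : ∀ v, (∃ u, G.Adj v u ∧ ℓ s(v, u) ≤ D * (h v - h u)) ∨ v ∈ A ∨
      ∃ m ∈ M₁, v ∈ onFace σ m)
    (hhigh : ∀ v, (∃ u, G.Adj v u ∧ ℓ s(v, u) ≤ D * (h u - h v)) ∨ v ∈ B ∨
      ∃ m ∈ M₂, v ∈ onFace σ m) :
    EmbedsL1 (pathDist G ℓ) (25 * 10 ^ 32 * C * D *
      ((ll (Nat.card V) : ℝ) + 1 + Real.log (g + A.card + M₁.card + 2) +
        √(Real.log (B.card + M₂.card + 2)))) := by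
  have h2 := SurfF.surfS_ends (surfTightS hC hMS) (by positivity) V G σ ℓ h A B M₁ M₂ g D hD hc hS
    hℓ h1 hsep hlow hhigh
  have h3 : 5 * (5 * 10 ^ 32 * C) * D * ((ll (Nat.card V) : ℝ) + 1 +
      Real.log (g + A.card + M₁.card + 2) + √(Real.log (B.card + M₂.card + 2))) =
      25 * 10 ^ 32 * C * D * ((ll (Nat.card V) : ℝ) + 1 +
      Real.log (g + A.card + M₁.card + 2) + √(Real.log (B.card + M₂.card + 2))) := by ring
  rwa [h3] at h2

end Vale.Agent.P235.SurfS
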